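import Vale.Agent.P181.R2.H182.VDefs

set_option autoImplicit false

/-!
Polarisation by roots of unity: the coefficient functional of `t_1 ^ e ⋯ t_k ^ e` on homogeneous
polynomials of degree `k e` is a finite combination of point evaluations.
-/

namespace Vale.Agent.P181.VT

open Vale.Agent.P181 Vale.Agent.P181.H280 Vale.Agent.P181.FR

/-- One variable: the coefficient of `t ^ e` in a polynomial of degree `< R`. -/
theorem v1_one {R e : ℕ} (he : e < R) : ∃ (τ α : Fin R → ℂ), ∀ n : ℕ, n < R →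
    ∑ j, α j * τ j ^ n = if n = e then 1 else 0 := by
  have hR0 : R ≠ 0 := by omega
  have hRC : (R : ℂ) ≠ 0 := by exact_mod_cast hR0
  obtain ⟨ζ, hζ⟩ : ∃ ζ : ℂ, IsPrimitiveRoot ζ R := ⟨_, Complex.isPrimitiveRoot_exp R hR0⟩
  refine ⟨fun j => ζ ^ (j : ℕ), fun j => (R : ℂ)⁻¹ * (ζ ^ (j : ℕ)) ^ (R - e), fun n hn => ?_⟩
  have h1 : ∑ j : Fin R, ((R : ℂ)⁻¹ * (ζ ^ (j : ℕ)) ^ (R - e)) * (ζ ^ (j : ℕ)) ^ n =
      (R : ℂ)⁻¹ * ∑ j ∈ Finset.range R, (ζ ^ (R - e + n)) ^ j := by
    rw [Finset.mul_sum, ← Fin.sum_univ_eq_sum_range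
      (fun j => (R : ℂ)⁻¹ * (ζ ^ (R - e + n)) ^ j) R]
    refine Finset.sum_congr rfl fun j _ => ?_
    rw [mul_assoc, ← pow_add, ← pow_mul, ← pow_mul, mul_comm (j : ℕ)]
  rw [h1]
  by_cases h : n = e
  · subst h
    rw [if_pos rfl, Nat.sub_add_cancel he.le, hζ.pow_eq_one]
    simp [hRC]
  · rw [if_neg h]
    have h2 : ζ ^ (R - e + n) ≠ 1 := by
      intro h3
      obtain ⟨c, hc⟩ := hζ.dvd_of_pow_eq_one _ h3
      rcases Nat.lt_or_ge c 1 with h4 | h4
      · have : c = 0 := by omega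
        subst this
        omega
      · rcases Nat.lt_or_ge 1 c with h5 | h5
        · have : R * 2 ≤ R * c := Nat.mul_le_mul_left R h5
          omega
        · have : c = 1 := by omega
          subst this
          omega
    have h3 : (∑ j ∈ Finset.range R, (ζ ^ (R - e + n)) ^ j) * (ζ ^ (R - e + n) - 1) = 0 := by
      rw [geom_sum_mul, ← pow_mul, mul_comm, pow_mul, hζ.pow_eq_one, one_pow, sub_self]
    rcases mul_eq_zero.1 h3 with h4 | h4
    · rw [h4, mul_zero]
    · exact absurd (sub_eq_zero.1 h4) h2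

/-- V1: polarisation by roots of unity. -/
theorem v1 : ∀ k e : ℕ, ∃ (N : ℕ) (τ : Fin N → Fin k → ℂ) (α : Fin N → ℂ), Polar k e τ α := by
  intro k e
  obtain ⟨t, a, hta⟩ := v1_one (R := k * e + e + 1) (e := e) (by omega)
  refine ⟨(k * e + e + 1) ^ k, fun i β => t (finFunctionFinEquiv.symm i β),
    fun i => ∏ β, a (finFunctionFinEquiv.symm i β), fun n hn => ?_⟩
  have h1 : ∑ i : Fin ((k * e + e + 1) ^ k), (∏ β, a (finFunctionFinEquiv.symm i β)) *
      ∏ β, t (finFunctionFinEquiv.symm i β) ^ n β =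
      ∑ f : Fin k → Fin (k * e + e + 1), ∏ β, (a (f β) * t (f β) ^ n β) := by
    rw [← Equiv.sum_comp finFunctionFinEquiv.symm
      (fun f : Fin k → Fin (k * e + e + 1) => ∏ β, (a (f β) * t (f β) ^ n β))]
    exact Finset.sum_congr rfl fun i _ => Finset.prod_mul_distrib.symm
  have h2 : ∑ f : Fin k → Fin (k * e + e + 1), ∏ β, (a (f β) * t (f β) ^ n β) =
      ∏ β, ∑ j, a j * t j ^ n β := by
    rw [Finset.prod_univ_sum, Fintype.piFinset_univ]
  have h3 : ∀ β, n β < k * e + e + 1 := fun β => by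
    have := Finset.single_le_sum (fun i _ => Nat.zero_le (n i)) (Finset.mem_univ β)
    omega
  rw [h1, h2, Finset.prod_congr rfl fun β _ => hta (n β) (h3 β)]
  by_cases h : n = fun _ => e
  · rw [if_pos h]
    exact Finset.prod_eq_one fun β _ => if_pos (congrFun h β)
  · rw [if_neg h]
    obtain ⟨β, hβ⟩ := Function.ne_iff.1 h
    exact Finset.prod_eq_zero (Finset.mem_univ β) (if_neg hβ)

end Vale.Agent.P181.VT
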