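import Mathlib

set_option autoImplicit false

namespace Vale.Agent.P181.H425

/-- the constants `C_(s+1) = N (2 binom (s + n + 1) (n + 1) - 1)` -/
def cm (n N s : ℕ) : ℕ := N * (2 * (s + n + 1).choose (n + 1) - 1)

lemma cm_add (n N s : ℕ) : cm n N s + N = 2 * N * (s + n + 1).choose (n + 1) := by
  have h : 1 ≤ (s + n + 1).choose (n + 1) := Nat.choose_pos (by omega)
  obtain ⟨c, hc⟩ : ∃ c, (s + n + 1).choose (n + 1) = c + 1 := ⟨_, (Nat.sub_add_cancel h).symm⟩
  unfold cm
  rw [hc]
  have : 2 * (c + 1) - 1 = 2 * c + 1 := by omega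
  rw [this]; ring

lemma cm_zero (n N : ℕ) : cm n N 0 = N := by simp [cm]

/-- `C_(s+2) - C_(s+1) = 2 N binom (s + n + 1) n` -/
lemma cm_succ (n N s : ℕ) : cm n N (s + 1) = cm n N s + 2 * N * (s + n + 1).choose n := by
  have h1 := cm_add n N (s + 1)
  have h2 := cm_add n N s
  have h3 : (s + 1 + n + 1).choose (n + 1) = (s + n + 1).choose n + (s + n + 1).choose (n + 1) := by
    have : s + 1 + n + 1 = (s + n + 1) + 1 := by ring
    rw [this, Nat.choose_succ_succ]
  rw [h3] at h1
  have h4 : 2 * N * ((s + n + 1).choose n + (s + n + 1).choose (n + 1))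
      = 2 * N * (s + n + 1).choose n + 2 * N * (s + n + 1).choose (n + 1) := by ring
  omega

/-- `(n + 1) (C_(s+1) + N) = (s + 1) (C_(s+2) - C_(s+1))` -/
lemma cm_rel (n N s : ℕ) :
    (n + 1) * (cm n N s + N) = (s + 1) * (2 * N * (s + n + 1).choose n) := by
  rw [cm_add]
  have h := Nat.choose_succ_right_eq (s + n + 1) n
  have h2 : s + n + 1 - n = s + 1 := by omega
  rw [h2] at h
  calc (n + 1) * (2 * N * (s + n + 1).choose (n + 1))
      = 2 * N * ((s + n + 1).choose (n + 1) * (n + 1)) := by ring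
    _ = 2 * N * ((s + n + 1).choose n * (s + 1)) := by rw [h]
    _ = _ := by ring

section
variable (n N : ℕ) (hN : 1 ≤ N) (K : ℕ → ℕ → ℕ → Prop)
  (tree : ∀ a b t, t + N ≤ b → a ≤ N + 1 → K a b t)
  (zero : ∀ b t, K 0 b t)
  (step : ∀ s m b t, 2 ≤ s → m ≤ b → 2 * m ≤ b + 1 →
    (∀ t', t' ≤ t → K m (b + 1) t') → (∀ t', t' + s ≤ t → K (m + 1) b t') → m ≤ t →
    n * ((s - 1) * (b + 1)) < (n + 1) * (t - m) →
    n * ((s - 1) * (b + 1)) + (m + 1) < (n + 1) * t → K (m + 1) (b + 1) t)

include hN tree zero step in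
/-- **the recursion** (scheme of helper572) -/
theorem recM_tail : ∀ s a b t, a ≤ N + 1 → t + cm n N s ≤ (s + 1) * b → K a b t := by
  intro s
  induction s with
  | zero =>
    intro a b t ha ht
    rw [cm_zero] at ht
    exact tree a b t (by omega) ha
  | succ s ihs =>
    have hrel := cm_rel n N s
    have hsucc := cm_succ n N s
    have hch : 1 ≤ (s + n + 1).choose n := Nat.choose_pos (by omega)
    intro a b
    induction b generalizing a with
    | zero =>
      intro t ha ht
      exfalso
      have h1 : 0 < 2 * N * (s + n + 1).choose n := by positivity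
      omega
    | succ b ihb =>
      induction a with
      | zero => intro t _ _; exact zero _ _
      | succ m ihm =>
        intro t ha ht
        by_cases h1 : t + cm n N s ≤ (s + 1) * (b + 1)
        · exact ihs (m + 1) (b + 1) t ha h1
        push Not at h1
        set D := 2 * N * (s + n + 1).choose n with hD
        have hND : 2 * N ≤ D := by
          rw [hD]; exact Nat.le_mul_of_pos_right _ hch
        -- b + 1 > D
        have hbD : D < b + 1 := by
          have : t + cm n N s + D ≤ (s + 1) * (b + 1) + (b + 1) := by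
            calc t + cm n N s + D = t + cm n N (s + 1) := by omega
              _ ≤ (s + 1 + 1) * (b + 1) := ht
              _ = _ := by ring
          omega
        have hm : m ≤ N := by omega
        -- (s + 1) (b + 1) ≥ (s + 1) (D + 1)
        have h2 : (s + 1) * (D + 1) ≤ (s + 1) * (b + 1) := Nat.mul_le_mul_left _ hbD
        have h3 : (n + 1) * (cm n N s + N) + (s + 1) ≤ (s + 1) * (b + 1) := by
          rw [hrel]; nlinarith
        have h4 : (n + 1) * ((s + 1) * (b + 1) + 1) ≤ (n + 1) * (t + cm n N s) :=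
          Nat.mul_le_mul_left _ h1
        -- the light condition
        have h5 : n * ((s + 1) * (b + 1)) + (n + 1) * N < (n + 1) * t := by nlinarith
        have h6 : (n + 1) * m ≤ (n + 1) * N := Nat.mul_le_mul_left _ hm
        have hmt : m ≤ t := by
          by_contra h7
          have h8 : (n + 1) * t ≤ (n + 1) * m := Nat.mul_le_mul_left _ (by omega)
          have h9 : 0 ≤ n * ((s + 1) * (b + 1)) := Nat.zero_le _
          omega
        have h7 : (n + 1) * (t - m) + (n + 1) * m = (n + 1) * t := by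
          rw [← Nat.mul_add]; congr 1; omega
        refine step (s + 2) m b t (by omega) (by omega) (by omega) ?_ ?_ hmt ?_ ?_
        · intro t' ht'
          exact ihm t' (by omega) (by omega)
        · intro t' ht'
          refine ihb (m + 1) t' ha ?_
          have : t' + (s + 2) + cm n N (s + 1) ≤ (s + 1 + 1) * (b + 1) := by omega
          nlinarith
        · have h8 : s + 2 - 1 = s + 1 := rfl
          rw [h8]
          omega
        · have h8 : s + 2 - 1 = s + 1 := rfl
          rw [h8]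
          -- n (s+1)(b+1) + m + 1 < (n+1) t
          have h9 : N ≤ (n + 1) * N := Nat.le_mul_of_pos_left _ (Nat.succ_pos n)
          nlinarith

include hN tree zero step in
/-- **the tail theorem**, abstract form -/
theorem recM_slope (a b t : ℕ) (ha : a ≤ N + 1)
    (h : ∃ s, 1 ≤ s ∧ t + N * (2 * (s + n).choose (n + 1) - 1) ≤ s * b) : K a b t := by
  obtain ⟨s, hs, h⟩ := h
  obtain ⟨r, rfl⟩ : ∃ r, s = r + 1 := ⟨s - 1, by omega⟩
  refine recM_tail n N hN K tree zero step r a b t ha ?_
  have h1 : r + 1 + n = r + n + 1 := by ring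
  rw [h1] at h
  exact h

end

/-- one variable below the second row: the closed form `t ≤ b ^ 2 / (4 N) - b / 2 + N` -/
theorem recM_final (N : ℕ) (hN : 1 ≤ N) (K : ℕ → ℕ → ℕ → Prop)
    (tree : ∀ a b t, t + N ≤ b → a ≤ N + 1 → K a b t)
    (zero : ∀ b t, K 0 b t)
    (step : ∀ s m b t, 2 ≤ s → m ≤ b → 2 * m ≤ b + 1 →
      (∀ t', t' ≤ t → K m (b + 1) t') → (∀ t', t' + s ≤ t → K (m + 1) b t') → m ≤ t →
      1 * ((s - 1) * (b + 1)) < (1 + 1) * (t - m) →
      1 * ((s - 1) * (b + 1)) + (m + 1) < (1 + 1) * t → K (m + 1) (b + 1) t)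
    (a b t : ℕ) (ha : a ≤ N + 1) (hb : 2 * N ≤ b)
    (h : 4 * N * t + 2 * N * b ≤ b * b + 4 * (N * N)) : K a b t := by
  refine recM_slope 1 N hN K tree zero step a b t ha ?_
  obtain ⟨s, r, hr, hq⟩ : ∃ s r, r < 2 * N ∧ b = 2 * N * s + r :=
    ⟨b / (2 * N), b % (2 * N), Nat.mod_lt _ (by omega), (Nat.div_add_mod _ _).symm⟩
  have hs : 1 ≤ s := by
    by_contra h0
    have : s = 0 := by omega
    subst this
    omega
  refine ⟨s, hs, ?_⟩
  have h1 : 2 * (s + 1).choose (1 + 1) = (s + 1) * s := by
    have h2 : (s + 1).choose (1 + 1) = (s + 1) * s / 2 := by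
      rw [Nat.choose_two_right]; rfl
    rw [h2]
    exact Nat.two_mul_div_two_of_even (by
      rw [mul_comm]; exact Nat.even_mul_succ_self s)
  rw [h1]
  obtain ⟨c, hc⟩ : ∃ c, (s + 1) * s = c + 1 :=
    ⟨(s + 1) * s - 1, (Nat.sub_add_cancel (Nat.mul_pos (Nat.succ_pos s) hs)).symm⟩
  have h3 : (s + 1) * s - 1 = c := by omega
  rw [h3]
  have h4 : 4 * N * (t + N * c) ≤ 4 * N * (s * b) := by
    have h5 : r * r ≤ 2 * N * r := Nat.mul_le_mul_right _ hr.le
    have h6 : 4 * N * (N * c) + 4 * (N * N) = 4 * (N * N) * ((s + 1) * s) := by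
      rw [hc]; ring
    subst hq
    nlinarith
  exact Nat.le_of_mul_le_mul_left h4 (by omega)

end Vale.Agent.P181.H425
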