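import Mathlib

namespace Vale.Agent.P181.H425

open MvPolynomial

/-- value of a homogeneous polynomial at a multiple of a point -/
theorem eval_mul_hom {b t : ℕ} (G : MvPolynomial (Fin b) ℂ) (hh : G.IsHomogeneous t)
    (r : ℂ) (y : Fin b → ℂ) :
    eval (fun j => r * y j) G = r ^ t * eval y G := by
  rw [eval_eq', eval_eq', Finset.mul_sum]
  refine Finset.sum_congr rfl (fun m hm => ?_)
  have h1 : ∑ j, m j = t := by
    have h2 := hh (mem_support_iff.mp hm)
    rw [← h2]
    simp [Finsupp.weight_apply, Finsupp.sum_fintype]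
  have h3 : ∏ j, (r * y j) ^ m j = r ^ t * ∏ j, y j ^ m j := by
    rw [← h1, ← Finset.prod_pow_eq_pow_sum, ← Finset.prod_mul_distrib]
    exact Finset.prod_congr rfl (fun j _ => mul_pow _ _ _)
  rw [h3]
  ring

/-- the reversed expansion -/
theorem rev_expand {b d : ℕ} (G : MvPolynomial (Fin b) ℂ)
    (hd : ∀ j, degreeOf j G ≤ d) (c x : Fin b → ℂ) (hx : ∀ j, x j ≠ 0) :
    ∑ m ∈ G.support, G.coeff m * ∏ j, (c j ^ m j * x j ^ (d - m j))
      = (∏ j, x j ^ d) * eval (fun j => c j * (x j)⁻¹) G := by
  rw [eval_eq', Finset.mul_sum]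
  refine Finset.sum_congr rfl (fun m hm => ?_)
  have h1 : ∏ j, (c j ^ m j * x j ^ (d - m j))
      = (∏ j, x j ^ d) * ∏ j, (c j * (x j)⁻¹) ^ m j := by
    rw [← Finset.prod_mul_distrib]
    refine Finset.prod_congr rfl (fun j _ => ?_)
    have h2 : m j ≤ d := le_trans (monomial_le_degreeOf j hm) (hd j)
    rw [pow_sub₀ _ (hx j) h2, mul_pow, inv_pow]
    ring
  rw [h1]
  ring

/-- **sl_2 lemma**: a translation invariant homogeneous polynomial of degree `t` in `b`
variables, of degree at most `d` in each of them, vanishes if `d * b < 2 * t`. -/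
theorem sl2_lemma {b d t : ℕ} (G : MvPolynomial (Fin b) ℂ)
    (hd : ∀ j, degreeOf j G ≤ d) (hh : G.IsHomogeneous t)
    (htr : ∀ (e : ℂ) (c : Fin b → ℂ), eval (fun j => c j + e) G = eval c G)
    (h : d * b < 2 * t) : G = 0 := by
  -- the two polynomials in one variable
  have key : ∀ c : Fin b → ℂ,
      ∑ m ∈ G.support, G.coeff m * ∏ j, (1 - c j) ^ (d - m j) = 0 := by
    intro c
    set P1 : Polynomial ℂ := ∑ m ∈ G.support, Polynomial.C (G.coeff m) *
      ∏ j, (Polynomial.C (c j) ^ m j * (1 - Polynomial.C (c j) * Polynomial.X) ^ (d - m j))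
      with hP1
    set P2 : Polynomial ℂ := ∑ m ∈ G.support, Polynomial.C (G.coeff m) *
      ∏ j, (1 - Polynomial.C (c j) * Polynomial.X) ^ (d - m j) with hP2
    have e1 : ∀ s : ℂ, Polynomial.eval s P1 =
        ∑ m ∈ G.support, G.coeff m * ∏ j, (c j ^ m j * (1 - c j * s) ^ (d - m j)) := by
      intro s
      rw [hP1, Polynomial.eval_finsetSum]
      refine Finset.sum_congr rfl (fun m _ => ?_)
      simp [Polynomial.eval_prod]
    have e2 : ∀ s : ℂ, Polynomial.eval s P2 =
        ∑ m ∈ G.support, G.coeff m * ∏ j, ((1 : ℂ) ^ m j * (1 - c j * s) ^ (d - m j)) := by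
      intro s
      rw [hP2, Polynomial.eval_finsetSum]
      refine Finset.sum_congr rfl (fun m _ => ?_)
      simp [Polynomial.eval_prod]
    have hfin : Set.Finite ({(0 : ℂ)} ∪ Set.range (fun j => (c j)⁻¹)) :=
      (Set.finite_singleton _).union (Set.finite_range _)
    have hEq : Polynomial.X ^ t * P1 = P2 := by
      refine Polynomial.eq_of_infinite_eval_eq _ _ (Set.Infinite.mono ?_ hfin.infinite_compl)
      intro s hs
      rw [Set.mem_compl_iff, Set.mem_union, Set.mem_singleton_iff, Set.mem_range] at hs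
      push Not at hs
      obtain ⟨hs0, hs1⟩ := hs
      have hx : ∀ j, 1 - c j * s ≠ 0 := by
        intro j h0
        have h1 : c j * s = 1 := (sub_eq_zero.mp h0).symm
        exact hs1 j (inv_eq_of_mul_eq_one_right h1)
      show Polynomial.eval s (Polynomial.X ^ t * P1) = Polynomial.eval s P2
      rw [Polynomial.eval_mul, Polynomial.eval_pow, Polynomial.eval_X, e1 s, e2 s,
        rev_expand G hd c _ hx, rev_expand G hd (fun _ => 1) _ hx]
      have h3 : eval (fun j => c j * (1 - c j * s)⁻¹) G
          = eval (fun j => s⁻¹ * (1 * (1 - c j * s)⁻¹)) G := by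
        rw [← htr s⁻¹ (fun j => c j * (1 - c j * s)⁻¹)]
        have h30 : (fun j => c j * (1 - c j * s)⁻¹ + s⁻¹)
            = (fun j => s⁻¹ * (1 * (1 - c j * s)⁻¹)) := by
          funext j
          have h31 := hx j
          field_simp
          ring
        rw [h30]
      rw [h3, eval_mul_hom G hh s⁻¹, inv_pow]
      have h4 : s ^ t ≠ 0 := pow_ne_zero _ hs0
      rw [mul_left_comm, ← mul_assoc (s ^ t), mul_inv_cancel₀ h4, one_mul]
    -- degrees
    have hdeg : P2.natDegree ≤ d * b - t := by
      rw [hP2]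
      refine Polynomial.natDegree_sum_le_of_forall_le _ _ (fun m hm => ?_)
      refine le_trans (Polynomial.natDegree_C_mul_le _ _) ?_
      refine le_trans (Polynomial.natDegree_prod_le _ _) ?_
      have h1 : ∑ j, m j = t := by
        have h2 := hh (mem_support_iff.mp hm)
        rw [← h2]
        simp [Finsupp.weight_apply, Finsupp.sum_fintype]
      have h2 : ∀ j, m j ≤ d := fun j => le_trans (monomial_le_degreeOf j hm) (hd j)
      have h3 : ∑ j, (d - m j) + t = d * b := by
        rw [← h1, ← Finset.sum_add_distrib]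
        rw [Finset.sum_congr rfl (fun j _ => Nat.sub_add_cancel (h2 j))]
        simp [mul_comm]
      have h4 : ∑ j, ((1 - Polynomial.C (c j) * Polynomial.X : Polynomial ℂ) ^ (d - m j)).natDegree
          ≤ ∑ j, (d - m j) := by
        refine Finset.sum_le_sum (fun j _ => ?_)
        refine le_trans Polynomial.natDegree_pow_le ?_
        have h5 : (1 - Polynomial.C (c j) * Polynomial.X : Polynomial ℂ).natDegree ≤ 1 := by
          refine le_trans (Polynomial.natDegree_sub_le _ _) ?_
          refine max_le (by simp) (le_trans (Polynomial.natDegree_C_mul_le _ _) ?_)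
          exact Polynomial.natDegree_X_le
        calc (d - m j) * _ ≤ (d - m j) * 1 := Nat.mul_le_mul_left _ h5
          _ = d - m j := mul_one _
      omega
    have hP1z : P1 = 0 := by
      by_contra hne
      have h1 : (Polynomial.X ^ t * P1).natDegree = t + P1.natDegree :=
        Polynomial.natDegree_X_pow_mul t hne |>.trans (add_comm _ _)
      rw [hEq] at h1
      omega
    have hP2z : P2 = 0 := by rw [← hEq, hP1z, mul_zero]
    have := e2 1
    rw [hP2z, Polynomial.eval_zero] at this
    rw [this]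
    refine Finset.sum_congr rfl (fun m _ => ?_)
    congr 1
    exact Finset.prod_congr rfl (fun j _ => by rw [one_pow, one_mul, mul_one])
  -- G vanishes at all points with nonzero coordinates
  have hz : ∀ y : Fin b → ℂ, (∀ j, y j ≠ 0) → eval y G = 0 := by
    intro y hy
    have h1 := key (fun j => 1 - (y j)⁻¹)
    have hx : ∀ j, (y j)⁻¹ ≠ 0 := fun j => inv_ne_zero (hy j)
    have h2 := rev_expand G hd (fun _ => 1) (fun j => (y j)⁻¹) hx
    have h3 : ∑ m ∈ G.support, G.coeff m * ∏ j, ((1 : ℂ) ^ m j * ((y j)⁻¹) ^ (d - m j)) = 0 := by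
      rw [← h1]
      refine Finset.sum_congr rfl (fun m _ => ?_)
      congr 1
      refine Finset.prod_congr rfl (fun j _ => ?_)
      rw [one_pow, one_mul, sub_sub_cancel]
    rw [h3] at h2
    have h4 : ∏ j, ((y j)⁻¹) ^ d ≠ 0 := Finset.prod_ne_zero_iff.mpr (fun j _ => pow_ne_zero _ (hx j))
    have h5 := (mul_eq_zero.mp h2.symm).resolve_left h4
    have h6 : (fun j => (1 : ℂ) * ((y j)⁻¹)⁻¹) = y := by
      funext j
      rw [one_mul, inv_inv]
    rw [h6] at h5
    exact h5
  have hprod : G * ∏ j, X j = 0 := by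
    refine MvPolynomial.funext (fun y => ?_)
    rw [map_mul, map_prod, map_zero]
    by_cases hy : ∀ j, y j ≠ 0
    · rw [hz y hy, zero_mul]
    · push Not at hy
      obtain ⟨j, hj⟩ := hy
      rw [Finset.prod_eq_zero (Finset.mem_univ j) (by rw [eval_X, hj]), mul_zero]
  refine (mul_eq_zero.mp hprod).resolve_right ?_
  exact Finset.prod_ne_zero_iff.mpr (fun j _ => X_ne_zero j)

end Vale.Agent.P181.H425
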