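import Vale.Agent.P181.R2.H182.VDefs
import Vale.Agent.P181.R2.H415.Numer3

set_option autoImplicit false

/-!
The numbers of Theorem V.
-/

namespace Vale.Agent.P181.VT

open Vale.Agent.P181 Vale.Agent.P181.H280 Vale.Agent.P181.FR Filter

/-- One more power eats the shift of the argument. -/
lemma vnum_shift {n a b B E L : ℕ} (hb : b + 1 ≤ (B + 1) + E) (haB : a ≤ B)
    (ha : Real.exp (E * (n + 2)) ≤ a + 1)
    (hL : a.factorial * L ≤ ((b + 1) ^ (n + 2) + a) ^ a) :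
    (a + 1).factorial * L ≤ ((B + 1) ^ (n + 2) + (a + 1)) ^ (a + 1) := by
  have hx0 : (0 : ℝ) < (B : ℝ) + 1 := by positivity
  have hE0 : (0 : ℝ) ≤ (E : ℝ) / ((B : ℝ) + 1) := by positivity
  have hb' : (b : ℝ) + 1 ≤ (B : ℝ) + 1 + E := by exact_mod_cast hb
  have haB' : (a : ℝ) ≤ (B : ℝ) + 1 := by exact_mod_cast haB.trans (Nat.le_succ B)
  have hq : (b : ℝ) + 1 ≤ (1 + (E : ℝ) / ((B : ℝ) + 1)) * ((B : ℝ) + 1) := by
    rw [add_mul, one_mul, div_mul_cancel₀ _ hx0.ne']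
    exact hb'
  have h1 : ((b : ℝ) + 1) ^ (n + 2) + a ≤
      (1 + (E : ℝ) / ((B : ℝ) + 1)) ^ (n + 2) * (((B : ℝ) + 1) ^ (n + 2) + a) := by
    rw [mul_add, ← mul_pow]
    refine add_le_add (pow_le_pow_left₀ (by positivity) hq _) ?_
    refine le_mul_of_one_le_left (Nat.cast_nonneg _) (one_le_pow₀ (by linarith))
  have h2 : (1 + (E : ℝ) / ((B : ℝ) + 1)) ^ ((n + 2) * a) ≤ (a : ℝ) + 1 := by
    refine le_trans ?_ ha
    have h3 : (1 + (E : ℝ) / ((B : ℝ) + 1)) ^ ((n + 2) * a) ≤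
        Real.exp ((E : ℝ) / ((B : ℝ) + 1)) ^ ((n + 2) * a) := by
      refine pow_le_pow_left₀ (by positivity) ?_ _
      have := Real.add_one_le_exp ((E : ℝ) / ((B : ℝ) + 1))
      linarith
    refine h3.trans ?_
    rw [← Real.exp_nat_mul]
    apply Real.exp_le_exp.2
    push_cast
    have h4 : (a : ℝ) * ((E : ℝ) / ((B : ℝ) + 1)) ≤ E := by
      rw [mul_div_assoc', div_le_iff₀ hx0, mul_comm]
      exact mul_le_mul_of_nonneg_left haB' (Nat.cast_nonneg _)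
    have h5 : (0 : ℝ) ≤ (n : ℝ) + 2 := by positivity
    nlinarith [mul_le_mul_of_nonneg_left h4 h5]
  have h3 : ((a + 1).factorial * L : ℝ) ≤ ((a : ℝ) + 1) * (((a : ℝ) + 1) *
      (((B : ℝ) + 1) ^ (n + 2) + a) ^ a) := by
    have h4 : ((a.factorial * L : ℕ) : ℝ) ≤ (((b : ℝ) + 1) ^ (n + 2) + a) ^ a := by
      exact_mod_cast hL
    have h5 : (((b : ℝ) + 1) ^ (n + 2) + a) ^ a ≤ ((a : ℝ) + 1) *
        (((B : ℝ) + 1) ^ (n + 2) + a) ^ a := by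
      refine (pow_le_pow_left₀ (by positivity) h1 a).trans ?_
      rw [mul_pow, ← pow_mul]
      exact mul_le_mul_of_nonneg_right h2 (by positivity)
    rw [Nat.factorial_succ]
    push_cast at h4 ⊢
    rw [mul_assoc]
    exact mul_le_mul_of_nonneg_left (h4.trans h5) (by positivity)
  have h4 : ((a : ℝ) + 1) * ((a : ℝ) + 1) ≤ ((B : ℝ) + 1) ^ (n + 2) + (a + 1) := by
    have h6 : (a : ℝ) + 1 ≤ (B : ℝ) + 1 := by exact_mod_cast Nat.succ_le_succ haB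
    have h8 : (1 : ℝ) ≤ (B : ℝ) + 1 := by
      have : (0 : ℝ) ≤ B := Nat.cast_nonneg _
      linarith
    have h9 : ((B : ℝ) + 1) ^ 2 ≤ ((B : ℝ) + 1) ^ (n + 2) := pow_le_pow_right₀ h8 (by omega)
    have h10 : ((a : ℝ) + 1) * ((a : ℝ) + 1) ≤ ((B : ℝ) + 1) ^ 2 := by
      rw [pow_two]
      exact mul_le_mul h6 h6 (by positivity) (by positivity)
    have h11 : (0 : ℝ) ≤ (a : ℝ) + 1 := by positivity
    linarith
  have h5 : ((B : ℝ) + 1) ^ (n + 2) + a ≤ ((B : ℝ) + 1) ^ (n + 2) + (a + 1) := by linarith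
  have h6 : (((a + 1).factorial * L : ℕ) : ℝ) ≤
      ((((B + 1) ^ (n + 2) + (a + 1)) ^ (a + 1) : ℕ) : ℝ) := by
    push_cast
    refine h3.trans ?_
    rw [← mul_assoc, pow_succ' (((B : ℝ) + 1) ^ (n + 2) + ((a : ℝ) + 1)) a]
    exact mul_le_mul h4 (pow_le_pow_left₀ (by positivity) h5 a) (by positivity) (by positivity)
  exact_mod_cast h6

/-- **The numbers of Theorem V.** -/
theorem vnum (n : ℕ) {δ κ : ℝ} (hδ : 0 < δ) (hκ : 0 < κ) (K N0 N1 K1 : ℕ) : ∃ A : ℕ,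
    ∀ a b : ℕ, A ≤ a → (1 + δ) * a ≤ b → b ≤ K1 * a → ∃ k c h s : ℕ,
      (n + 3) ∣ k ∧ K ≤ k * nn (n + 2) ∧ K + (3 * (n + 3) * c + N0) ≤ a ∧
      k * nn (n + 2) + K ≤ b ∧ (n + 2) * h ≤ c ∧ s * (k * nn (n + 2)) ≤ h ^ (n + 2) ∧
      ((3 * (k * nn (n + 2) * c) + k * N1 + K * a : ℕ) : ℝ) ≤ κ * (a * b) ∧
      ∀ L : ℕ, a.factorial * L ≤ ((b + 1) ^ (n + 2) + a) ^ a →
        L * (k * nn (n + 2) * c + 1) ^ ((n + 3) * (n + 3) + (n + 3)) ≤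
          s ^ (k * nn (n + 2)) := by
  obtain ⟨η, hη0, hη1, A0, hA0⟩ := numer3 n (half_pos hδ) K1
  obtain ⟨T, hT⟩ : ∃ T : ℕ, T = (n + 3) * nn (n + 2) := ⟨_, rfl⟩
  have hnn : 1 ≤ nn (n + 2) := by
    unfold nn
    omega
  have hT0 : 0 < T := by
    rw [hT]
    positivity
  obtain ⟨E, hE⟩ : ∃ E : ℕ, E = K + T := ⟨_, rfl⟩
  obtain ⟨e0, he0⟩ : ∃ e0 : ℝ, e0 = min (κ / 6) (1 / (6 * ((n : ℝ) + 3))) := ⟨_, rfl⟩
  have he1 : e0 ≤ κ / 6 := by rw [he0]; exact min_le_left _ _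
  have he2 : e0 ≤ 1 / (6 * ((n : ℝ) + 3)) := by rw [he0]; exact min_le_right _ _
  have he3 : 0 < e0 := by
    rw [he0]
    exact lt_min (by positivity) (by positivity)
  have hsm : ∀ᶠ x : ℝ in atTop, x ^ (-η) ≤ e0 / 2 :=
    (tendsto_rpow_neg_atTop hη0).eventually_le_const (by positivity)
  obtain ⟨X, hX⟩ := eventually_atTop.1 hsm
  refine ⟨A0 + K + ⌈X⌉₊ + ⌈2 * ((E : ℝ) + 1) / δ⌉₊ + 1 + ⌈Real.exp (E * (n + 2))⌉₊ +
    ⌈2 * ((N1 : ℝ) + K) / κ⌉₊ + 2 * (N0 + K) + 1, fun a b ha hab hbK => ?_⟩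
  have ha1 : A0 ≤ a + 1 := by omega
  have ha2 : X ≤ a := (Nat.le_ceil X).trans (by exact_mod_cast (by omega : ⌈X⌉₊ ≤ a))
  have ha3 : 2 * ((E : ℝ) + 1) / δ + 1 ≤ a := by
    have h1 : ⌈2 * ((E : ℝ) + 1) / δ⌉₊ + 1 ≤ a := by omega
    have h2 : ((⌈2 * ((E : ℝ) + 1) / δ⌉₊ : ℕ) : ℝ) + 1 ≤ a := by exact_mod_cast h1
    linarith [Nat.le_ceil (2 * ((E : ℝ) + 1) / δ)]
  have ha4 : Real.exp (E * (n + 2)) ≤ a + 1 := by
    have h2 : ((⌈Real.exp (E * (n + 2))⌉₊ : ℕ) : ℝ) ≤ a := by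
      exact_mod_cast (by omega : ⌈Real.exp (E * (n + 2))⌉₊ ≤ a)
    linarith [Nat.le_ceil (Real.exp ((E : ℝ) * ((n : ℝ) + 2)))]
  have ha5 : 2 * ((N1 : ℝ) + K) / κ ≤ a := (Nat.le_ceil _).trans
    (by exact_mod_cast (by omega : ⌈2 * ((N1 : ℝ) + K) / κ⌉₊ ≤ a))
  have ha6 : 2 * (N0 + K) ≤ a := by omega
  have ha7 : 1 ≤ a := by omega
  have ha7' : (1 : ℝ) ≤ a := by exact_mod_cast ha7
  -- the number of blocks
  obtain ⟨k, hk⟩ : ∃ k : ℕ, k = (n + 3) * ((b - K) / T) := ⟨_, rfl⟩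
  obtain ⟨B, hB⟩ : ∃ B : ℕ, B = k * nn (n + 2) := ⟨_, rfl⟩
  have hBT : B = T * ((b - K) / T) := by
    rw [hB, hk, hT]
    ring
  have hB1 : B ≤ b - K := by
    rw [hBT]
    exact Nat.mul_div_le _ _
  have hB2 : b - K < B + T := by
    rw [hBT]
    have := Nat.lt_mul_div_succ (b - K) hT0
    rw [Nat.mul_add, Nat.mul_one] at this
    exact this
  have hab' : (a : ℝ) ≤ b := by nlinarith
  have hab2 : a ≤ b := by exact_mod_cast hab'
  have hKb : K ≤ b := by omega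
  have hB3 : b + 1 ≤ (B + 1) + E := by omega
  have hB3' : (b : ℝ) ≤ (B : ℝ) + E := by exact_mod_cast (by omega : b ≤ B + E)
  have hB4 : (1 + δ / 2) * ((a : ℝ) + 1) ≤ B := by
    have h1 : 2 * ((E : ℝ) + 1) ≤ ((a : ℝ) - 1) * δ := by
      rw [← div_le_iff₀ hδ]
      linarith
    nlinarith
  have hB5 : a + 1 ≤ B := by
    have h1 : (a : ℝ) + 1 ≤ B := by nlinarith
    exact_mod_cast h1
  obtain ⟨c, h, s, hc1, hc2, hc3, hc4, hc5⟩ := hA0 (a + 1) B ha1 (by push_cast; exact hB4)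
    (le_trans (by omega : B ≤ b) (hbK.trans (Nat.mul_le_mul_left _ (Nat.le_succ a))))
  have hc6 : (c : ℝ) ≤ e0 * a := by
    refine hc1.trans ?_
    have h1 : (0 : ℝ) < ((a + 1 : ℕ) : ℝ) := by positivity
    rw [sub_eq_add_neg, Real.rpow_add h1, Real.rpow_one]
    have h2 := hX ((a + 1 : ℕ) : ℝ) (by push_cast; linarith)
    have h3 : ((a + 1 : ℕ) : ℝ) ≤ 2 * a := by push_cast; linarith
    calc ((a + 1 : ℕ) : ℝ) * ((a + 1 : ℕ) : ℝ) ^ (-η) ≤ (2 * a) * (e0 / 2) :=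
          mul_le_mul h3 h2 (by positivity) (by positivity)
      _ = e0 * a := by ring
  refine ⟨k, c, h, s, ⟨_, hk⟩, ?_, ?_, ?_, hc3, ?_, ?_, ?_⟩
  · rw [← hB]
    omega
  · have h1 : (3 * ((n : ℝ) + 3)) * c ≤ a / 2 := by
      have h2 : (3 * ((n : ℝ) + 3)) * c ≤ (3 * ((n : ℝ) + 3)) * (1 / (6 * ((n : ℝ) + 3)) * a) :=
        mul_le_mul_of_nonneg_left (hc6.trans (mul_le_mul_of_nonneg_right he2 (by linarith)))
          (by positivity)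
      have h3 : (3 * ((n : ℝ) + 3)) * (1 / (6 * ((n : ℝ) + 3)) * a) = a / 2 := by
        field_simp
        ring
      linarith
    have h2 : 2 * (3 * (n + 3) * c) ≤ a := by
      have h3 : ((2 * (3 * (n + 3) * c) : ℕ) : ℝ) ≤ a := by
        push_cast
        linarith
      exact_mod_cast h3
    omega
  · rw [← hB]
    omega
  · rw [← hB]
    exact hc4
  · rw [← hB]
    push_cast
    have hkB : (k : ℝ) ≤ b := by
      have h1 : k ≤ B := by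
        rw [hB]
        exact Nat.le_mul_of_pos_right _ hnn
      exact_mod_cast h1.trans (by omega)
    have hBb : (B : ℝ) ≤ b := by exact_mod_cast (by omega : B ≤ b)
    have hb0 : (0 : ℝ) ≤ b := Nat.cast_nonneg _
    have h1 : (B : ℝ) * c ≤ b * (κ / 6 * a) :=
      mul_le_mul hBb (hc6.trans (mul_le_mul_of_nonneg_right he1 (by linarith)))
        (Nat.cast_nonneg _) hb0
    have h2 : (k : ℝ) * N1 ≤ b * N1 := mul_le_mul_of_nonneg_right hkB (Nat.cast_nonneg _)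
    have h3 : (K : ℝ) * a ≤ K * b := mul_le_mul_of_nonneg_left hab' (Nat.cast_nonneg _)
    have h4 : 2 * ((N1 : ℝ) + K) ≤ a * κ := (div_le_iff₀ hκ).1 ha5
    have h5 := mul_le_mul_of_nonneg_right h4 hb0
    nlinarith
  · intro L hL
    have h1 := hc5 L (vnum_shift hB3 (by omega) ha4 hL)
    rw [← hB]
    exact h1

end Vale.Agent.P181.VT
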