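import Vale.Agent.P181.R2.H207.KDefs

set_option autoImplicit false

namespace Vale.Agent.P181.KT

open Finset

namespace K2A

lemma sum_succ {α : Type} [DecidableEq α] {b : ℕ} (s : Finset α) (F : (Fin (b + 1) → α) → ℝ) :
    ∑ f ∈ Fintype.piFinset (fun _ : Fin (b + 1) => s), F f =
      ∑ u ∈ s, ∑ f ∈ Fintype.piFinset (fun _ : Fin b => s), F (Fin.cons u f) := by
  rw [← Finset.sum_product' s (Fintype.piFinset (fun _ : Fin b => s))
    (fun u f => F (Fin.cons u f))]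
  refine Finset.sum_nbij' (fun f => (f 0, Fin.tail f)) (fun p => Fin.cons p.1 p.2) ?_ ?_ ?_ ?_ ?_
  · intro f hf
    rw [Fintype.mem_piFinset] at hf
    rw [Finset.mem_product, Fintype.mem_piFinset]
    exact ⟨hf 0, fun j => hf j.succ⟩
  · intro p hp
    rw [Finset.mem_product, Fintype.mem_piFinset] at hp
    rw [Fintype.mem_piFinset]
    intro j
    refine Fin.cases ?_ (fun j => ?_) j
    · simpa using hp.1
    · simpa using hp.2 j
  · intro f _
    exact Fin.cons_self_tail f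
  · intro p _
    simp
  · intro f _
    rw [Fin.cons_self_tail]

variable {m c : ℕ} {η x : Fin m → ℝ}

/-- the weight of a monomial -/
noncomputable def W (η : Fin m → ℝ) (u : Fin m → ℕ) : ℝ := Real.exp (∑ i, η i * (u i : ℝ))

lemma W_nonneg (η : Fin m → ℝ) (u : Fin m → ℕ) : 0 ≤ W η u := (Real.exp_pos _).le

lemma W_add (η : Fin m → ℝ) (u v : Fin m → ℕ) : W η (u + v) = W η u * W η v := by
  unfold W
  rw [← Real.exp_add, ← Finset.sum_add_distrib]
  congr 1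
  apply Finset.sum_congr rfl
  intro i _
  rw [Pi.add_apply]
  push_cast
  ring

lemma W_sum (η : Fin m → ℝ) {b : ℕ} (f : Fin b → Fin m → ℕ) :
    W η (∑ j, f j) = ∏ j, W η (f j) := by
  induction b with
  | zero => simp [W]
  | succ b ih => rw [Fin.sum_univ_succ, Fin.prod_univ_succ, W_add, ih]

lemma sum_mem {b : ℕ} {f : Fin b → Fin m → ℕ}
    (hf : f ∈ Fintype.piFinset (fun _ : Fin b => Mn m c)) : ∑ j, f j ∈ Mn m (b * c) := by
  rw [Fintype.mem_piFinset] at hf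
  rw [Mn, Finset.mem_piAntidiag]
  refine ⟨?_, fun _ _ => Finset.mem_univ _⟩
  have h1 : ∀ j, ∑ i, f j i = c := by
    intro j
    have := hf j
    rw [Mn, Finset.mem_piAntidiag] at this
    exact this.1
  calc ∑ i, (∑ j, f j) i = ∑ i, ∑ j, f j i := by
        apply Finset.sum_congr rfl
        intro i _
        rw [Finset.sum_apply]
    _ = ∑ j, ∑ i, f j i := Finset.sum_comm
    _ = b * c := by simp [h1]

/-- Sums over tuples. -/
lemma fiber {b : ℕ} (g : (Fin m → ℕ) → ℝ) :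
    ∑ f ∈ Fintype.piFinset (fun _ : Fin b => Mn m c), (∏ j, W η (f j)) * g (∑ j, f j) =
      ∑ v ∈ Mn m (b * c), (NN m c b v : ℝ) * W η v * g v := by
  rw [← Finset.sum_fiberwise_of_maps_to (t := Mn m (b * c))
    (g := fun f : Fin b → Fin m → ℕ => ∑ j, f j) (fun f hf => sum_mem hf)]
  apply Finset.sum_congr rfl
  intro v _
  rw [NN, Finset.card_eq_sum_ones, Nat.cast_sum, Finset.sum_mul, Finset.sum_mul]
  apply Finset.sum_congr rfl
  intro f hf
  rw [Finset.mem_filter] at hf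
  rw [← W_sum, hf.2]
  simp

lemma total {b : ℕ} :
    ∑ f ∈ Fintype.piFinset (fun _ : Fin b => Mn m c), ∏ j, W η (f j) = ZZ m c η ^ b := by
  rw [ZZ, ← Finset.prod_univ_sum]
  simp [W]

lemma cross (hM : Mean m c η x) (i : Fin m) :
    ∑ u ∈ Mn m c, W η u * ((u i : ℝ) - x i) = 0 := by
  have h := hM i
  have h2 : ∑ u ∈ Mn m c, W η u * ((u i : ℝ) - x i) =
      ∑ u ∈ Mn m c, (u i : ℝ) * Real.exp (∑ k, η k * (u k : ℝ)) - x i * ZZ m c η := by
    rw [ZZ, Finset.mul_sum, ← Finset.sum_sub_distrib]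
    apply Finset.sum_congr rfl
    intro u _
    unfold W
    ring
  rw [h2, h, sub_self]

lemma var (hM : Mean m c η x) (i : Fin m) :
    ∑ u ∈ Mn m c, W η u * ((u i : ℝ) - x i) ^ 2 ≤ (c : ℝ) ^ 2 * ZZ m c η := by
  have h0 := cross hM i
  have h2 : ∑ u ∈ Mn m c, W η u * ((u i : ℝ) - x i) ^ 2 =
      ∑ u ∈ Mn m c, W η u * (u i : ℝ) ^ 2 - x i ^ 2 * ZZ m c η
        - 2 * x i * ∑ u ∈ Mn m c, W η u * ((u i : ℝ) - x i) := by
    rw [ZZ, Finset.mul_sum, Finset.mul_sum, ← Finset.sum_sub_distrib, ← Finset.sum_sub_distrib]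
    apply Finset.sum_congr rfl
    intro u _
    unfold W
    ring
  rw [h2, h0, mul_zero, sub_zero]
  have hZ : 0 ≤ ZZ m c η := Finset.sum_nonneg (fun u _ => (Real.exp_pos _).le)
  have h3 : ∑ u ∈ Mn m c, W η u * (u i : ℝ) ^ 2 ≤ (c : ℝ) ^ 2 * ZZ m c η := by
    rw [ZZ, Finset.mul_sum]
    apply Finset.sum_le_sum
    intro u hu
    rw [Mn, Finset.mem_piAntidiag] at hu
    have hui : u i ≤ c := by
      rw [← hu.1]
      exact Finset.single_le_sum (fun _ _ => Nat.zero_le _) (Finset.mem_univ i)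
    have hui' : (u i : ℝ) ≤ c := by exact_mod_cast hui
    have h5 : (u i : ℝ) ^ 2 ≤ (c : ℝ) ^ 2 := pow_le_pow_left₀ (Nat.cast_nonneg _) hui' 2
    calc W η u * (u i : ℝ) ^ 2 ≤ W η u * (c : ℝ) ^ 2 :=
          mul_le_mul_of_nonneg_left h5 (W_nonneg η u)
      _ = (c : ℝ) ^ 2 * Real.exp (∑ k, η k * (u k : ℝ)) := by rw [mul_comm]; rfl
  have h4 : 0 ≤ x i ^ 2 * ZZ m c η := mul_nonneg (sq_nonneg _) hZ
  linarith

lemma second (hM : Mean m c η x) (i : Fin m) (b : ℕ) :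
    ∑ f ∈ Fintype.piFinset (fun _ : Fin b => Mn m c),
      (∏ j, W η (f j)) * (((∑ j, f j) i : ℕ) - (b : ℝ) * x i) ^ 2 ≤
        b * (c : ℝ) ^ 2 * ZZ m c η ^ b := by
  induction b with
  | zero => simp
  | succ b ih =>
    rw [sum_succ]
    have e1 : ∀ u ∈ Mn m c, ∑ f ∈ Fintype.piFinset (fun _ : Fin b => Mn m c),
        (∏ j, W η ((Fin.cons u f : Fin (b + 1) → Fin m → ℕ) j)) *
          (((∑ j, (Fin.cons u f : Fin (b + 1) → Fin m → ℕ) j) i : ℕ) -
            ((b + 1 : ℕ) : ℝ) * x i) ^ 2 =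
        W η u * ((u i : ℝ) - x i) ^ 2 * ZZ m c η ^ b +
        (W η u * ((u i : ℝ) - x i)) * (2 * ∑ f ∈ Fintype.piFinset (fun _ : Fin b => Mn m c),
          (∏ j, W η (f j)) * (((∑ j, f j) i : ℕ) - (b : ℝ) * x i)) +
        W η u * ∑ f ∈ Fintype.piFinset (fun _ : Fin b => Mn m c),
          (∏ j, W η (f j)) * (((∑ j, f j) i : ℕ) - (b : ℝ) * x i) ^ 2 := by
      intro u _
      rw [← total, Finset.mul_sum, Finset.mul_sum, Finset.mul_sum, Finset.mul_sum,
        ← Finset.sum_add_distrib, ← Finset.sum_add_distrib]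
      apply Finset.sum_congr rfl
      intro f _
      rw [Fin.prod_univ_succ, Fin.sum_univ_succ]
      simp only [Fin.cons_zero, Fin.cons_succ]
      rw [Pi.add_apply]
      push_cast
      ring
    rw [Finset.sum_congr rfl e1, Finset.sum_add_distrib, Finset.sum_add_distrib,
      ← Finset.sum_mul, ← Finset.sum_mul, ← Finset.sum_mul, cross hM i, zero_mul, add_zero]
    have hZ : 0 ≤ ZZ m c η := Finset.sum_nonneg (fun u _ => (Real.exp_pos _).le)
    have e2 : ∑ u ∈ Mn m c, W η u = ZZ m c η := rfl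
    rw [e2]
    have h1 := mul_le_mul_of_nonneg_right (var hM i) (pow_nonneg hZ b)
    have h2 := mul_le_mul_of_nonneg_left ih hZ
    calc _ ≤ (c : ℝ) ^ 2 * ZZ m c η * ZZ m c η ^ b + ZZ m c η *
          (b * (c : ℝ) ^ 2 * ZZ m c η ^ b) := add_le_add h1 h2
      _ = ((b + 1 : ℕ) : ℝ) * (c : ℝ) ^ 2 * ZZ m c η ^ (b + 1) := by
          push_cast
          ring

end K2A

open K2A

/-- K2 (Chebyshev). -/
theorem k2 : ∀ {m c b : ℕ} {η x : Fin m → ℝ} {D : ℝ}, Mean m c η x → 0 < D →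
    2 * m * b * (c : ℝ) ^ 2 ≤ D ^ 2 →
    ZZ m c η ^ b ≤ 2 * ∑ v ∈ (Mn m (b * c)).filter (fun v => ∀ i, |(v i : ℝ) - b * x i| ≤ D),
      (NN m c b v : ℝ) * Real.exp (∑ i, η i * (v i : ℝ)) := by
  intro m c b η x D hM hD hb
  have hZ : 0 ≤ ZZ m c η := Finset.sum_nonneg (fun u _ => (Real.exp_pos _).le)
  have hD2 : 0 < D ^ 2 := by positivity
  -- pointwise inequality
  have h1 : ∀ v : Fin m → ℕ, (1 : ℝ) ≤ (if ∀ i, |(v i : ℝ) - b * x i| ≤ D then 1 else 0) +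
      ∑ i, ((v i : ℝ) - b * x i) ^ 2 / D ^ 2 := by
    intro v
    split_ifs with h
    · have : 0 ≤ ∑ i, ((v i : ℝ) - b * x i) ^ 2 / D ^ 2 :=
        Finset.sum_nonneg (fun i _ => by positivity)
      linarith
    · push Not at h
      obtain ⟨i, hi⟩ := h
      have h2 : (1 : ℝ) ≤ ((v i : ℝ) - b * x i) ^ 2 / D ^ 2 := by
        rw [le_div_iff₀ hD2, one_mul, ← sq_abs ((v i : ℝ) - b * x i)]
        exact pow_le_pow_left₀ hD.le hi.le 2
      have h3 : ((v i : ℝ) - b * x i) ^ 2 / D ^ 2 ≤ ∑ i, ((v i : ℝ) - b * x i) ^ 2 / D ^ 2 :=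
        Finset.single_le_sum (f := fun i => ((v i : ℝ) - b * x i) ^ 2 / D ^ 2)
          (fun i _ => by positivity) (Finset.mem_univ i)
      linarith
  -- sum over tuples
  have h2 : ZZ m c η ^ b ≤
      ∑ f ∈ Fintype.piFinset (fun _ : Fin b => Mn m c), (∏ j, W η (f j)) *
        ((if ∀ i, |(((∑ j, f j) i : ℕ) : ℝ) - b * x i| ≤ D then (1 : ℝ) else 0) +
        ∑ i, ((((∑ j, f j) i : ℕ) : ℝ) - b * x i) ^ 2 / D ^ 2) := by
    rw [← total]
    apply Finset.sum_le_sum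
    intro f _
    have h3 : 0 ≤ ∏ j, W η (f j) := Finset.prod_nonneg (fun j _ => W_nonneg _ _)
    calc ∏ j, W η (f j) = (∏ j, W η (f j)) * 1 := (mul_one _).symm
      _ ≤ _ := mul_le_mul_of_nonneg_left (h1 _) h3
  have h3 : ∑ f ∈ Fintype.piFinset (fun _ : Fin b => Mn m c), (∏ j, W η (f j)) *
        ((if ∀ i, |(((∑ j, f j) i : ℕ) : ℝ) - b * x i| ≤ D then (1 : ℝ) else 0) +
        ∑ i, ((((∑ j, f j) i : ℕ) : ℝ) - b * x i) ^ 2 / D ^ 2) =
      ∑ f ∈ Fintype.piFinset (fun _ : Fin b => Mn m c), (∏ j, W η (f j)) *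
        (if ∀ i, |(((∑ j, f j) i : ℕ) : ℝ) - b * x i| ≤ D then (1 : ℝ) else 0) +
      ∑ i, (∑ f ∈ Fintype.piFinset (fun _ : Fin b => Mn m c),
        (∏ j, W η (f j)) * (((∑ j, f j) i : ℕ) - (b : ℝ) * x i) ^ 2) / D ^ 2 := by
    have e3 : ∑ i, (∑ f ∈ Fintype.piFinset (fun _ : Fin b => Mn m c),
        (∏ j, W η (f j)) * (((∑ j, f j) i : ℕ) - (b : ℝ) * x i) ^ 2) / D ^ 2 =
        ∑ f ∈ Fintype.piFinset (fun _ : Fin b => Mn m c), (∏ j, W η (f j)) *
          ∑ i, ((((∑ j, f j) i : ℕ) : ℝ) - b * x i) ^ 2 / D ^ 2 := by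
      simp_rw [Finset.sum_div, Finset.mul_sum]
      rw [Finset.sum_comm]
      apply Finset.sum_congr rfl
      intro f _
      apply Finset.sum_congr rfl
      intro i _
      ring
    rw [e3, ← Finset.sum_add_distrib]
    apply Finset.sum_congr rfl
    intro f _
    ring
  rw [h3, fiber (g := fun v => if ∀ i, |((v i : ℕ) : ℝ) - b * x i| ≤ D then (1 : ℝ) else 0)] at h2
  have h4 : ∑ v ∈ Mn m (b * c), (NN m c b v : ℝ) * W η v *
      (if ∀ i, |((v i : ℕ) : ℝ) - b * x i| ≤ D then (1 : ℝ) else 0) =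
      ∑ v ∈ (Mn m (b * c)).filter (fun v => ∀ i, |(v i : ℝ) - b * x i| ≤ D),
        (NN m c b v : ℝ) * Real.exp (∑ i, η i * (v i : ℝ)) := by
    rw [Finset.sum_filter]
    apply Finset.sum_congr rfl
    intro v _
    split_ifs with h
    · rw [mul_one]; rfl
    · rw [mul_zero]
  have h5 : ∑ i : Fin m, (∑ f ∈ Fintype.piFinset (fun _ : Fin b => Mn m c),
        (∏ j, W η (f j)) * (((∑ j, f j) i : ℕ) - (b : ℝ) * x i) ^ 2) / D ^ 2 ≤
      ZZ m c η ^ b / 2 := by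
    calc ∑ i : Fin m, (∑ f ∈ Fintype.piFinset (fun _ : Fin b => Mn m c),
        (∏ j, W η (f j)) * (((∑ j, f j) i : ℕ) - (b : ℝ) * x i) ^ 2) / D ^ 2
        ≤ ∑ _i : Fin m, (b * (c : ℝ) ^ 2 * ZZ m c η ^ b) / D ^ 2 :=
          Finset.sum_le_sum (fun i _ => div_le_div_of_nonneg_right (second hM i b) hD2.le)
      _ = (2 * m * b * (c : ℝ) ^ 2) * (ZZ m c η ^ b / 2) / D ^ 2 := by
          rw [Finset.sum_const, Finset.card_univ, Fintype.card_fin, nsmul_eq_mul]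
          ring
      _ ≤ D ^ 2 * (ZZ m c η ^ b / 2) / D ^ 2 := by
          apply div_le_div_of_nonneg_right _ hD2.le
          exact mul_le_mul_of_nonneg_right hb (by positivity)
      _ = ZZ m c η ^ b / 2 := by
          rw [mul_comm, mul_div_assoc, div_self hD2.ne', mul_one]
  rw [h4] at h2
  linarith

end Vale.Agent.P181.KT
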