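import Mathlib

set_option autoImplicit false

namespace Vale.Agent.P181.H425

/-- one level of the recursion, slope two, in all numbers of points (`N = a - 1` version) -/
theorem rec2_A2 (N : ℕ) (hN : 1 ≤ N) (K : ℕ → ℕ → ℕ → Prop) (L : ℕ → ℕ → ℕ → ℕ → Prop)
    (tree : ∀ a b t, t + N ≤ b → a ≤ N + 1 → K a b t)
    (lemI : ∀ r a b t, 1 ≤ b → K a b t → r * b < 2 * t → L (r + 1) a b t)
    (base0 : ∀ s b t, 1 ≤ t → L s 0 b t)
    (mono : ∀ s a b t, L (s + 1) a b t → L s a b t)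
    (astep : ∀ r a b t, 1 ≤ r → 1 ≤ b → 2 * a ≤ b →
      (∀ k, a + 1 ≤ k + r → k ≤ b → k < t → L r a b (t - k)) →
      (∀ k, k + r ≤ a → k ≤ t → L (r + 1) a b (t - k)) →
      (b < t ∨ (r = 1 ∧ a + 1 ≤ t)) → L (r + 1) (a + 1) b t) :
    ∀ a b t, a ≤ N + 1 → 4 * N ≤ b → b < 2 * t → L 2 a b t := by
  intro a
  induction a with
  | zero => intro b t _ _ ht; exact base0 _ _ _ (by omega)
  | succ a ih =>
    intro b t ha hb ht
    by_cases h1 : t + N ≤ b
    · exact lemI 1 (a + 1) b t (by omega) (tree _ _ _ h1 ha) (by omega)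
    have L1 : ∀ u, 1 ≤ u → L 1 a b u := by
      intro u hu
      by_cases h2 : u + N ≤ b
      · exact lemI 0 a b u (by omega) (tree _ _ _ h2 (by omega)) (by omega)
      · exact mono 1 a b u (ih b u (by omega) (by omega) (by omega))
    refine astep 1 a b t le_rfl (by omega) (by omega) ?_ ?_ ?_
    · intro k _ _ hk
      exact L1 _ (by omega)
    · intro k hk1 hk2
      exact ih b (t - k) (by omega) (by omega) (by omega)
    · right
      exact ⟨rfl, by omega⟩

/-- **the tail recursion** (`N = a - 1` version) -/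
theorem rec2_tail (N : ℕ) (hN : 1 ≤ N) (K : ℕ → ℕ → ℕ → Prop) (L : ℕ → ℕ → ℕ → ℕ → Prop)
    (tree : ∀ a b t, t + N ≤ b → a ≤ N + 1 → K a b t)
    (lemI : ∀ r a b t, 1 ≤ b → K a b t → r * b < 2 * t → L (r + 1) a b t)
    (base0 : ∀ s b t, 1 ≤ t → L s 0 b t)
    (mono : ∀ s a b t, L (s + 1) a b t → L s a b t)
    (astep : ∀ r a b t, 1 ≤ r → 1 ≤ b → 2 * a ≤ b →
      (∀ k, a + 1 ≤ k + r → k ≤ b → k < t → L r a b (t - k)) →
      (∀ k, k + r ≤ a → k ≤ t → L (r + 1) a b (t - k)) →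
      (b < t ∨ (r = 1 ∧ a + 1 ≤ t)) → L (r + 1) (a + 1) b t)
    (tstep : ∀ s a b t, 1 ≤ s → (∀ t', t' + s ≤ t → K a b t') →
      L s a (b + 1) t → K a (b + 1) t) :
    ∀ r, (∀ a b t, a ≤ N + 1 → 4 * N ≤ b → 5 * N * (r + 1) ≤ b → (r + 1) * b < 2 * t →
        L (r + 2) a b t) ∧
      (∀ a b t, a ≤ N + 1 → 2 * t + 5 * N * (r + 2) * (r + 1) ≤ 2 * (r + 2) * b →
        K a b t) := by
  have A2 := rec2_A2 N hN K L tree lemI base0 mono astep
  intro r
  induction r with
  | zero =>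
    refine ⟨fun a b t ha h4 _ ht => A2 a b t ha h4 (by omega), ?_⟩
    intro a b
    induction b with
    | zero => intro t ha ht; omega
    | succ b ihb =>
      intro t ha ht
      by_cases h1 : t + N ≤ b + 1
      · exact tree _ _ _ h1 ha
      · refine tstep 2 a b t (by omega) ?_ (A2 a (b + 1) t ha (by omega) (by omega))
        intro t' ht'
        exact ihb t' ha (by omega)
  | succ r ih =>
    obtain ⟨ihA, ihB⟩ := ih
    have A : ∀ a b t, a ≤ N + 1 → 4 * N ≤ b → 5 * N * (r + 1 + 1) ≤ b →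
        (r + 1 + 1) * b < 2 * t → L (r + 1 + 2) a b t := by
      intro a
      induction a with
      | zero =>
        intro b t _ _ _ ht
        exact base0 _ _ _ (by omega)
      | succ a iha =>
        intro b t ha h4 h5 ht
        by_cases h1 : 2 * t ≤ (r + 3) * b
        · refine lemI (r + 2) (a + 1) b t (by omega) (ihB (a + 1) b t ha ?_) ht
          have h6 : (r + 1) * (5 * N * (r + 1 + 1)) ≤ (r + 1) * b := Nat.mul_le_mul_left _ h5
          nlinarith
        · push Not at h1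
          refine astep (r + 2) a b t (by omega) (by omega) (by omega) ?_ ?_ ?_
          · intro k _ hk _
            refine ihA a b (t - k) (by omega) (by omega) ?_ ?_
            · nlinarith
            · have : (r + 1) * b + 2 * b < 2 * t := by nlinarith
              omega
          · intro k hk1 hk2
            refine iha b (t - k) (by omega) (by omega) h5 ?_
            have : (r + 1 + 1) * b + b < 2 * t := by nlinarith
            omega
          · left
            nlinarith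
    refine ⟨A, ?_⟩
    intro a b
    induction b with
    | zero =>
      intro t ha ht
      exfalso
      have : 0 < 5 * N * (r + 1 + 2) * (r + 1 + 1) := by positivity
      omega
    | succ b ihb =>
      intro t ha ht
      by_cases h1 : b + 1 ≤ 5 * N * (r + 2)
      · refine ihB a (b + 1) t ha ?_
        nlinarith
      · push Not at h1
        by_cases h2 : 2 * t ≤ (r + 2) * (b + 1)
        · refine ihB a (b + 1) t ha ?_
          have h6 : (r + 2) * (5 * N * (r + 2)) ≤ (r + 2) * (b + 1) :=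
            Nat.mul_le_mul_left _ h1.le
          nlinarith
        · push Not at h2
          refine tstep (r + 3) a b t (by omega) ?_
            (A a (b + 1) t ha (by nlinarith) (by nlinarith) (by linarith))
          intro t' ht'
          refine ihb t' ha ?_
          nlinarith

/-- **parametric form** -/
theorem rec2_slope (N : ℕ) (hN : 1 ≤ N) (K : ℕ → ℕ → ℕ → Prop) (L : ℕ → ℕ → ℕ → ℕ → Prop)
    (tree : ∀ a b t, t + N ≤ b → a ≤ N + 1 → K a b t)
    (lemI : ∀ r a b t, 1 ≤ b → K a b t → r * b < 2 * t → L (r + 1) a b t)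
    (base0 : ∀ s b t, 1 ≤ t → L s 0 b t)
    (mono : ∀ s a b t, L (s + 1) a b t → L s a b t)
    (astep : ∀ r a b t, 1 ≤ r → 1 ≤ b → 2 * a ≤ b →
      (∀ k, a + 1 ≤ k + r → k ≤ b → k < t → L r a b (t - k)) →
      (∀ k, k + r ≤ a → k ≤ t → L (r + 1) a b (t - k)) →
      (b < t ∨ (r = 1 ∧ a + 1 ≤ t)) → L (r + 1) (a + 1) b t)
    (tstep : ∀ s a b t, 1 ≤ s → (∀ t', t' + s ≤ t → K a b t') →
      L s a (b + 1) t → K a (b + 1) t)
    (a b t : ℕ) (ha : a ≤ N + 1)
    (h : ∃ s, 2 ≤ s ∧ 2 * t + 5 * N * (s * (s - 1)) ≤ 2 * s * b) : K a b t := by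
  obtain ⟨s, hs, h⟩ := h
  obtain ⟨r, rfl⟩ : ∃ r, s = r + 2 := ⟨s - 2, by omega⟩
  refine (rec2_tail N hN K L tree lemI base0 mono astep tstep r).2 a b t ha ?_
  have h1 : r + 2 - 1 = r + 1 := rfl
  rw [h1] at h
  calc 2 * t + 5 * N * (r + 2) * (r + 1) = 2 * t + 5 * N * ((r + 2) * (r + 1)) := by ring
    _ ≤ _ := h

/-- **the final form**: `b ≥ 5 N` and `10 N t ≤ b (b + 5 N)` -/
theorem rec2_final (N : ℕ) (hN : 1 ≤ N) (K : ℕ → ℕ → ℕ → Prop) (L : ℕ → ℕ → ℕ → ℕ → Prop)
    (tree : ∀ a b t, t + N ≤ b → a ≤ N + 1 → K a b t)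
    (lemI : ∀ r a b t, 1 ≤ b → K a b t → r * b < 2 * t → L (r + 1) a b t)
    (base0 : ∀ s b t, 1 ≤ t → L s 0 b t)
    (mono : ∀ s a b t, L (s + 1) a b t → L s a b t)
    (astep : ∀ r a b t, 1 ≤ r → 1 ≤ b → 2 * a ≤ b →
      (∀ k, a + 1 ≤ k + r → k ≤ b → k < t → L r a b (t - k)) →
      (∀ k, k + r ≤ a → k ≤ t → L (r + 1) a b (t - k)) →
      (b < t ∨ (r = 1 ∧ a + 1 ≤ t)) → L (r + 1) (a + 1) b t)
    (tstep : ∀ s a b t, 1 ≤ s → (∀ t', t' + s ≤ t → K a b t') →
      L s a (b + 1) t → K a (b + 1) t)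
    (a b t : ℕ) (ha : a ≤ N + 1) (hb : 5 * N ≤ b) (h : 10 * N * t ≤ b * (b + 5 * N)) :
    K a b t := by
  obtain ⟨q, r, hr, hq⟩ : ∃ q r, r < 5 * N ∧ b = 5 * N * q + r :=
    ⟨b / (5 * N), b % (5 * N), Nat.mod_lt _ (by omega), (Nat.div_add_mod _ _).symm⟩
  have hq1 : 1 ≤ q := by
    by_contra h0
    have : q = 0 := by omega
    subst this
    omega
  obtain ⟨p, rfl⟩ : ∃ p, q = p + 1 := ⟨q - 1, by omega⟩
  refine (rec2_tail N hN K L tree lemI base0 mono astep tstep p).2 a b t ha ?_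
  have h2 : 5 * N * (2 * t + 5 * N * (p + 2) * (p + 1)) ≤ 5 * N * (2 * (p + 2) * b) := by
    have h3 : r * r ≤ 5 * N * r := Nat.mul_le_mul_right _ hr.le
    subst hq
    nlinarith
  exact Nat.le_of_mul_le_mul_left h2 (by omega)

end Vale.Agent.P181.H425
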