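import Vale.Agent.P181.R2.H959.WDefs
import Vale.Agent.P181.R2.H207.FinalOf
import Vale.Agent.P181.R2.H130.R10
import Vale.Agent.P181.R2.H280.NFinal

set_option autoImplicit false

open scoped TensorProduct

namespace Vale.Agent.P181.FR

open Vale.Agent.P181 Vale.Agent.P181.H280

/-- W9, literal. -/
def W9P : Prop := ∀ {m i : ℕ} (_hi : 3 ≤ i) (_him : i ≤ m), ∃ C : ℕ, ∀ (a b : ℕ) (g : ℕ → ℕ),
    C ≤ a → b + 1 ≤ a ^ 2 → ∑ j ∈ Finset.Icc 1 m, j * g j = a * b → C * a ^ 2 ≤ g i →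
    plethMult a b m (gw m g) ≤ plethMult b a m (gw m g)

/-- W10, literal. -/
def W10P : Prop := ∀ {b a m : ℕ} {lam : Fin m → ℕ} {x : Pleth b a m}
    (_hw : x ∈ hwSpace lam (plethAct b a m)) (_h0 : x ≠ 0), ∀ i j : Fin m, i ≤ j → lam j ≤ lam i

namespace W11

lemma tele (L : ℕ → ℕ) (hL : ∀ k, L (k + 1) ≤ L k) (k m : ℕ) (hk : k ≤ m) :
    (∑ j ∈ Finset.Ioc k m, (L (j - 1) - L j)) + L m = L k := by
  induction m, hk using Nat.le_induction with
  | base => simp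
  | succ m hm ih =>
    rw [← Finset.insert_Ioc_right_eq_Ioc_add_one (by omega), Finset.sum_insert (by simp)]
    have h1 := hL m
    have h2 : m + 1 - 1 = m := rfl
    rw [h2]
    omega

lemma sum_swap (g : ℕ → ℕ) (m : ℕ) :
    ∑ k ∈ Finset.range m, ∑ j ∈ Finset.Ioc k m, g j = ∑ j ∈ Finset.Icc 1 m, j * g j := by
  rw [Finset.sum_comm' (s' := fun j => Finset.range j) (t' := Finset.Icc 1 m)]
  · apply Finset.sum_congr rfl
    intro j _
    rw [Finset.sum_const, Finset.card_range, smul_eq_mul]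
  · intro k j
    simp only [Finset.mem_range, Finset.mem_Ioc, Finset.mem_Icc]
    omega

/-- the sequence extended by zero -/
def ext {m : ℕ} (lam : Fin m → ℕ) (k : ℕ) : ℕ := if h : k < m then lam ⟨k, h⟩ else 0

lemma ext_anti {m : ℕ} {lam : Fin m → ℕ} (h : ∀ i j : Fin m, i ≤ j → lam j ≤ lam i) (k : ℕ) :
    ext lam (k + 1) ≤ ext lam k := by
  unfold ext
  split_ifs with h1 h2 h2
  · exact h _ _ (by rw [Fin.le_def]; simp)
  · omega
  · omega
  · omega

/-- the gaps -/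
def gap {m : ℕ} (lam : Fin m → ℕ) (j : ℕ) : ℕ := ext lam (j - 1) - ext lam j

lemma ext_eq {m : ℕ} {lam : Fin m → ℕ} (h : ∀ i j : Fin m, i ≤ j → lam j ≤ lam i) (k : ℕ)
    (hk : k ≤ m) : ∑ j ∈ Finset.Ioc k m, gap lam j = ext lam k := by
  have h1 := tele (ext lam) (ext_anti h) k m hk
  have h2 : ext lam m = 0 := by simp [ext]
  rw [h2, add_zero] at h1
  exact h1

lemma gw_gap {m : ℕ} {lam : Fin m → ℕ} (h : ∀ i j : Fin m, i ≤ j → lam j ≤ lam i) :
    gw m (gap lam) = lam := by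
  funext k
  change ∑ j ∈ Finset.Ioc (k : ℕ) m, gap lam j = lam k
  rw [ext_eq h _ k.2.le, ext, dif_pos k.2]

lemma sum_gap {m : ℕ} {lam : Fin m → ℕ} (h : ∀ i j : Fin m, i ≤ j → lam j ≤ lam i) :
    ∑ j ∈ Finset.Icc 1 m, j * gap lam j = ∑ i, lam i := by
  rw [← sum_swap, ← Fin.sum_univ_eq_sum_range (fun k => ∑ j ∈ Finset.Ioc k m, gap lam j)]
  apply Finset.sum_congr rfl
  intro k _
  rw [ext_eq h _ k.2.le, ext, dif_pos k.2]

/-- the numbers of the tail theorem -/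
lemma tail_numbers {n a b T t : ℕ} (ha : 2 ≤ a) (hb : 1 ≤ b) (hba : b ≤ a ^ 2)
    (ht : t ≤ T * a ^ 2)
    (hC : 4 * (n + 2) ^ (n + 2) * (2 * T + 2) ^ (n + 1) * a ^ (2 * n + 3) ≤ b ^ (n + 2)) :
    ∃ s, 1 ≤ s ∧ t + (a - 1) * (2 * (s + (n + 1)).choose (n + 1 + 1) - 1) ≤ s * b := by
  obtain ⟨q, hq⟩ : ∃ q, 2 * T * a ^ 2 / b = q := ⟨_, rfl⟩
  refine ⟨q + 1, Nat.succ_le_succ (Nat.zero_le q), ?_⟩
  have h1 : 2 * T * a ^ 2 < (q + 1) * b := by
    rw [← Nat.div_lt_iff_lt_mul hb, hq]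
    exact Nat.lt_succ_self q
  have h2 : (q + 1) * b ≤ (2 * T + 2) * a ^ 2 := by
    have h3 : q * b ≤ 2 * T * a ^ 2 := by
      rw [← hq]
      exact Nat.div_mul_le_self _ _
    calc (q + 1) * b = q * b + b := by ring
      _ ≤ 2 * T * a ^ 2 + a ^ 2 := Nat.add_le_add h3 hba
      _ ≤ (2 * T + 2) * a ^ 2 := by nlinarith [Nat.zero_le (a ^ 2)]
  obtain ⟨s, hs⟩ : ∃ s, s = q + 1 := ⟨_, rfl⟩
  rw [← hs] at h1 h2 ⊢
  have hs1 : 1 ≤ s := by rw [hs]; exact Nat.succ_le_succ (Nat.zero_le q)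
  have h4 : (s + (n + 1)).choose (n + 1 + 1) ≤ (n + 2) ^ (n + 2) * s ^ (n + 2) := by
    refine (Nat.choose_le_pow _ _).trans ?_
    rw [← mul_pow]
    apply Nat.pow_le_pow_left
    have : n + 1 ≤ (n + 1) * s := Nat.le_mul_of_pos_right _ hs1
    calc s + (n + 1) ≤ s + (n + 1) * s := Nat.add_le_add_left this _
      _ = (n + 2) * s := by ring
  have h5 : 4 * a * (n + 2) ^ (n + 2) * s ^ (n + 1) ≤ b := by
    have hbp : 0 < b ^ (n + 1) := Nat.pow_pos hb
    refine Nat.le_of_mul_le_mul_left ?_ hbp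
    calc b ^ (n + 1) * (4 * a * (n + 2) ^ (n + 2) * s ^ (n + 1))
        = 4 * a * (n + 2) ^ (n + 2) * (s * b) ^ (n + 1) := by rw [mul_pow]; ring
      _ ≤ 4 * a * (n + 2) ^ (n + 2) * ((2 * T + 2) * a ^ 2) ^ (n + 1) :=
          Nat.mul_le_mul_left _ (Nat.pow_le_pow_left h2 _)
      _ = 4 * (n + 2) ^ (n + 2) * (2 * T + 2) ^ (n + 1) * a ^ (2 * n + 3) := by
          rw [mul_pow, ← pow_mul]
          have e : 2 * n + 3 = 2 * (n + 1) + 1 := by ring
          rw [e, pow_succ]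
          ring
      _ ≤ b ^ (n + 2) := hC
      _ = b ^ (n + 1) * b := by rw [pow_succ]
  have h6 : 2 * ((a - 1) * (2 * (s + (n + 1)).choose (n + 1 + 1) - 1)) ≤ s * b := by
    calc 2 * ((a - 1) * (2 * (s + (n + 1)).choose (n + 1 + 1) - 1))
        ≤ 2 * (a * (2 * ((n + 2) ^ (n + 2) * s ^ (n + 2)))) := by
          apply Nat.mul_le_mul_left
          apply Nat.mul_le_mul (by omega)
          omega
      _ = s * (4 * a * (n + 2) ^ (n + 2) * s ^ (n + 1)) := by ring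
      _ ≤ s * b := Nat.mul_le_mul_left _ h5
  have h7 : 2 * t < s * b := by
    calc 2 * t ≤ 2 * (T * a ^ 2) := Nat.mul_le_mul_left _ ht
      _ = 2 * T * a ^ 2 := by ring
      _ < s * b := h1
  omega

end W11

open W11

/-- W11 from W9 and W10. -/
theorem all_rows_of (W9 : W9P) (W10 : W10P) (n : ℕ) : ∃ C : ℕ, ∀ (a b : ℕ)
    (lam : Fin (n + 3) → ℕ), C * a ^ (2 * n + 3) ≤ b ^ (n + 2) →
    plethMult a b (n + 3) lam ≤ plethMult b a (n + 3) lam := by
  classical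
  choose! C0 hC0 using (fun i (h : 3 ≤ i ∧ i ≤ n + 3) => W9 h.1 h.2)
  set C9 := ∑ i ∈ Finset.range (n + 4), C0 i with hC9
  have hle : ∀ i, i ≤ n + 3 → C0 i ≤ C9 := fun i hi =>
    Finset.single_le_sum (f := C0) (fun _ _ => Nat.zero_le _)
      (Finset.mem_range.2 (by omega))
  set T := (n + 1) * ((n + 1) * C9) with hT
  refine ⟨4 * (n + 2) ^ (n + 2) * (2 * T + 2) ^ (n + 1) + C9, fun a b lam hab => ?_⟩
  by_cases hquad : (a - 1) ^ 2 ≤ b
  · exact foulkes_quadratic hquad lam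
  push Not at hquad
  have ha2 : 2 ≤ a := by
    by_contra h
    have : a - 1 = 0 := by omega
    rw [this] at hquad
    simp at hquad
  have hba : b + 1 ≤ a ^ 2 := by
    have : (a - 1) ^ 2 ≤ a ^ 2 := Nat.pow_le_pow_left (by omega) 2
    omega
  have hapos : 0 < a ^ (2 * n + 3) := Nat.pow_pos (by omega)
  have hK : 0 < 4 * (n + 2) ^ (n + 2) * (2 * T + 2) ^ (n + 1) := by positivity
  have hb1 : 1 ≤ b := by
    by_contra h
    have hb0 : b = 0 := by omega
    rw [hb0, zero_pow (by omega)] at hab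
    have : 0 < (4 * (n + 2) ^ (n + 2) * (2 * T + 2) ^ (n + 1) + C9) * a ^ (2 * n + 3) := by
      positivity
    omega
  have hCa : C9 ≤ a := by
    by_contra h
    push Not at h
    have h1 : (a ^ 2) ^ (n + 2) ≤ b ^ (n + 2) := by
      calc (a ^ 2) ^ (n + 2) = a * a ^ (2 * n + 3) := by
            rw [← pow_mul, ← pow_succ']
            congr 1
        _ ≤ (4 * (n + 2) ^ (n + 2) * (2 * T + 2) ^ (n + 1) + C9) * a ^ (2 * n + 3) :=
            Nat.mul_le_mul_right _ (h.le.trans (Nat.le_add_left _ _))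
        _ ≤ b ^ (n + 2) := hab
    have h2 : a ^ 2 ≤ b := (Nat.pow_le_pow_iff_left (by omega)).1 h1
    omega
  by_cases hz : plethMult a b (n + 3) lam = 0
  · rw [hz]
    exact Nat.zero_le _
  have hne : hwSpace lam (plethAct a b (n + 3)) ≠ ⊥ := by
    intro h
    apply hz
    rw [plethMult, h, finrank_bot]
  obtain ⟨x, hx, hx0⟩ := Submodule.exists_mem_ne_zero_of_ne_bot hne
  have hanti := W10 hx hx0
  have hsum : ∑ i, lam i = a * b := hw_sum hx hx0
  have hsg : ∑ j ∈ Finset.Icc 1 (n + 3), j * gap lam j = a * b := by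
    rw [sum_gap hanti, hsum]
  by_cases hcase : ∃ i, 3 ≤ i ∧ i ≤ n + 3 ∧ C9 * a ^ 2 ≤ gap lam i
  · obtain ⟨i, hi3, him, hgi⟩ := hcase
    have h1 := hC0 i ⟨hi3, him⟩ a b (gap lam) ((hle i him).trans hCa) hba hsg
      ((Nat.mul_le_mul_right _ (hle i him)).trans hgi)
    rwa [gw_gap hanti] at h1
  · push Not at hcase
    have hrow : ∀ i : Fin (n + 1), lam i.succ.succ ≤ (n + 1) * (C9 * a ^ 2) := by
      intro i
      have h1 : lam i.succ.succ = ∑ j ∈ Finset.Ioc ((i : ℕ) + 2) (n + 3), gap lam j := by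
        rw [ext_eq hanti _ (by omega), ext, dif_pos (by omega)]
        congr 1
      rw [h1]
      calc ∑ j ∈ Finset.Ioc ((i : ℕ) + 2) (n + 3), gap lam j
          ≤ ∑ _j ∈ Finset.Ioc ((i : ℕ) + 2) (n + 3), C9 * a ^ 2 := by
            apply Finset.sum_le_sum
            intro j hj
            rw [Finset.mem_Ioc] at hj
            exact (hcase j (by omega) hj.2).le
        _ = (n + 3 - ((i : ℕ) + 2)) * (C9 * a ^ 2) := by
            rw [Finset.sum_const, Nat.card_Ioc, smul_eq_mul]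
        _ ≤ (n + 1) * (C9 * a ^ 2) := Nat.mul_le_mul_right _ (by omega)
    have ht : ∑ i : Fin (n + 1), lam i.succ.succ ≤ T * a ^ 2 := by
      calc ∑ i : Fin (n + 1), lam i.succ.succ ≤ ∑ _i : Fin (n + 1), (n + 1) * (C9 * a ^ 2) :=
            Finset.sum_le_sum (fun i _ => hrow i)
        _ = T * a ^ 2 := by
            rw [Finset.sum_const, Finset.card_univ, Fintype.card_fin, smul_eq_mul, hT]
            ring
    have hnum := tail_numbers (n := n) (T := T) ha2 hb1 (by omega) ht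
      ((Nat.mul_le_mul_right _ (Nat.le_add_right _ _)).trans hab)
    exact TN.plethMult_of_KK (n := n + 1) lam
      (TN.KK_all (N := a - 1) (by omega) (by omega) hnum)

end Vale.Agent.P181.FR
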