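import Vale.Agent.P181.R2.H425.W14L
import Vale.Agent.P181.R2.H849.Gap
import Vale.Agent.P181.R2.H350.PosAll
import Vale.Agent.P181.R2.H350.W8
import Vale.Agent.P181.R2.H923.W6
import Vale.Agent.P181.R2.H71.W7
import Vale.Agent.P181.R2.H684.W10

set_option autoImplicit false

open scoped TensorProduct

namespace Vale.Agent.P181.FR

open Vale.Agent.P181 Vale.Agent.P181.H280

/-- **All partitions with few rows.** For every `m = n + 3` there is a constant `C` such that
Foulkes' inequality holds for all partitions with at most `m` rows if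
`b ^ (2 m - 2) ≥ C a ^ (3 m - 4) L ^ (3 m - 6)`, where `b < 2 ^ L`. -/
theorem all_rows_log (n : ℕ) : ∃ C : ℕ, ∀ (a b L : ℕ)
    (lam : Fin (n + 3) → ℕ), 1 ≤ b → b + 1 ≤ 2 ^ L →
    C * (a ^ (3 * n + 5) * L ^ (3 * n + 3)) ≤ b ^ (2 * n + 4) →
    plethMult a b (n + 3) lam ≤ plethMult b a (n + 3) lam :=
  all_rows_log_of (fun {m i} hi him => gap_log_of hi him (pos_all (by omega) him)
    (rich_rect_of rich_of_family family hi him))
    (fun hw h0 => hw_antitone hw h0) n

end Vale.Agent.P181.FR
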