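import Vale.Agent.P181.H536.Poly
import Vale.Agent.P181.H280.Form
import Vale.Agent.P181.R2.H425.SL2

/-!
Chart points `(p + x q + c z) ^ b`: a multilinear form that vanishes there vanishes on
`(span {p, q, z}) ^ b`; and a shear invariant, `z`-homogeneous form of degree `t > a b / 2`
in `a` arguments is zero (the small row).
-/

set_option autoImplicit false

open MvPolynomial

namespace Vale.Agent.P181.H425

open Vale.Agent.P181 H536

variable {A : Type*} [CommRing A] [Algebra ℂ A]

/-- A polynomial that vanishes at all points with nonzero coordinates is zero. -/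
theorem eq_zero_of_ne {σ : Type*} [Fintype σ] (Q : MvPolynomial σ ℂ)
    (h : ∀ y : σ → ℂ, (∀ j, y j ≠ 0) → eval y Q = 0) : Q = 0 := by
  have hprod : Q * ∏ j, X j = 0 := by
    refine MvPolynomial.funext (fun y => ?_)
    rw [map_mul, map_prod, map_zero]
    by_cases hy : ∀ j, y j ≠ 0
    · rw [h y hy, zero_mul]
    · push Not at hy
      obtain ⟨j, hj⟩ := hy
      rw [Finset.prod_eq_zero (Finset.mem_univ j) (by rw [eval_X, hj]), mul_zero]
  refine (mul_eq_zero.mp hprod).resolve_right ?_
  exact Finset.prod_ne_zero_iff.mpr (fun j _ => X_ne_zero j)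

/-- Homogeneity from values. -/
theorem isHomogeneous_of_eval {σ : Type*} [Fintype σ] (Q : MvPolynomial σ ℂ) (t : ℕ)
    (h : ∀ r : ℂ, r ≠ 0 → ∀ c : σ → ℂ, eval (fun j => r * c j) Q = r ^ t * eval c Q) :
    Q.IsHomogeneous t := by
  have key : ∀ k, k ≠ t → homogeneousComponent k Q = 0 := by
    intro k hk
    apply MvPolynomial.funext
    intro ζ
    rw [map_zero]
    let g : Polynomial ℂ := ∑ f ∈ Q.support,
      Polynomial.C (coeff f Q * ∏ i, ζ i ^ f i) * Polynomial.X ^ f.degree
    have hg : g = Polynomial.C (eval ζ Q) * Polynomial.X ^ t := by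
      apply Polynomial.eq_of_infinite_eval_eq
      apply Set.Infinite.mono (s := ({0} : Set ℂ)ᶜ)
      · intro r hr
        rw [Set.mem_ofPred_eq, Polynomial.eval_mul, Polynomial.eval_C, Polynomial.eval_pow,
          Polynomial.eval_X, mul_comm (eval ζ Q), ← h r hr ζ, eval_eq']
        simp only [g, Polynomial.eval_finsetSum, Polynomial.eval_mul, Polynomial.eval_C,
          Polynomial.eval_pow, Polynomial.eval_X]
        apply Finset.sum_congr rfl
        intro f _
        rw [mul_assoc]
        congr 1
        simp only [mul_pow]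
        rw [Finset.prod_mul_distrib, mul_comm]
        congr 1
        rw [Finset.prod_pow_eq_pow_sum, Finsupp.degree_eq_sum]
      · exact (Set.finite_singleton (0 : ℂ)).infinite_compl
    have hgc : g.coeff k = 0 := by
      rw [hg, Polynomial.coeff_C_mul, Polynomial.coeff_X_pow, if_neg hk, mul_zero]
    rw [homogeneousComponent_apply, map_sum, ← hgc]
    simp only [g, Polynomial.finsetSum_coeff, Polynomial.coeff_C_mul, Polynomial.coeff_X_pow]
    rw [Finset.sum_filter]
    apply Finset.sum_congr rfl
    intro f _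
    by_cases hf : f.degree = k
    · rw [if_pos hf, if_pos hf.symm, eval_monomial, mul_one, Finsupp.prod_fintype]
      intro i
      exact pow_zero _
    · rw [if_neg hf, if_neg (Ne.symm hf), mul_zero]
  intro d hd
  have hdeg : d.degree = t := by
    by_contra hne
    have h1 : coeff d (homogeneousComponent d.degree Q) = coeff d Q := by
      rw [coeff_homogeneousComponent, if_pos rfl]
    rw [key _ hne, coeff_zero] at h1
    exact hd h1.symm
  rw [← hdeg, Finsupp.degree_eq_weight_one]
  rfl

/-- **Density of chart points.** -/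
theorem chart_dense {a : ℕ} (G : MultilinearMap ℂ (fun _ : Fin a => A) ℂ) (p q z : A) (b : ℕ)
    (h : ∀ x c : Fin a → ℂ, G (fun i => (p + x i • q + c i • z) ^ b) = 0)
    (P : Fin a → A) (hP : ∀ i, P i ∈ (Submodule.span ℂ {p, q, z}) ^ b) : G P = 0 := by
  classical
  have key : ∀ α β γ : Fin a → ℂ, G (fun i => (α i • p + β i • q + γ i • z) ^ b) = 0 := by
    intro α β γ
    obtain ⟨Q, hQ, -⟩ := mv_exists (σ := Fin a) G
      (fun i => (X i * C p + C (β i • q + γ i • z)) ^ b)
    have hev : ∀ y : Fin a → ℂ, eval y Q = G (fun i => (y i • p + β i • q + γ i • z) ^ b) := by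
      intro y
      rw [hQ]
      congr 1
      funext i
      rw [map_pow, map_add, map_mul, evA_X, evA_C, evA_C, Algebra.smul_def (y i), add_assoc]
    have hz : Q = 0 := by
      apply eq_zero_of_ne
      intro y hy
      rw [hev]
      have h1 : (fun i => (y i • p + β i • q + γ i • z) ^ b) =
          fun i => (y i) ^ b • (p + ((y i)⁻¹ * β i) • q + ((y i)⁻¹ * γ i) • z) ^ b := by
        funext i
        rw [← smul_pow, smul_add, smul_add, smul_smul, smul_smul, mul_inv_cancel_left₀ (hy i),
          mul_inv_cancel_left₀ (hy i)]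
      rw [h1, MultilinearMap.map_smul_univ, h, smul_zero]
    rw [← hev, hz, map_zero]
  -- powers of elements span
  refine H280.multilinear_zero_of_span G
    ((fun x => x ^ b) '' (Submodule.span ℂ {p, q, z} : Set A)) ?_ P
    (fun i => pow_le_span_pow _ _ (hP i))
  intro w hw
  have h1 : ∀ i, ∃ α β γ : ℂ, (α • p + β • q + γ • z) ^ b = w i := by
    intro i
    obtain ⟨x, hx, hxw⟩ := hw i
    obtain ⟨α, y, hy, h2⟩ := Submodule.mem_span_insert.1 hx
    obtain ⟨β, y', hy', h3⟩ := Submodule.mem_span_insert.1 hy
    obtain ⟨γ, h4⟩ := Submodule.mem_span_singleton.1 hy'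
    refine ⟨α, β, γ, ?_⟩
    rw [← hxw, h2, h3, ← h4, add_assoc]
  choose α β γ hw' using h1
  have h2 : w = fun i => (α i • p + β i • q + γ i • z) ^ b := by
    funext i
    exact (hw' i).symm
  rw [h2]
  exact key α β γ

/-- **The small row.** A form in `a` arguments on `(span {p, q, z}) ^ b` that is homogeneous of
degree `t` in `z` and invariant under the shear `p ↦ p + e z` is zero if `a b < 2 t`. -/
theorem small_row {a : ℕ} (G : MultilinearMap ℂ (fun _ : Fin a => A) ℂ) (p q z : A) (b t : ℕ)
    (hsh : ∀ (e : ℂ) (x c : Fin a → ℂ), G (fun i => (p + x i • q + (c i + e) • z) ^ b) =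
      G (fun i => (p + x i • q + c i • z) ^ b))
    (hhom : ∀ (r : ℂ), r ≠ 0 → ∀ (x c : Fin a → ℂ),
      G (fun i => (p + x i • q + (r * c i) • z) ^ b) =
        r ^ t * G (fun i => (p + x i • q + c i • z) ^ b))
    (hab : a * b < 2 * t)
    (P : Fin a → A) (hP : ∀ i, P i ∈ (Submodule.span ℂ {p, q, z}) ^ b) : G P = 0 := by
  classical
  refine chart_dense G p q z b (fun x c => ?_) P hP
  obtain ⟨Q, hQ, hQd⟩ := mv_exists (σ := Fin a) G
    (fun i => (C (p + x i • q) + X i * C z) ^ b)
  have hev : ∀ y : Fin a → ℂ, eval y Q = G (fun i => (p + x i • q + y i • z) ^ b) := by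
    intro y
    rw [hQ]
    congr 1
    funext i
    rw [map_pow, map_add, map_mul, evA_X, evA_C, evA_C, Algebra.smul_def (y i)]
  have hdeg : ∀ j, degreeOf j Q ≤ b := by
    intro j
    refine (hQd j).trans ?_
    have h1 : ∀ i, degreeOf j ((C (p + x i • q) + X i * C z : MvPolynomial (Fin a) A) ^ b) ≤
        if i = j then b else 0 := by
      intro i
      refine (degreeOf_pow_le _ _ _).trans ?_
      have h2 : degreeOf j (C (p + x i • q) + X i * C z : MvPolynomial (Fin a) A) ≤
          if i = j then 1 else 0 := by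
        rcases subsingleton_or_nontrivial A with hA | hA
        · rw [Subsingleton.elim (C (p + x i • q) + X i * C z : MvPolynomial (Fin a) A) 0,
            degreeOf_zero]
          exact Nat.zero_le _
        refine (degreeOf_add_le _ _ _).trans (max_le ?_ ?_)
        · rw [degreeOf_C]; exact Nat.zero_le _
        · refine (degreeOf_mul_le _ _ _).trans ?_
          rw [degreeOf_C, add_zero]
          split_ifs with hij
          · rw [hij, degreeOf_X, if_pos rfl]
          · rw [degreeOf_X, if_neg (Ne.symm hij)]
      split_ifs at h2 ⊢ with hij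
      · calc b * _ ≤ b * 1 := Nat.mul_le_mul_left _ h2
          _ = b := mul_one _
      · rw [Nat.le_zero.1 h2, mul_zero]
    refine (Finset.sum_le_sum (fun i _ => h1 i)).trans ?_
    rw [Finset.sum_ite_eq' Finset.univ j, if_pos (Finset.mem_univ j)]
  have hz : Q = 0 := by
    refine sl2_lemma (t := t) Q hdeg (isHomogeneous_of_eval Q t ?_) ?_ (by rw [mul_comm]; exact hab)
    · intro r hr y
      rw [hev, hev]
      exact hhom r hr x y
    · intro e y
      rw [hev, hev]
      exact hsh e x y
  rw [← hev, hz, map_zero]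

end Vale.Agent.P181.H425
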