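import Vale.Agent.P181.R2.H425.AllLog

set_option autoImplicit false

open scoped TensorProduct

namespace Vale.Agent.P181.FR

open Vale.Agent.P181 Vale.Agent.P181.H280

namespace W11

/-- If all gaps below the second row are at most `G`, the tail is at most `(n+1)^2 G`. -/
lemma tail_le {n G : ℕ} {lam : Fin (n + 3) → ℕ} (h : ∀ i j : Fin (n + 3), i ≤ j → lam j ≤ lam i)
    (hG : ∀ j, 3 ≤ j → j ≤ n + 3 → gap lam j ≤ G) :
    ∑ i : Fin (n + 1), lam i.succ.succ ≤ (n + 1) * (n + 1) * G := by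
  have hrow : ∀ i : Fin (n + 1), lam i.succ.succ ≤ (n + 1) * G := by
    intro i
    have h1 : lam i.succ.succ = ∑ j ∈ Finset.Ioc ((i : ℕ) + 2) (n + 3), gap lam j := by
      rw [ext_eq h _ (by omega), ext, dif_pos (by omega)]
      congr 1
    rw [h1]
    calc ∑ j ∈ Finset.Ioc ((i : ℕ) + 2) (n + 3), gap lam j
        ≤ ∑ _j ∈ Finset.Ioc ((i : ℕ) + 2) (n + 3), G := by
          apply Finset.sum_le_sum
          intro j hj
          rw [Finset.mem_Ioc] at hj
          exact hG j (by omega) hj.2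
      _ = (n + 3 - ((i : ℕ) + 2)) * G := by
          rw [Finset.sum_const, Nat.card_Ioc, smul_eq_mul]
      _ ≤ (n + 1) * G := Nat.mul_le_mul_right _ (by omega)
  calc ∑ i : Fin (n + 1), lam i.succ.succ ≤ ∑ _i : Fin (n + 1), (n + 1) * G :=
        Finset.sum_le_sum (fun i _ => hrow i)
    _ = (n + 1) * (n + 1) * G := by
        rw [Finset.sum_const, Finset.card_univ, Fintype.card_fin, smul_eq_mul]
        ring

end W11

open W11

/-- **Deep partitions.** Foulkes' inequality for all partitions with at most `n + 3` rows and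
at least `C (a L) ^ (3/2)` boxes below the second row, for all `b ≥ C a L`. -/
theorem deep_rows (n : ℕ) : ∃ C : ℕ, ∀ (a b L : ℕ) (lam : Fin (n + 3) → ℕ), 1 ≤ L →
    b + 1 ≤ 2 ^ L → C * L ≤ a → C * (a * L) ≤ b →
    C * (a * L) ^ 3 ≤ (∑ i : Fin (n + 1), lam i.succ.succ) ^ 2 →
    plethMult a b (n + 3) lam ≤ plethMult b a (n + 3) lam := by
  classical
  have W13 : W13L := fun {m i} hi him => gap_log_of hi him (pos_all (by omega) him)
    (rich_rect_of rich_of_family family hi him)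
  choose! C0 hC0 using (fun i (h : 3 ≤ i ∧ i ≤ n + 3) => W13 h.1 h.2)
  obtain ⟨C9, hC9⟩ : ∃ C9, C9 = ∑ i ∈ Finset.range (n + 4), C0 i + 1 := ⟨_, rfl⟩
  have hle : ∀ i, i ≤ n + 3 → C0 i ≤ C9 := fun i hi => by
    have h1 : C0 i ≤ ∑ i ∈ Finset.range (n + 4), C0 i :=
      Finset.single_le_sum (f := C0) (fun _ _ => Nat.zero_le _)
        (Finset.mem_range.2 (by omega))
    rw [hC9]
    exact h1.trans (Nat.le_succ _)
  have hC91 : 1 ≤ C9 := by rw [hC9]; exact Nat.succ_le_succ (Nat.zero_le _)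
  obtain ⟨T, hT⟩ : ∃ T, T = (n + 1) * (n + 1) := ⟨_, rfl⟩
  have hT1 : 1 ≤ T := by rw [hT]; exact Nat.mul_pos (Nat.succ_pos n) (Nat.succ_pos n)
  have hT2 : 1 ≤ T ^ 2 := Nat.pow_pos hT1
  have hCC : C9 ≤ T ^ 2 * C9 := Nat.le_mul_of_pos_left _ hT2
  refine ⟨T ^ 2 * C9, fun a b L lam hL1 hL hCL hCab htail => ?_⟩
  have hCL' : C9 * L ≤ a := (Nat.mul_le_mul_right _ hCC).trans hCL
  have hCab' : C9 * (a * L) ≤ b := (Nat.mul_le_mul_right _ hCC).trans hCab
  by_cases hz : plethMult a b (n + 3) lam = 0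
  · rw [hz]
    exact Nat.zero_le _
  have hne : hwSpace lam (plethAct a b (n + 3)) ≠ ⊥ := by
    intro h
    apply hz
    rw [plethMult, h, finrank_bot]
  obtain ⟨x, hx, hx0⟩ := Submodule.exists_mem_ne_zero_of_ne_bot hne
  have hanti := hw_antitone hx hx0
  have hsum : ∑ i, lam i = a * b := hw_sum hx hx0
  have hsg : ∑ j ∈ Finset.Icc 1 (n + 3), j * gap lam j = a * b := by
    rw [sum_gap hanti, hsum]
  have ha0 : 0 < a := by
    have : 1 ≤ C9 * L := Nat.mul_pos hC91 hL1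
    omega
  have hX : 0 < C9 * (a * L) ^ 3 := Nat.mul_pos hC91 (Nat.pow_pos (Nat.mul_pos ha0 hL1))
  -- the largest gap below the second row
  obtain ⟨i, hi, hsup⟩ := Finset.exists_mem_eq_sup (Finset.Icc 3 (n + 3))
    ⟨3, Finset.mem_Icc.2 ⟨le_refl 3, by omega⟩⟩ (gap lam)
  rw [Finset.mem_Icc] at hi
  have hmax : ∀ j, 3 ≤ j → j ≤ n + 3 → gap lam j ≤ gap lam i := fun j h3 hj => by
    rw [← hsup]
    exact Finset.le_sup (f := gap lam) (Finset.mem_Icc.2 ⟨h3, hj⟩)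
  have ht := tail_le hanti hmax
  rw [← hT] at ht
  have hgi : C9 * (a * L) ^ 3 ≤ gap lam i ^ 2 := by
    have h1 : T ^ 2 * (C9 * (a * L) ^ 3) ≤ T ^ 2 * gap lam i ^ 2 := by
      calc T ^ 2 * (C9 * (a * L) ^ 3) = T ^ 2 * C9 * (a * L) ^ 3 := by ring
        _ ≤ (∑ i : Fin (n + 1), lam i.succ.succ) ^ 2 := htail
        _ ≤ (T * gap lam i) ^ 2 := Nat.pow_le_pow_left ht 2
        _ = T ^ 2 * gap lam i ^ 2 := by ring
    exact Nat.le_of_mul_le_mul_left h1 hT2
  have hi9 := hle i hi.2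
  have h1 := hC0 i hi a b L (gap lam) hL1 hL ((Nat.mul_le_mul_right _ hi9).trans hCL')
    ((Nat.mul_le_mul_right _ hi9).trans hCab') hsg
    ((Nat.mul_le_mul_right _ hi9).trans hgi)
  rwa [gw_gap hanti] at h1

end Vale.Agent.P181.FR
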