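import Vale.Agent.P181.R2.H425.WideLog
import Vale.Agent.P181.R2.H350.Y6
import Vale.Agent.P181.R2.H424.Y4
import Vale.Agent.P181.R2.H424.Y5
import Vale.Agent.P181.R2.H822.Y3
import Vale.Agent.P181.R2.H280.AllWide

set_option autoImplicit false

open scoped TensorProduct

namespace Vale.Agent.P181.FR.H425M

open Vale.Agent.P181 Vale.Agent.P181.H280

/-- **Theorem Y.** Foulkes' inequality for the partitions with at most `n + 3` rows whose third
row and the product of whose second and third rows are large. -/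
theorem all_mix (n : ℕ) {ε : ℝ} (hε : 0 < ε) : ∃ C : ℝ, 0 < C ∧
    ∀ (a b : ℕ) (lam : Fin (n + 3) → ℕ), C * a ≤ b → C * (a : ℝ) ^ (1 + ε) ≤ lam 2 →
    C * (a : ℝ) ^ (3 + ε) ≤ (lam 1 : ℝ) * lam 2 →
    plethMult a b (n + 3) lam ≤ plethMult b a (n + 3) lam :=
  all_mix_of
    (fun {_ _} h1 h2 {_} h3 => gap_mix_of h1 h2 h3
      (H822Y.gap_core_of (by omega) h2 (pos_all (by omega) h2)) (rich_mix_of family2 h1 h2))
    (fun {_ _} h1 h2 {_} h3 => gap_pure_of h1 h2 h3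
      (H822Y.gap_core_of (by omega) h2 (pos_all (by omega) h2))
      (rich_rect_of rich_of_family family h1 h2)) n hε

/-- **Theorem Z.** -/
theorem all_wide (n : ℕ) {ε : ℝ} (hε : 0 < ε) : ∃ C : ℝ, 0 < C ∧
    ∀ (a b : ℕ) (lam : Fin (n + 3) → ℕ), C * (a : ℝ) ^ (1 + ε) ≤ b →
    C * (a : ℝ) ^ (3 * n + 4 + ε) ≤ (b : ℝ) ^ (n + 2) * (lam 1 : ℝ) ^ (n + 1) →
    plethMult a b (n + 3) lam ≤ plethMult b a (n + 3) lam :=
  all_wide_of (fun n {_} h => all_mix n h) (fun {_ _ _ _ _} => hw_antitone) n hε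

end Vale.Agent.P181.FR.H425M
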