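import Vale.Agent.P181.R2.H425.Q3
import Vale.Agent.P181.R2.H822.Q1
import Vale.Agent.P181.R2.H130.Q2
import Vale.Agent.P181.R2.H350.RichMix

set_option autoImplicit false

open scoped TensorProduct

namespace Vale.Agent.P181.FR

open Vale.Agent.P181 Vale.Agent.P181.H280

/-- **Theorem Y with two parameters** `b < s ^ q`: the case `q = L`, `s = 2` is the logarithmic
form, the case of constant `q` and `s` a small power of `a` is the `ε` form. -/
theorem all_mix_qs (n : ℕ) : ∃ C : ℕ,
    ∀ (a b q s : ℕ) (lam : Fin (n + 3) → ℕ), 1 ≤ q → 2 ≤ s → b + 1 ≤ s ^ q →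
    C * (q * s) ≤ a → C * (a * q) ≤ b → C * (a * q ^ 2 * s) ≤ lam 2 →
    C * ((a * q) ^ 3 * s) ≤ lam 1 * lam 2 →
    plethMult a b (n + 3) lam ≤ plethMult b a (n + 3) lam :=
  all_mix_qs_of
    (fun {m i} hi him => H822Q.gap_mix_qs_of hi him (pos_all (by omega) him) (rich_mix hi him))
    (fun {m i} hi him => gap_qs_of hi him (pos_all (by omega) him)
      (rich_rect_of rich_of_family family hi him)) n

end Vale.Agent.P181.FR
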