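import Vale.Agent.P181.R2.H425.RecM

/-!
P181, tail theorem for all numbers of rows: the recursion (row N9), abstract form, and closed forms.
-/

set_option autoImplicit false

namespace Vale.Agent.P181.TN

open H425

section
variable (n N : ℕ) (hn : 1 ≤ n) (hN : 1 ≤ N) (K : ℕ → ℕ → ℕ → Prop)
  (base : ∀ b t, K 0 b t)
  (tree : ∀ a b t, t + N ≤ b → a ≤ N + 1 → K a b t)
  (step : ∀ a b t s, 2 ≤ s → 2 * a + 2 ≤ b →
    n * ((s - 1) * b) + (n + 1) * (a + 1) ≤ (n + 1) * t → (∀ t', t' ≤ t → K a b t') →
    (∀ t', t' + s ≤ t → K (a + 1) (b - 1) t') → K (a + 1) b t)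

include hn hN base tree step in
theorem recN_aux : ∀ s a b t, a ≤ N + 1 → t + cm n N s ≤ (s + 1) * b → K a b t := by
  intro s
  induction s with
  | zero =>
    intro a b t ha ht
    rw [cm_zero] at ht
    exact tree a b t (by omega) ha
  | succ s ihs =>
    have hrel := cm_rel n N s
    have hsucc := cm_succ n N s
    have hch : 2 ≤ (s + n + 1).choose n := by
      have h1 : (n + 1).choose n ≤ (s + n + 1).choose n := Nat.choose_le_choose _ (by omega)
      have h2 : (n + 1).choose n = n + 1 := by simp
      omega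
    intro a b
    induction b generalizing a with
    | zero =>
      intro t ha ht
      exfalso
      have h1 : 0 < 2 * N * (s + n + 1).choose n := by positivity
      omega
    | succ b ihb =>
      induction a with
      | zero => intro t _ _; exact base _ _
      | succ m ihm =>
        intro t ha ht
        by_cases h1 : t + cm n N s ≤ (s + 1) * (b + 1)
        · exact ihs (m + 1) (b + 1) t ha h1
        push Not at h1
        set D := 2 * N * (s + n + 1).choose n with hD
        have hND : 2 * N * 2 ≤ D := by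
          rw [hD]; exact Nat.mul_le_mul_left _ hch
        have hbD : D < b + 1 := by
          have : t + cm n N s + D ≤ (s + 1) * (b + 1) + (b + 1) := by
            calc t + cm n N s + D = t + cm n N (s + 1) := by omega
              _ ≤ (s + 1 + 1) * (b + 1) := ht
              _ = _ := by ring
          omega
        have hm : m ≤ N := by omega
        have h2 : (s + 1) * (D + 1) ≤ (s + 1) * (b + 1) := Nat.mul_le_mul_left _ hbD
        have h3 : (n + 1) * (cm n N s + N) + (s + 1) ≤ (s + 1) * (b + 1) := by
          rw [hrel]; nlinarith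
        have h4 : (n + 1) * ((s + 1) * (b + 1) + 1) ≤ (n + 1) * (t + cm n N s) :=
          Nat.mul_le_mul_left _ h1
        have h5 : n * ((s + 1) * (b + 1)) + (n + 1) * (N + 1) ≤ (n + 1) * t := by nlinarith
        have h6 : (n + 1) * (m + 1) ≤ (n + 1) * (N + 1) := Nat.mul_le_mul_left _ (by omega)
        refine step m (b + 1) t (s + 2) (by omega) (by omega) ?_ ?_ ?_
        · have h8 : s + 2 - 1 = s + 1 := rfl
          rw [h8]
          omega
        · intro t' ht'
          exact ihm t' (by omega) (by omega)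
        · intro t' ht'
          rw [Nat.add_sub_cancel]
          refine ihb (m + 1) t' ha ?_
          have : t' + (s + 2) + cm n N (s + 1) ≤ (s + 1 + 1) * (b + 1) := by omega
          nlinarith

include hn hN base tree step in
/-- **the recursion**, row N9 -/
theorem recN : ∀ b a t s, a ≤ N + 1 → 1 ≤ s →
    t + N * (2 * Nat.choose (s + n) (n + 1) - 1) ≤ s * b → K a b t := by
  intro b a t s ha hs h
  obtain ⟨r, rfl⟩ : ∃ r, s = r + 1 := ⟨s - 1, by omega⟩
  refine recN_aux n N hn hN K base tree step r a b t ha ?_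
  have h1 : r + 1 + n = r + n + 1 := by ring
  rw [h1] at h
  exact h

end

/-- closed form of the condition for one variable below the second row:
`t ≤ b ^ 2 / (4 N) - b / 2 + N` -/
theorem closed_one {N b t : ℕ} (hN : 1 ≤ N) (hb : 2 * N ≤ b)
    (h : 4 * N * t + 2 * N * b ≤ b * b + 4 * (N * N)) :
    ∃ s, 1 ≤ s ∧ t + N * (2 * Nat.choose (s + 1) (1 + 1) - 1) ≤ s * b := by
  obtain ⟨s, r, hr, hq⟩ : ∃ s r, r < 2 * N ∧ b = 2 * N * s + r :=
    ⟨b / (2 * N), b % (2 * N), Nat.mod_lt _ (by omega), (Nat.div_add_mod _ _).symm⟩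
  have hs : 1 ≤ s := by
    by_contra h0
    have : s = 0 := by omega
    subst this
    omega
  refine ⟨s, hs, ?_⟩
  have h1 : 2 * (s + 1).choose (1 + 1) = (s + 1) * s := by
    have h2 : (s + 1).choose (1 + 1) = (s + 1) * s / 2 := by
      rw [Nat.choose_two_right]; rfl
    rw [h2]
    exact Nat.two_mul_div_two_of_even (by
      rw [mul_comm]; exact Nat.even_mul_succ_self s)
  rw [h1]
  obtain ⟨c, hc⟩ : ∃ c, (s + 1) * s = c + 1 :=
    ⟨(s + 1) * s - 1, (Nat.sub_add_cancel (Nat.mul_pos (Nat.succ_pos s) hs)).symm⟩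
  have h3 : (s + 1) * s - 1 = c := by omega
  rw [h3]
  have h4 : 4 * N * (t + N * c) ≤ 4 * N * (s * b) := by
    have h5 : r * r ≤ 2 * N * r := Nat.mul_le_mul_right _ hr.le
    have h6 : 4 * N * (N * c) + 4 * (N * N) = 4 * (N * N) * ((s + 1) * s) := by
      rw [hc]; ring
    subst hq
    nlinarith
  exact Nat.le_of_mul_le_mul_left h4 (by omega)

end Vale.Agent.P181.TN
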