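import Vale.Agent.P181.R2.H425.Y7L

set_option autoImplicit false

open scoped TensorProduct

namespace Vale.Agent.P181.FR

open Vale.Agent.P181 Vale.Agent.P181.H280

/-- Q1, literal. -/
def Q1P : Prop := ∀ {m i : ℕ} (_hi : 3 ≤ i) (_him : i ≤ m), ∃ C : ℕ, ∀ (a b q s : ℕ) (g : ℕ → ℕ),
    1 ≤ q → 2 ≤ s → b + 1 ≤ s ^ q → C * (q * s) ≤ a → C * (a * q) ≤ b →
    ∑ j ∈ Finset.Icc 1 m, j * g j = a * b → C * (a * q ^ 2 * s) ≤ g 2 →
    C * (a * q ^ 2 * s) ≤ g i → C * ((a * q) ^ 3 * s) ≤ g 2 * g i →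
    plethMult a b m (gw m g) ≤ plethMult b a m (gw m g)

/-- Q2, literal. -/
def Q2P : Prop := ∀ {m i : ℕ} (_hi : 3 ≤ i) (_him : i ≤ m), ∃ C : ℕ, ∀ (a b q s : ℕ) (g : ℕ → ℕ),
    1 ≤ q → 2 ≤ s → b + 1 ≤ s ^ q → C * (q * s) ≤ a → C * (a * q) ≤ b →
    ∑ j ∈ Finset.Icc 1 m, j * g j = a * b → C * ((a * q) ^ 3 * s) ≤ g i ^ 2 →
    plethMult a b m (gw m g) ≤ plethMult b a m (gw m g)

open W11

/-- Theorem Y with two parameters, from Q1 and Q2. -/
theorem all_mix_qs_of (Q1 : Q1P) (Q2 : Q2P) (n : ℕ) : ∃ C : ℕ,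
    ∀ (a b q s : ℕ) (lam : Fin (n + 3) → ℕ), 1 ≤ q → 2 ≤ s → b + 1 ≤ s ^ q →
    C * (q * s) ≤ a → C * (a * q) ≤ b → C * (a * q ^ 2 * s) ≤ lam 2 →
    C * ((a * q) ^ 3 * s) ≤ lam 1 * lam 2 →
    plethMult a b (n + 3) lam ≤ plethMult b a (n + 3) lam := by
  classical
  choose! C4 hC4 using (fun i (h : 3 ≤ i ∧ i ≤ n + 3) => Q1 h.1 h.2)
  choose! C5 hC5 using (fun i (h : 3 ≤ i ∧ i ≤ n + 3) => Q2 h.1 h.2)
  obtain ⟨D, hD⟩ : ∃ D, D = ∑ i ∈ Finset.range (n + 4), (C4 i + C5 i) + 1 := ⟨_, rfl⟩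
  have hterm : ∀ i, i ≤ n + 3 → C4 i + C5 i ≤ D := fun i hi => by
    have h1 : C4 i + C5 i ≤ ∑ i ∈ Finset.range (n + 4), (C4 i + C5 i) :=
      Finset.single_le_sum (f := fun i => C4 i + C5 i) (fun _ _ => Nat.zero_le _)
        (Finset.mem_range.2 (by omega))
    omega
  have h4 : ∀ i, i ≤ n + 3 → C4 i ≤ D := fun i hi => (Nat.le_add_right _ _).trans (hterm i hi)
  have h5 : ∀ i, i ≤ n + 3 → C5 i ≤ D := fun i hi => (Nat.le_add_left _ _).trans (hterm i hi)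
  have hD1 : 1 ≤ D := by rw [hD]; exact Nat.succ_le_succ (Nat.zero_le _)
  obtain ⟨p, hp⟩ : ∃ p, p = n + 1 := ⟨_, rfl⟩
  have hp1 : 1 ≤ p := by omega
  obtain ⟨C, hC⟩ : ∃ C, C = 2 * p ^ 2 * D := ⟨_, rfl⟩
  have hpp : p ≤ p ^ 2 := by nlinarith
  have hC2 : 2 * D ≤ C := by rw [hC]; nlinarith [Nat.mul_le_mul_right D (hp1.trans hpp)]
  have hCp : p * D ≤ C := by rw [hC]; nlinarith [Nat.mul_le_mul_right D hpp]
  have hC2p : 2 * p * D ≤ C := by rw [hC]; nlinarith [Nat.mul_le_mul_right D hpp]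
  have hCD : D ≤ C := by omega
  refine ⟨C, fun a b q s lam hq hs hbs hCq hCab h2 h12 => ?_⟩
  by_cases hz : plethMult a b (n + 3) lam = 0
  · rw [hz]
    exact Nat.zero_le _
  have hne : hwSpace lam (plethAct a b (n + 3)) ≠ ⊥ := by
    intro h
    apply hz
    rw [plethMult, h, finrank_bot]
  obtain ⟨x, hx, hx0⟩ := Submodule.exists_mem_ne_zero_of_ne_bot hne
  have hanti := hw_antitone hx hx0
  have hsum : ∑ i, lam i = a * b := hw_sum hx hx0
  have hsg : ∑ j ∈ Finset.Icc 1 (n + 3), j * gap lam j = a * b := by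
    rw [sum_gap hanti, hsum]
  obtain ⟨i, hi3, him, hgi, hlam1⟩ := facts hanti
  rw [← hp] at hgi
  have hDq : D * (q * s) ≤ a := (Nat.mul_le_mul_right _ hCD).trans hCq
  have hDab : D * (a * q) ≤ b := (Nat.mul_le_mul_right _ hCD).trans hCab
  obtain ⟨X, hX⟩ : ∃ X, X = a * q ^ 2 * s := ⟨_, rfl⟩
  obtain ⟨Y, hY⟩ : ∃ Y, Y = (a * q) ^ 3 * s := ⟨_, rfl⟩
  rw [← hX] at h2
  rw [← hY] at h12
  by_cases hc : lam 1 ≤ 2 * gap lam 2
  · -- the mixed case
    have k1 : D * X ≤ gap lam 2 := by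
      have t1 : 2 * (D * X) ≤ lam 2 := by
        calc 2 * (D * X) = 2 * D * X := by ring
          _ ≤ C * X := Nat.mul_le_mul_right _ hC2
          _ ≤ lam 2 := h2
      omega
    have k2 : D * X ≤ gap lam i := by
      have t1 : p * (D * X) ≤ p * gap lam i := by
        calc p * (D * X) = p * D * X := by ring
          _ ≤ C * X := Nat.mul_le_mul_right _ hCp
          _ ≤ lam 2 := h2
          _ ≤ p * gap lam i := hgi
      exact Nat.le_of_mul_le_mul_left t1 hp1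
    have k3 : D * Y ≤ gap lam 2 * gap lam i := by
      have t1 : 2 * p * (D * Y) ≤ 2 * p * (gap lam 2 * gap lam i) := by
        calc 2 * p * (D * Y) = 2 * p * D * Y := by ring
          _ ≤ C * Y := Nat.mul_le_mul_right _ hC2p
          _ ≤ lam 1 * lam 2 := h12
          _ ≤ (2 * gap lam 2) * (p * gap lam i) := Nat.mul_le_mul hc hgi
          _ = 2 * p * (gap lam 2 * gap lam i) := by ring
      exact Nat.le_of_mul_le_mul_left t1 (by omega)
    rw [hX] at k1 k2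
    rw [hY] at k3
    have h1 := hC4 i ⟨hi3, him⟩ a b q s (gap lam) hq hs hbs
      ((Nat.mul_le_mul_right _ (h4 i him)).trans hDq)
      ((Nat.mul_le_mul_right _ (h4 i him)).trans hDab) hsg
      ((Nat.mul_le_mul_right _ (h4 i him)).trans k1)
      ((Nat.mul_le_mul_right _ (h4 i him)).trans k2)
      ((Nat.mul_le_mul_right _ (h4 i him)).trans k3)
    rwa [gw_gap hanti] at h1
  · -- the pure case
    have k0 : lam 1 ≤ 2 * lam 2 := by omega
    have k3 : D * Y ≤ gap lam i ^ 2 := by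
      have t1 : 2 * p ^ 2 * (D * Y) ≤ 2 * p ^ 2 * gap lam i ^ 2 := by
        calc 2 * p ^ 2 * (D * Y) = C * Y := by rw [hC]; ring
          _ ≤ lam 1 * lam 2 := h12
          _ ≤ (2 * lam 2) * lam 2 := Nat.mul_le_mul_right _ k0
          _ = 2 * lam 2 ^ 2 := by ring
          _ ≤ 2 * (p * gap lam i) ^ 2 := Nat.mul_le_mul_left _ (Nat.pow_le_pow_left hgi 2)
          _ = 2 * p ^ 2 * gap lam i ^ 2 := by ring
      exact Nat.le_of_mul_le_mul_left t1 (by positivity)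
    rw [hY] at k3
    have h1 := hC5 i ⟨hi3, him⟩ a b q s (gap lam) hq hs hbs
      ((Nat.mul_le_mul_right _ (h5 i him)).trans hDq)
      ((Nat.mul_le_mul_right _ (h5 i him)).trans hDab) hsg
      ((Nat.mul_le_mul_right _ (h5 i him)).trans k3)
    rwa [gw_gap hanti] at h1

end Vale.Agent.P181.FR
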