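import Mathlib

set_option autoImplicit false

namespace Vale.Agent.P181.H425

/-- the constants `c_(r+2) = (2 n + 3) N binom (r + n + 1) (n + 1)` -/
def cc (n N r : ℕ) : ℕ := (2 * n + 3) * N * (r + n + 1).choose (n + 1)

lemma cc_zero (n N : ℕ) : cc n N 0 = (2 * n + 3) * N := by
  simp [cc]

lemma cc_succ (n N r : ℕ) : (r + 1) * cc n N (r + 1) = (r + n + 2) * cc n N r := by
  have h := Nat.choose_mul_succ_eq (r + n + 1) (n + 1)
  have h2 : r + n + 1 + 1 - (n + 1) = r + 1 := by omega
  rw [h2] at h
  have h3 : (r + 1 + n + 1).choose (n + 1) * (r + 1)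
      = (r + n + 1).choose (n + 1) * (r + n + 2) := by
    have h4 : r + 1 + n + 1 = r + n + 1 + 1 := by ring
    rw [h4]
    exact h.symm
  unfold cc
  calc (r + 1) * ((2 * n + 3) * N * (r + 1 + n + 1).choose (n + 1))
      = (2 * n + 3) * N * ((r + 1 + n + 1).choose (n + 1) * (r + 1)) := by ring
    _ = (2 * n + 3) * N * ((r + n + 1).choose (n + 1) * (r + n + 2)) := by rw [h3]
    _ = _ := by ring

lemma cc_diff (n N r : ℕ) :
    (r + 1) * cc n N (r + 1) = (r + 1) * cc n N r + (n + 1) * cc n N r := by
  rw [cc_succ]; ring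

lemma cc_mono (n N r : ℕ) : cc n N r ≤ cc n N (r + 1) := by
  have h := cc_diff n N r
  exact Nat.le_of_mul_le_mul_left (h ▸ Nat.le_add_right _ _) (Nat.succ_pos r)

lemma cc_ge (n N : ℕ) : ∀ r, (2 * n + 3) * N ≤ cc n N r
  | 0 => (cc_zero n N).ge
  | r + 1 => (cc_ge n N r).trans (cc_mono n N r)

lemma cc_ge' (n N : ℕ) : ∀ r, (2 * n + 3) * N * (r + 1) ≤ cc n N r := by
  intro r
  induction r with
  | zero => simp [cc_zero]
  | succ r ih =>
    have h := cc_succ n N r
    have h1 : (r + 2) * ((2 * n + 3) * N * (r + 1)) ≤ (r + n + 2) * cc n N r :=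
      Nat.mul_le_mul (by omega) ih
    have h2 : (r + 1) * ((2 * n + 3) * N * (r + 1 + 1)) ≤ (r + 1) * cc n N (r + 1) := by
      rw [h]
      calc _ = (r + 2) * ((2 * n + 3) * N * (r + 1)) := by ring
        _ ≤ _ := h1
    exact Nat.le_of_mul_le_mul_left h2 (Nat.succ_pos r)

section
variable (n N : ℕ) (hN : 1 ≤ N) (K : ℕ → ℕ → ℕ → Prop) (L : ℕ → ℕ → ℕ → ℕ → Prop)
  (tree : ∀ a b t, t + N ≤ b → a ≤ N + 1 → K a b t)
  (lemI : ∀ r a b t, 1 ≤ b → K a b t → n * (r * b) < (n + 1) * t → L (r + 1) a b t)
  (base0 : ∀ s b t, 1 ≤ t → L s 0 b t)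
  (mono : ∀ s a b t, L (s + 1) a b t → L s a b t)
  (astep : ∀ r a b t, 1 ≤ r → 1 ≤ b → 2 * a ≤ b →
    (∀ k, a + 1 ≤ k → k ≤ b → k < t → L r a b (t - k)) →
    (∀ k, k ≤ a → k ≤ t → L (r + 1) a b (t - k)) →
    (b < t ∨ (r = 1 ∧ a + 1 ≤ t)) → L (r + 1) (a + 1) b t)
  (tstep : ∀ s a b t, 1 ≤ s → (∀ t', t' + s ≤ t → K a b t') →
    L s a (b + 1) t → K a (b + 1) t)

include hN tree lemI base0 mono astep in
/-- one level of the recursion, slope two, in all numbers of points -/
theorem recN_A2 :
    ∀ a b t, a ≤ N + 1 → 2 * (n + 1) * N ≤ b → n * b < (n + 1) * t → L 2 a b t := by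
  intro a
  induction a with
  | zero =>
    intro b t _ _ ht
    refine base0 _ _ _ ?_
    by_contra h0
    have : t = 0 := by omega
    subst this
    omega
  | succ a ih =>
    intro b t ha hb ht
    have hnN : N ≤ (n + 1) * N := Nat.le_mul_of_pos_left _ (Nat.succ_pos n)
    have hb' : 2 * ((n + 1) * N) ≤ b := by nlinarith
    by_cases h1 : t + N ≤ b
    · exact lemI 1 (a + 1) b t (by omega) (tree _ _ _ h1 ha) (by simpa using ht)
    have key : ∀ u, b < u + 2 * N → n * b < (n + 1) * u := by
      intro u hu
      have h3 : (n + 1) * (b + 1) ≤ (n + 1) * (u + 2 * N) := Nat.mul_le_mul_left _ hu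
      nlinarith
    have L1 : ∀ u, 1 ≤ u → L 1 a b u := by
      intro u hu
      by_cases h2 : u + N ≤ b
      · exact lemI 0 a b u (by omega) (tree _ _ _ h2 (by omega)) (by
          have : 0 < (n + 1) * u := by positivity
          simpa using this)
      · exact mono 1 a b u (ih b u (by omega) hb (key u (by omega)))
    refine astep 1 a b t le_rfl (by omega) (by omega) ?_ ?_ ?_
    · intro k _ _ hk
      exact L1 _ (by omega)
    · intro k hk1 hk2
      exact ih b (t - k) (by omega) hb (key _ (by omega))
    · right
      exact ⟨rfl, by omega⟩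

include hN tree lemI base0 mono astep tstep in
/-- **the tail recursion for `n` variables below the second row** -/
theorem recN_tail :
    ∀ r, (∀ a b t, a ≤ N + 1 → 2 * (n + 1) * N ≤ b →
        (r = 0 ∨ (n + 1) * cc n N (r - 1) ≤ r * b) → n * ((r + 1) * b) < (n + 1) * t →
        L (r + 2) a b t) ∧
      (∀ a b t, a ≤ N + 1 → t + cc n N r ≤ (r + 2) * b → K a b t) := by
  have A2 := recN_A2 n N hN K L tree lemI base0 mono astep
  intro r
  induction r with
  | zero =>
    refine ⟨fun a b t ha h4 _ ht => A2 a b t ha h4 (by simpa using ht), ?_⟩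
    intro a b
    rw [cc_zero]
    induction b with
    | zero =>
      intro t ha ht
      exfalso
      have : 0 < (2 * n + 3) * N := by positivity
      omega
    | succ b ihb =>
      intro t ha ht
      by_cases h1 : t + N ≤ b + 1
      · exact tree _ _ _ h1 ha
      · have h2 : (2 * n + 3) * N = 2 * (n + 1) * N + N := by ring
        have h3 : 2 * (n + 1) * N ≤ b + 1 := by omega
        refine tstep 2 a b t (by omega) ?_ (A2 a (b + 1) t ha h3 ?_)
        · intro t' ht'
          exact ihb t' ha (by omega)
        · have h4 : (n + 1) * (b + 1 + 1) ≤ (n + 1) * (t + N) := Nat.mul_le_mul_left _ (by omega)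
          nlinarith
  | succ r ih =>
    obtain ⟨ihA, ihB⟩ := ih
    have hd := cc_diff n N r
    have hge := cc_ge n N r
    have A : ∀ a b t, a ≤ N + 1 → 2 * (n + 1) * N ≤ b → (n + 1) * cc n N r ≤ (r + 1) * b →
        n * ((r + 1 + 1) * b) < (n + 1) * t → L (r + 1 + 2) a b t := by
      intro a
      induction a with
      | zero =>
        intro b t _ _ _ ht
        refine base0 _ _ _ ?_
        by_contra h0
        have : t = 0 := by omega
        subst this
        omega
      | succ a iha =>
        intro b t ha h4 h5 ht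
        have hNb : N ≤ (n + 1) * N := Nat.le_mul_of_pos_left _ (Nat.succ_pos n)
        have h4' : 2 * ((n + 1) * N) ≤ b := by nlinarith
        have hb0 : 1 ≤ b := by omega
        by_cases h1 : t + cc n N r ≤ (r + 2) * b
        · exact lemI (r + 2) (a + 1) b t hb0 (ihB (a + 1) b t ha h1) ht
        · push Not at h1
          have h1' : (n + 1) * ((r + 2) * b + 1) ≤ (n + 1) * (t + cc n N r) :=
            Nat.mul_le_mul_left _ h1
          have hrb : 0 ≤ r * b := Nat.zero_le _
          have hnrb : 0 ≤ n * (r * b) := Nat.zero_le _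
          -- general comparison
          have key1 : (n * (r + 1)) * b + (n + 1) * b < (n + 1) * t := by nlinarith
          have key2 : (n * (r + 2)) * b + (n + 1) * N < (n + 1) * t := by nlinarith
          refine astep (r + 2) a b t (by omega) hb0 (by omega) ?_ ?_ ?_
          · intro k _ hk hkt
            have h6 : (n + 1) * k ≤ (n + 1) * b := Nat.mul_le_mul_left _ hk
            have h7 : (n + 1) * (t - k) + (n + 1) * k = (n + 1) * t := by
              rw [← Nat.mul_add]; congr 1; omega
            refine ihA a b (t - k) (by omega) h4 ?_ ?_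
            · rcases Nat.eq_zero_or_pos r with h0 | h0
              · exact Or.inl h0
              · right
                obtain ⟨q, rfl⟩ : ∃ q, r = q + 1 := ⟨r - 1, by omega⟩
                have h8 := cc_succ n N q
                have h9 : q + 1 - 1 = q := rfl
                rw [h9]
                -- (q + 2) * ((n+1) * cc q) ≤ (q+2) * ((q+1) * b)
                have h10 : (q + n + 2) * ((n + 1) * cc n N q)
                    ≤ (q + 1) * ((q + 1 + 1) * b) := by
                  calc (q + n + 2) * ((n + 1) * cc n N q)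
                      = (n + 1) * ((q + n + 2) * cc n N q) := by ring
                    _ = (n + 1) * ((q + 1) * cc n N (q + 1)) := by rw [h8]
                    _ = (q + 1) * ((n + 1) * cc n N (q + 1)) := by ring
                    _ ≤ _ := Nat.mul_le_mul_left _ h5
                have h11 : (q + 2) * ((n + 1) * cc n N q) ≤ (q + n + 2) * ((n + 1) * cc n N q) :=
                  Nat.mul_le_mul_right _ (by omega)
                have h12 : (q + 2) * ((n + 1) * cc n N q) ≤ (q + 2) * ((q + 1) * b) := by
                  calc _ ≤ _ := h11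
                    _ ≤ _ := h10
                    _ = _ := by ring
                exact Nat.le_of_mul_le_mul_left h12 (by omega)
            · calc n * ((r + 1) * b) = (n * (r + 1)) * b := by ring
                _ < (n + 1) * (t - k) := by omega
          · intro k hk1 hk2
            have h6 : (n + 1) * k ≤ (n + 1) * N := Nat.mul_le_mul_left _ (by omega)
            have h7 : (n + 1) * (t - k) + (n + 1) * k = (n + 1) * t := by
              rw [← Nat.mul_add]; congr 1; omega
            refine iha b (t - k) (by omega) h4 h5 ?_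
            calc n * ((r + 1 + 1) * b) = (n * (r + 2)) * b := by ring
              _ < (n + 1) * (t - k) := by omega
          · left
            have h8 : (n + 1) * b < (n + 1) * t := by
              have : 0 ≤ (n * (r + 1)) * b := Nat.zero_le _
              omega
            exact Nat.lt_of_mul_lt_mul_left h8
    refine ⟨fun a b t ha h4 h5 ht => A a b t ha h4 (by
      rcases h5 with h | h
      · omega
      · simpa using h) ht, ?_⟩
    intro a b
    induction b with
    | zero =>
      intro t ha ht
      exfalso
      have h1 := cc_ge n N (r + 1)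
      have : 0 < (2 * n + 3) * N := by positivity
      omega
    | succ b ihb =>
      intro t ha ht
      by_cases h1 : t + cc n N r ≤ (r + 2) * (b + 1)
      · exact ihB a (b + 1) t ha h1
      · push Not at h1
        -- b + 1 > cc (r+1) - cc r
        have h2 : cc n N (r + 1) < (b + 1) + cc n N r := by nlinarith
        have h3 : (n + 1) * cc n N r ≤ (r + 1) * (b + 1) := by nlinarith
        have h4 : 2 * (n + 1) * N ≤ b + 1 := by
          have h5 := cc_ge' n N r
          have h6 : (n + 1) * ((2 * n + 3) * N * (r + 1)) ≤ (n + 1) * cc n N r :=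
            Nat.mul_le_mul_left _ h5
          have h7 : (r + 1) * ((n + 1) * ((2 * n + 3) * N)) ≤ (r + 1) * (b + 1) := by
            calc _ = (n + 1) * ((2 * n + 3) * N * (r + 1)) := by ring
              _ ≤ _ := h6.trans h3
          have h8 := Nat.le_of_mul_le_mul_left h7 (Nat.succ_pos r)
          nlinarith
        refine tstep (r + 3) a b t (by omega) ?_ (A a (b + 1) t ha h4 h3 ?_)
        · intro t' ht'
          refine ihb t' ha ?_
          nlinarith
        · have h1' : (n + 1) * ((r + 2) * (b + 1) + 1) ≤ (n + 1) * (t + cc n N r) :=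
            Nat.mul_le_mul_left _ h1
          nlinarith

include hN tree lemI base0 mono astep tstep in
/-- **the tail theorem for `n` variables below the second row**, abstract form -/
theorem recN_slope (a b t : ℕ) (ha : a ≤ N + 1)
    (h : ∃ s, 2 ≤ s ∧ t + (2 * n + 3) * N * (s + n - 1).choose (n + 1) ≤ s * b) : K a b t := by
  obtain ⟨s, hs, h⟩ := h
  obtain ⟨r, rfl⟩ : ∃ r, s = r + 2 := ⟨s - 2, by omega⟩
  refine (recN_tail n N hN K L tree lemI base0 mono astep tstep r).2 a b t ha ?_
  have h1 : r + 2 + n - 1 = r + n + 1 := by omega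
  rw [h1] at h
  exact h

end

end Vale.Agent.P181.H425
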