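import Vale.Agent.P181.R2.H425.Deep

set_option autoImplicit false

open scoped TensorProduct

namespace Vale.Agent.P181.FR

open Vale.Agent.P181 Vale.Agent.P181.H280

/-- Y4, logarithmic form (849). -/
def Y4L : Prop := ∀ {m i : ℕ} (_hi : 3 ≤ i) (_him : i ≤ m), ∃ C : ℕ, ∀ (a b L : ℕ) (g : ℕ → ℕ),
    1 ≤ L → b + 1 ≤ 2 ^ L → C * L ≤ a → C * (a * L) ≤ b →
    ∑ j ∈ Finset.Icc 1 m, j * g j = a * b →
    C * (a * L ^ 2) ≤ g 2 → C * (a * L ^ 2) ≤ g i → C * (a * L) ^ 3 ≤ g 2 * g i →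
    plethMult a b m (gw m g) ≤ plethMult b a m (gw m g)

namespace W11

/-- The basic facts on a highest weight `lam` and its gaps. -/
lemma facts {n : ℕ} {lam : Fin (n + 3) → ℕ} (hanti : ∀ i j : Fin (n + 3), i ≤ j → lam j ≤ lam i) :
    ∃ i, 3 ≤ i ∧ i ≤ n + 3 ∧ lam 2 ≤ (n + 1) * gap lam i ∧ lam 1 = gap lam 2 + lam 2 := by
  obtain ⟨i, hi, hsup⟩ := Finset.exists_mem_eq_sup (Finset.Icc 3 (n + 3))
    ⟨3, Finset.mem_Icc.2 ⟨le_refl 3, by omega⟩⟩ (gap lam)
  rw [Finset.mem_Icc] at hi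
  have hmax : ∀ j, 3 ≤ j → j ≤ n + 3 → gap lam j ≤ gap lam i := fun j h3 hj => by
    rw [← hsup]
    exact Finset.le_sup (f := gap lam) (Finset.mem_Icc.2 ⟨h3, hj⟩)
  have hlam2 : lam 2 = ∑ j ∈ Finset.Ioc 2 (n + 3), gap lam j := by
    rw [ext_eq hanti _ (by omega), ext, dif_pos (by omega)]
    congr 1
  refine ⟨i, hi.1, hi.2, ?_, ?_⟩
  · rw [hlam2]
    calc ∑ j ∈ Finset.Ioc 2 (n + 3), gap lam j
        ≤ ∑ _j ∈ Finset.Ioc 2 (n + 3), gap lam i := by
          apply Finset.sum_le_sum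
          intro j hj
          rw [Finset.mem_Ioc] at hj
          exact hmax j (by omega) hj.2
      _ = (n + 1) * gap lam i := by
          rw [Finset.sum_const, Nat.card_Ioc, smul_eq_mul]
          congr 1
  · have h1 : lam 1 = ∑ j ∈ Finset.Ioc 1 (n + 3), gap lam j := by
      rw [ext_eq hanti _ (by omega), ext, dif_pos (by omega)]
      congr 1
    rw [h1, hlam2]
    rw [← Finset.sum_Ioc_consecutive _ (show 1 ≤ 2 by omega) (show 2 ≤ n + 3 by omega)]
    congr 1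

end W11

open W11

/-- Theorem Y, logarithmic form, from Y4 and Y5. -/
theorem all_mix_log_of (Y4 : Y4L) (Y5 : W13L) (n : ℕ) : ∃ C : ℕ,
    ∀ (a b L : ℕ) (lam : Fin (n + 3) → ℕ), 1 ≤ L → b + 1 ≤ 2 ^ L → C * L ≤ a →
    C * (a * L) ≤ b → C * (a * L ^ 2) ≤ lam 2 → C * (a * L) ^ 3 ≤ lam 1 * lam 2 →
    plethMult a b (n + 3) lam ≤ plethMult b a (n + 3) lam := by
  classical
  choose! C4 hC4 using (fun i (h : 3 ≤ i ∧ i ≤ n + 3) => Y4 h.1 h.2)
  choose! C5 hC5 using (fun i (h : 3 ≤ i ∧ i ≤ n + 3) => Y5 h.1 h.2)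
  obtain ⟨D, hD⟩ : ∃ D, D = ∑ i ∈ Finset.range (n + 4), (C4 i + C5 i) + 1 := ⟨_, rfl⟩
  have hterm : ∀ i, i ≤ n + 3 → C4 i + C5 i ≤ D := fun i hi => by
    have h1 : C4 i + C5 i ≤ ∑ i ∈ Finset.range (n + 4), (C4 i + C5 i) :=
      Finset.single_le_sum (f := fun i => C4 i + C5 i) (fun _ _ => Nat.zero_le _)
        (Finset.mem_range.2 (by omega))
    omega
  have h4 : ∀ i, i ≤ n + 3 → C4 i ≤ D := fun i hi => (Nat.le_add_right _ _).trans (hterm i hi)
  have h5 : ∀ i, i ≤ n + 3 → C5 i ≤ D := fun i hi => (Nat.le_add_left _ _).trans (hterm i hi)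
  have hD1 : 1 ≤ D := by rw [hD]; exact Nat.succ_le_succ (Nat.zero_le _)
  obtain ⟨q, hq⟩ : ∃ q, q = n + 1 := ⟨_, rfl⟩
  have hq1 : 1 ≤ q := by omega
  obtain ⟨C, hC⟩ : ∃ C, C = 2 * q ^ 2 * D := ⟨_, rfl⟩
  have hqq : q ≤ q ^ 2 := by nlinarith
  have hC2 : 2 * D ≤ C := by rw [hC]; nlinarith [Nat.mul_le_mul_right D (hq1.trans hqq)]
  have hCq : q * D ≤ C := by rw [hC]; nlinarith [Nat.mul_le_mul_right D hqq]
  have hC2q : 2 * q * D ≤ C := by rw [hC]; nlinarith [Nat.mul_le_mul_right D hqq]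
  have hCD : D ≤ C := by omega
  refine ⟨C, fun a b L lam hL1 hL hCL hCab h2 h12 => ?_⟩
  by_cases hz : plethMult a b (n + 3) lam = 0
  · rw [hz]
    exact Nat.zero_le _
  have hne : hwSpace lam (plethAct a b (n + 3)) ≠ ⊥ := by
    intro h
    apply hz
    rw [plethMult, h, finrank_bot]
  obtain ⟨x, hx, hx0⟩ := Submodule.exists_mem_ne_zero_of_ne_bot hne
  have hanti := hw_antitone hx hx0
  have hsum : ∑ i, lam i = a * b := hw_sum hx hx0
  have hsg : ∑ j ∈ Finset.Icc 1 (n + 3), j * gap lam j = a * b := by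
    rw [sum_gap hanti, hsum]
  obtain ⟨i, hi3, him, hgi, hlam1⟩ := facts hanti
  rw [← hq] at hgi
  have hDL : D * L ≤ a := (Nat.mul_le_mul_right _ hCD).trans hCL
  have hDab : D * (a * L) ≤ b := (Nat.mul_le_mul_right _ hCD).trans hCab
  by_cases hc : lam 1 ≤ 2 * gap lam 2
  · -- the mixed case
    have k1 : D * (a * L ^ 2) ≤ gap lam 2 := by
      have t1 : 2 * (D * (a * L ^ 2)) ≤ lam 2 := by
        calc 2 * (D * (a * L ^ 2)) = 2 * D * (a * L ^ 2) := by ring
          _ ≤ C * (a * L ^ 2) := Nat.mul_le_mul_right _ hC2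
          _ ≤ lam 2 := h2
      omega
    have k2 : D * (a * L ^ 2) ≤ gap lam i := by
      have t1 : q * (D * (a * L ^ 2)) ≤ q * gap lam i := by
        calc q * (D * (a * L ^ 2)) = q * D * (a * L ^ 2) := by ring
          _ ≤ C * (a * L ^ 2) := Nat.mul_le_mul_right _ hCq
          _ ≤ lam 2 := h2
          _ ≤ q * gap lam i := hgi
      exact Nat.le_of_mul_le_mul_left t1 hq1
    have k3 : D * (a * L) ^ 3 ≤ gap lam 2 * gap lam i := by
      have t1 : 2 * q * (D * (a * L) ^ 3) ≤ 2 * q * (gap lam 2 * gap lam i) := by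
        calc 2 * q * (D * (a * L) ^ 3) = 2 * q * D * (a * L) ^ 3 := by ring
          _ ≤ C * (a * L) ^ 3 := Nat.mul_le_mul_right _ hC2q
          _ ≤ lam 1 * lam 2 := h12
          _ ≤ (2 * gap lam 2) * (q * gap lam i) := Nat.mul_le_mul hc hgi
          _ = 2 * q * (gap lam 2 * gap lam i) := by ring
      exact Nat.le_of_mul_le_mul_left t1 (by omega)
    have h1 := hC4 i ⟨hi3, him⟩ a b L (gap lam) hL1 hL
      ((Nat.mul_le_mul_right _ (h4 i him)).trans hDL)
      ((Nat.mul_le_mul_right _ (h4 i him)).trans hDab) hsg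
      ((Nat.mul_le_mul_right _ (h4 i him)).trans k1)
      ((Nat.mul_le_mul_right _ (h4 i him)).trans k2)
      ((Nat.mul_le_mul_right _ (h4 i him)).trans k3)
    rwa [gw_gap hanti] at h1
  · -- the pure case
    have k0 : lam 1 ≤ 2 * lam 2 := by omega
    have k3 : D * (a * L) ^ 3 ≤ gap lam i ^ 2 := by
      have t1 : 2 * q ^ 2 * (D * (a * L) ^ 3) ≤ 2 * q ^ 2 * gap lam i ^ 2 := by
        calc 2 * q ^ 2 * (D * (a * L) ^ 3) = C * (a * L) ^ 3 := by rw [hC]; ring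
          _ ≤ lam 1 * lam 2 := h12
          _ ≤ (2 * lam 2) * lam 2 := Nat.mul_le_mul_right _ k0
          _ = 2 * lam 2 ^ 2 := by ring
          _ ≤ 2 * (q * gap lam i) ^ 2 := Nat.mul_le_mul_left _ (Nat.pow_le_pow_left hgi 2)
          _ = 2 * q ^ 2 * gap lam i ^ 2 := by ring
      exact Nat.le_of_mul_le_mul_left t1 (by positivity)
    have h1 := hC5 i ⟨hi3, him⟩ a b L (gap lam) hL1 hL
      ((Nat.mul_le_mul_right _ (h5 i him)).trans hDL)
      ((Nat.mul_le_mul_right _ (h5 i him)).trans hDab) hsg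
      ((Nat.mul_le_mul_right _ (h5 i him)).trans k3)
    rwa [gw_gap hanti] at h1

/-- Theorem Z, logarithmic form, from Theorem Y. -/
theorem all_wide_log_of (n : ℕ) (Y6 : ∃ C : ℕ,
    ∀ (a b L : ℕ) (lam : Fin (n + 3) → ℕ), 1 ≤ L → b + 1 ≤ 2 ^ L → C * L ≤ a →
    C * (a * L) ≤ b → C * (a * L ^ 2) ≤ lam 2 → C * (a * L) ^ 3 ≤ lam 1 * lam 2 →
    plethMult a b (n + 3) lam ≤ plethMult b a (n + 3) lam) : ∃ C : ℕ,
    ∀ (a b L : ℕ) (lam : Fin (n + 3) → ℕ), 1 ≤ L → b + 1 ≤ 2 ^ L → C * (a * L ^ 2) ≤ b →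
    C * (a ^ (3 * n + 4) * L ^ (3 * n + 3)) ≤ b ^ (n + 2) * lam 1 ^ (n + 1) →
    plethMult a b (n + 3) lam ≤ plethMult b a (n + 3) lam := by
  obtain ⟨C6, hC6⟩ := Y6
  obtain ⟨K, hK⟩ : ∃ K, K = (n + 2) ^ (n + 2) := ⟨_, rfl⟩
  obtain ⟨T, hT⟩ : ∃ T, T = n + 1 := ⟨_, rfl⟩
  obtain ⟨E, hE⟩ : ∃ E, E = 4 * K * (4 * T * C6) ^ (n + 1) := ⟨_, rfl⟩
  obtain ⟨C, hC⟩ : ∃ C, C = C6 + 4 * K + E + 1 := ⟨_, rfl⟩
  refine ⟨C, fun a b L lam hL1 hL hCb hCl => ?_⟩
  by_cases hquad : (a - 1) ^ 2 ≤ b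
  · exact foulkes_quadratic hquad lam
  push Not at hquad
  have ha2 : 2 ≤ a := by
    by_contra h
    have : a - 1 = 0 := by omega
    rw [this] at hquad
    simp at hquad
  have hba : b < a ^ 2 := by
    have : (a - 1) ^ 2 ≤ a ^ 2 := Nat.pow_le_pow_left (by omega) 2
    omega
  have hLL : L ≤ L ^ 2 := by nlinarith
  have hC1 : 1 ≤ C := by omega
  have hCL2 : C * (a * L) ≤ b :=
    (Nat.mul_le_mul_left _ (Nat.mul_le_mul_left _ hLL)).trans hCb
  have h6L : C6 * L ≤ a := by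
    by_contra h
    push Not at h
    have h1 : a ^ 2 ≤ b := by
      calc a ^ 2 = a * a := by ring
        _ ≤ (C6 * L) * a := Nat.mul_le_mul_right _ h.le
        _ = C6 * (a * L) := by ring
        _ ≤ C * (a * L) := Nat.mul_le_mul_right _ (by omega)
        _ ≤ b := hCL2
    omega
  have h6b : C6 * (a * L) ≤ b := (Nat.mul_le_mul_right _ (by omega)).trans hCL2
  have hb1 : 1 ≤ b := by
    have : 0 < C * (a * L) := by positivity
    omega
  have hKb : 4 * a * (n + 2) ^ (n + 2) ≤ b := by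
    rw [← hK]
    calc 4 * a * K = 4 * K * (a * 1) := by ring
      _ ≤ C * (a * L) := Nat.mul_le_mul (by omega) (Nat.mul_le_mul_left _ hL1)
      _ ≤ b := hCL2
  by_cases hz : plethMult a b (n + 3) lam = 0
  · rw [hz]
    exact Nat.zero_le _
  have hne : hwSpace lam (plethAct a b (n + 3)) ≠ ⊥ := by
    intro h
    apply hz
    rw [plethMult, h, finrank_bot]
  obtain ⟨x, hx, hx0⟩ := Submodule.exists_mem_ne_zero_of_ne_bot hne
  have hanti := hw_antitone hx hx0
  have ht : ∑ i : Fin (n + 1), lam i.succ.succ ≤ T * lam 2 := by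
    calc ∑ i : Fin (n + 1), lam i.succ.succ ≤ ∑ _i : Fin (n + 1), lam 2 :=
          Finset.sum_le_sum (fun i _ => hanti _ _ (by
            rw [Fin.le_def]
            have e : ((2 : Fin (n + 3)) : ℕ) = 2 := rfl
            rw [e, Fin.val_succ, Fin.val_succ]
            omega))
      _ = T * lam 2 := by
          rw [Finset.sum_const, Finset.card_univ, Fintype.card_fin, smul_eq_mul, hT]
  -- if the tail is small, the tail theorem applies
  have key : 4 * a * (n + 2) ^ (n + 2) * (4 * T * lam 2) ^ (n + 1) ≤ b ^ (n + 2) →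
      plethMult a b (n + 3) lam ≤ plethMult b a (n + 3) lam := by
    intro hbig
    have hnum := tail_numbers_log (n := n) (T := T) (a := a) hb1 ht hKb hbig
    exact TN.plethMult_of_KK (n := n + 1) lam
      (TN.KK_all (N := a - 1) (by omega) (by omega) hnum)
  by_cases hA : C6 * (a * L ^ 2) ≤ lam 2
  · by_cases hB : C6 * (a * L) ^ 3 ≤ lam 1 * lam 2
    · exact hC6 a b L lam hL1 hL h6L h6b hA hB
    · -- the product is small
      push Not at hB
      apply key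
      rw [← hK]
      have hpos : 0 < lam 1 ^ (n + 1) := by
        by_contra h
        have h0 : lam 1 ^ (n + 1) = 0 := by omega
        rw [h0, mul_zero] at hCl
        have : 0 < C * (a ^ (3 * n + 4) * L ^ (3 * n + 3)) := by positivity
        omega
      refine Nat.le_of_mul_le_mul_right ?_ hpos
      calc 4 * a * K * (4 * T * lam 2) ^ (n + 1) * lam 1 ^ (n + 1)
          = 4 * K * a * (4 * T) ^ (n + 1) * (lam 1 * lam 2) ^ (n + 1) := by
            rw [mul_pow (4 * T) (lam 2), mul_pow (lam 1) (lam 2)]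
            ring
        _ ≤ 4 * K * a * (4 * T) ^ (n + 1) * (C6 * (a * L) ^ 3) ^ (n + 1) :=
            Nat.mul_le_mul_left _ (Nat.pow_le_pow_left hB.le _)
        _ = E * (a ^ (3 * n + 4) * L ^ (3 * n + 3)) := by
            have e1 : ((a * L) ^ 3) ^ (n + 1) = a ^ (3 * n + 3) * L ^ (3 * n + 3) := by
              rw [← pow_mul, ← mul_pow]
              congr 1
            have e2 : a ^ (3 * n + 4) = a * a ^ (3 * n + 3) := by
              rw [← pow_succ']
            rw [hE, mul_pow C6, e1, e2, mul_pow (4 * T) C6]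
            ring
        _ ≤ C * (a ^ (3 * n + 4) * L ^ (3 * n + 3)) := Nat.mul_le_mul_right _ (by omega)
        _ ≤ b ^ (n + 2) * lam 1 ^ (n + 1) := hCl
  · -- the third row is small
    push Not at hA
    apply key
    rw [← hK]
    calc 4 * a * K * (4 * T * lam 2) ^ (n + 1)
        ≤ 4 * a * K * (4 * T * (C6 * (a * L ^ 2))) ^ (n + 1) :=
          Nat.mul_le_mul_left _ (Nat.pow_le_pow_left (Nat.mul_le_mul_left _ hA.le) _)
      _ = E * (a * (a * L ^ 2) ^ (n + 1)) := by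
          have e1 : 4 * T * (C6 * (a * L ^ 2)) = (4 * T * C6) * (a * L ^ 2) := by ring
          rw [e1, mul_pow, hE]
          ring
      _ ≤ C ^ (n + 2) * ((a * L ^ 2) * (a * L ^ 2) ^ (n + 1)) := by
          apply Nat.mul_le_mul
          · calc E ≤ C := by omega
              _ ≤ C ^ (n + 2) := Nat.le_self_pow (by omega) _
          · apply Nat.mul_le_mul_right
            exact Nat.le_mul_of_pos_right _ (by positivity)
      _ = (C * (a * L ^ 2)) ^ (n + 2) := by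
          rw [mul_pow C (a * L ^ 2) (n + 2), ← pow_succ']
      _ ≤ b ^ (n + 2) := Nat.pow_le_pow_left hCb _

end Vale.Agent.P181.FR
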