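import Vale.Agent.P181.R2.H425.V9Num
import Vale.Agent.P181.R2.H425.Y7L
import Vale.Agent.P181.R2.H424.Y5
import Vale.Agent.P181.R2.H822.Y3
import Vale.Agent.P181.R2.H539.Fac
import Vale.Agent.P181.R2.H415.DimGe

set_option autoImplicit false

open scoped TensorProduct

/-!
Theorem V from the reduction to the invariants of `Sym^B(Sym^(3mc + N0))`.
-/

namespace Vale.Agent.P181.VT

open Vale.Agent.P181 Vale.Agent.P181.H280 Vale.Agent.P181.FR Filter
open Vale.Agent.P181.FR.W11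

/-- The rectangle as a weight with one gap. -/
lemma gw_rect {m : ℕ} (hm : 1 ≤ m) (U : ℕ) :
    gw m (fun j => if j = m then U else 0) = U • om m m ∧
      ∑ j ∈ Finset.Icc 1 m, j * (fun j => if j = m then U else 0) j = m * U := by
  constructor
  · funext k
    simp only [gw, om, Pi.smul_apply, smul_eq_mul]
    rw [Finset.sum_ite_eq', if_pos (Finset.mem_Ioc.2 ⟨k.2, le_refl m⟩), if_pos k.2, Nat.mul_one]
  · have h1 : ∀ j ∈ Finset.Icc 1 m, j * (fun j => if j = m then U else 0) j =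
        if j = m then m * U else 0 := by
      intro j _
      by_cases hj : j = m
      · simp [hj]
      · simp [hj]
    rw [Finset.sum_congr rfl h1, Finset.sum_ite_eq', if_pos (Finset.mem_Icc.2 ⟨hm, le_refl m⟩)]

/-- **Theorem V** from the reduction to invariants. -/
theorem v9_of
    (v7 : ∀ r : ℕ, 1 ≤ r → ∃ N0 N1 : ℕ, ∀ k c : ℕ,
      Module.finrank ℂ (Pleth (k * nn r) c (r + 1)) ≤
        (k * nn r * c + 1) ^ ((r + 1) * (r + 1)) *
          plethMult (k * nn r) (3 * (r + 1) * c + N0) (r + 1)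
            ((3 * (k * nn r * c) + k * N1) • om (r + 1) (r + 1)))
    (n : ℕ) {δ κ : ℝ} (hδ : 0 < δ) (hκ : 0 < κ) : ∃ A : ℕ, ∀ (a b : ℕ)
    (lam : Fin (n + 3) → ℕ), A ≤ a → (1 + δ) * a ≤ b → κ * (a * b) ≤ lam (Fin.last _) →
    plethMult a b (n + 3) lam ≤ plethMult b a (n + 3) lam := by
  obtain ⟨N0, N1, h7⟩ := v7 (n + 2) (by omega)
  obtain ⟨K, hcore⟩ := H822Y.gap_core_of (m := n + 3) (i := n + 3) (by omega) (le_refl _)
    (pos_all (by omega) (le_refl _))
  obtain ⟨C, hC0, hpure⟩ := gap_pure_of (m := n + 3) (i := n + 3) (by omega) (le_refl _)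
    (ε := 1 / 4) (by norm_num)
    (H822Y.gap_core_of (by omega) (le_refl _) (pos_all (by omega) (le_refl _)))
    (rich_rect_of rich_of_family family (by omega) (le_refl _))
  obtain ⟨A0, hA0⟩ := vnum n hδ hκ K N0 N1 ⌈C⌉₊
  have hsm : ∀ᶠ x : ℝ in atTop, C / κ ≤ x ^ ((1 : ℝ) / 4) :=
    (tendsto_rpow_atTop (by norm_num)).eventually_ge_atTop _
  obtain ⟨X, hX⟩ := eventually_atTop.1 hsm
  refine ⟨A0 + ⌈X⌉₊ + 1, fun a b lam ha hab hlam => ?_⟩
  have ha1 : A0 ≤ a := by omega
  have ha2 : X ≤ a := (Nat.le_ceil X).trans (by exact_mod_cast (by omega : ⌈X⌉₊ ≤ a))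
  have ha3 : (1 : ℝ) ≤ a := by exact_mod_cast (by omega : 1 ≤ a)
  by_cases hz : plethMult a b (n + 3) lam = 0
  · rw [hz]
    exact Nat.zero_le _
  have hne : hwSpace lam (plethAct a b (n + 3)) ≠ ⊥ := by
    intro h
    apply hz
    rw [plethMult, h, finrank_bot]
  obtain ⟨x, hx, hx0⟩ := Submodule.exists_mem_ne_zero_of_ne_bot hne
  have hanti := hw_antitone hx hx0
  have hsum : ∑ i, lam i = a * b := hw_sum hx hx0
  have hsg : ∑ j ∈ Finset.Icc 1 (n + 3), j * gap lam j = a * b := by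
    rw [sum_gap hanti, hsum]
  have hgm : gap lam (n + 3) = lam (Fin.last _) := by
    have h1 := ext_eq hanti (n + 2) (by omega)
    rw [ext, dif_pos (by omega)] at h1
    have h2 : Finset.Ioc (n + 2) (n + 3) = {n + 3} := by
      ext j
      rw [Finset.mem_Ioc, Finset.mem_singleton]
      omega
    rw [h2, Finset.sum_singleton] at h1
    exact h1
  have hab' : (a : ℝ) ≤ b := by nlinarith
  rw [← gw_gap hanti]
  by_cases hb : C * a ≤ b
  · -- large `b`
    refine hpure a b (gap lam) hb hsg ?_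
    rw [hgm]
    refine le_trans ?_ hlam
    have h0 : (0 : ℝ) < a := by linarith
    have e1 : (a : ℝ) ^ ((3 : ℝ) / 2 + 1 / 4) * (a : ℝ) ^ ((1 : ℝ) / 4) = a * a := by
      rw [← Real.rpow_add h0]
      norm_num
      rw [pow_two]
    have h1 : C ≤ κ * (a : ℝ) ^ ((1 : ℝ) / 4) := by
      have := hX a ha2
      rw [div_le_iff₀ hκ] at this
      linarith
    have h2 : 0 ≤ (a : ℝ) ^ ((3 : ℝ) / 2 + 1 / 4) := Real.rpow_nonneg h0.le _
    calc C * (a : ℝ) ^ ((3 : ℝ) / 2 + 1 / 4)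
        ≤ κ * (a : ℝ) ^ ((1 : ℝ) / 4) * (a : ℝ) ^ ((3 : ℝ) / 2 + 1 / 4) :=
          mul_le_mul_of_nonneg_right h1 h2
      _ = κ * (a * a) := by rw [mul_assoc, mul_comm ((a : ℝ) ^ ((1 : ℝ) / 4)), e1]
      _ ≤ κ * (a * b) := mul_le_mul_of_nonneg_left (mul_le_mul_of_nonneg_left hab' h0.le) hκ.le
  · -- bounded ratio
    push Not at hb
    have hbK : b ≤ ⌈C⌉₊ * a := by
      have h1 : (b : ℝ) ≤ (⌈C⌉₊ : ℝ) * a :=
        hb.le.trans (mul_le_mul_of_nonneg_right (Nat.le_ceil C) (by linarith))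
      exact_mod_cast h1
    obtain ⟨k, c, h, s, hk, hKB, hKa, hBb, hh, hs, hU, hL⟩ := hA0 a b ha1 hab hbK
    have hfac := plethMult_le_fac a b (n + 2) lam
    have h1 := hL _ hfac
    have h2 := FR.dim_ge (b := k * nn (n + 2)) (c := c) (n := n) hh hs
    have h3 := h7 k c
    obtain ⟨B, hB⟩ : ∃ B : ℕ, B = k * nn (n + 2) := ⟨_, rfl⟩
    obtain ⟨U, hUd⟩ : ∃ U : ℕ, U = 3 * (k * nn (n + 2) * c) + k * N1 := ⟨_, rfl⟩
    have h4 : plethMult a b (n + 3) lam ≤ plethMult (k * nn (n + 2)) (3 * (n + 3) * c + N0)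
        (n + 3) (U • om (n + 3) (n + 3)) := by
      have h5 := h1.trans (h2.trans h3)
      rw [pow_add, ← mul_assoc] at h5
      have hP : 0 < (k * nn (n + 2) * c + 1) ^ ((n + 3) * (n + 3)) := by positivity
      have h6 : plethMult a b (n + 3) lam * (k * nn (n + 2) * c + 1) ^ ((n + 3) * (n + 3)) ≤
          plethMult (k * nn (n + 2)) (3 * (n + 3) * c + N0) (n + 3)
            (U • om (n + 3) (n + 3)) * (k * nn (n + 2) * c + 1) ^ ((n + 3) * (n + 3)) := by
        refine le_trans ?_ (h5.trans (le_of_eq ?_))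
        · exact Nat.le_mul_of_pos_right _ (by positivity)
        · rw [hUd, Nat.mul_comm]
      exact Nat.le_of_mul_le_mul_right h6 hP
    have hgw := gw_rect (m := n + 3) (by omega) U
    rw [← hgw.1] at h4
    -- the weight of the rectangle
    have hne2 : hwSpace (gw (n + 3) (fun j => if j = n + 3 then U else 0))
        (plethAct (k * nn (n + 2)) (3 * (n + 3) * c + N0) (n + 3)) ≠ ⊥ := by
      intro h8
      have h9 : plethMult (k * nn (n + 2)) (3 * (n + 3) * c + N0) (n + 3)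
          (gw (n + 3) (fun j => if j = n + 3 then U else 0)) = 0 := by
        rw [plethMult, h8, finrank_bot]
      rw [h9] at h4
      exact hz (Nat.le_zero.1 h4)
    obtain ⟨y, hy, hy0⟩ := Submodule.exists_mem_ne_zero_of_ne_bot hne2
    have hsum2 := hw_sum hy hy0
    have hsu : ∑ j ∈ Finset.Icc 1 (n + 3), j * (fun j => if j = n + 3 then U else 0) j =
        (3 * (n + 3) * c + N0) * (k * nn (n + 2)) := by
      rw [hgw.2, Nat.mul_comm (3 * (n + 3) * c + N0), ← hsum2, hgw.1]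
      simp [om]
    have hUa : U + K * a ≤ gap lam (n + 3) := by
      rw [hgm]
      have h8 : ((U + K * a : ℕ) : ℝ) ≤ lam (Fin.last _) := by
        rw [hUd]
        exact hU.trans hlam
      exact_mod_cast h8
    rw [gw_gap hanti]
    refine h4.trans ?_
    conv_rhs => rw [← gw_gap hanti]
    refine hcore a b (k * nn (n + 2)) (3 * (n + 3) * c + N0) _
      (fun j => if j = n + 3 then U else 0) (gap lam) (Dvd.dvd.mul_right hk _) hKB hKa hBb
      (fun j => ?_) hsu hsg ?_ (le_refl _)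
    · by_cases hj : j = n + 3
      · rw [if_pos hj, hj]
        omega
      · rw [if_neg hj]
        exact Nat.zero_le _
    · show (if n + 3 = n + 3 then U else 0) + K * a ≤ gap lam (n + 3)
      rw [if_pos rfl]
      exact hUa

end Vale.Agent.P181.VT
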