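import Vale.Agent.P181.R2.H425.V1
import Vale.Agent.P181.R2.H280.V2
import Vale.Agent.P181.R2.H424.V3
import Vale.Agent.P181.R2.H130.V4
import Vale.Agent.P181.R2.H822.V5
import Vale.Agent.P181.R2.H182.V6
import Vale.Agent.P181.R2.H302.V7
import Vale.Agent.P181.R2.H425.V9

set_option autoImplicit false

open scoped TensorProduct

/-!
Theorem V without hypotheses.
-/

namespace Vale.Agent.P181.VT

open Vale.Agent.P181 Vale.Agent.P181.H280 Vale.Agent.P181.FR

/-- **Theorem V.** Foulkes' inequality for all `b ≥ (1 + δ) a` and all partitions with `n + 3`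
rows whose last row is at least `κ a b`, if `a` is large. -/
theorem theorem_V (n : ℕ) {δ κ : ℝ} (hδ : 0 < δ) (hκ : 0 < κ) : ∃ A : ℕ, ∀ (a b : ℕ)
    (lam : Fin (n + 3) → ℕ), A ≤ a → (1 + δ) * a ≤ b → κ * (a * b) ≤ lam (Fin.last _) →
    plethMult a b (n + 3) lam ≤ plethMult b a (n + 3) lam :=
  v9_of (v7_of v1 (fun {_ _ _ _} τ α hP H F hF => v2 τ α hP H F hF) v3 v4
    (v6_of v5)) n hδ hκ

end Vale.Agent.P181.VT
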