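import Vale.Agent.P181.R2.H425.W11

set_option autoImplicit false

open scoped TensorProduct

namespace Vale.Agent.P181.FR

open Vale.Agent.P181 Vale.Agent.P181.H280

/-- W13 (with the hypothesis `C a ≤ b`). -/
def W13P : Prop := ∀ {m i : ℕ} (_hi : 3 ≤ i) (_him : i ≤ m) {ε : ℝ} (_hε : 0 < ε), ∃ C : ℝ, 0 < C ∧
    ∀ (a b : ℕ) (g : ℕ → ℕ), ∑ j ∈ Finset.Icc 1 m, j * g j = a * b → C * a ≤ b →
    C * (b + (a : ℝ) ^ (3 / 2 + ε)) ≤ g i →
    plethMult a b m (gw m g) ≤ plethMult b a m (gw m g)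

namespace W11

lemma tail_core {n a b t s : ℕ} (hs1 : 1 ≤ s) (h7 : 2 * t ≤ s * b)
    (h5 : 4 * a * (n + 2) ^ (n + 2) * s ^ (n + 1) ≤ b) :
    t + (a - 1) * (2 * (s + (n + 1)).choose (n + 1 + 1) - 1) ≤ s * b := by
  have h4 : (s + (n + 1)).choose (n + 1 + 1) ≤ (n + 2) ^ (n + 2) * s ^ (n + 2) := by
    refine (Nat.choose_le_pow _ _).trans ?_
    rw [← mul_pow]
    apply Nat.pow_le_pow_left
    have : n + 1 ≤ (n + 1) * s := Nat.le_mul_of_pos_right _ hs1
    calc s + (n + 1) ≤ s + (n + 1) * s := Nat.add_le_add_left this _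
      _ = (n + 2) * s := by ring
  have h6 : 2 * ((a - 1) * (2 * (s + (n + 1)).choose (n + 1 + 1) - 1)) ≤ s * b := by
    calc 2 * ((a - 1) * (2 * (s + (n + 1)).choose (n + 1 + 1) - 1))
        ≤ 2 * (a * (2 * ((n + 2) ^ (n + 2) * s ^ (n + 2)))) := by
          apply Nat.mul_le_mul_left
          apply Nat.mul_le_mul (by omega)
          omega
      _ = s * (4 * a * (n + 2) ^ (n + 2) * s ^ (n + 1)) := by ring
      _ ≤ s * b := Nat.mul_le_mul_left _ h5
  omega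

/-- the numbers of the tail theorem, second version -/
lemma tail_numbers_eps {n a b t : ℕ} {T C ε : ℝ} (ha : 1 ≤ a) (hε : 0 < ε) (hT : 0 < T)
    (hC1 : 1 ≤ C) (hC2 : 4 * ((n : ℝ) + 2) ^ (n + 2) * (4 * T + 1) ^ (n + 1) ≤ C)
    (hb : C * (a : ℝ) ^ ((3 * n + 5 : ℝ) / (2 * n + 4) + ε) ≤ b)
    (ht : (t : ℝ) ≤ T * (b + (a : ℝ) ^ (3 / 2 + ε))) :
    ∃ s, 1 ≤ s ∧ t + (a - 1) * (2 * (s + (n + 1)).choose (n + 1 + 1) - 1) ≤ s * b := by
  have ha1 : (1 : ℝ) ≤ a := by exact_mod_cast ha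
  have ha0 : (0 : ℝ) < a := by linarith
  have hn : (0 : ℝ) ≤ n := Nat.cast_nonneg n
  have hE : (1 : ℝ) ≤ (a : ℝ) ^ ((3 * n + 5 : ℝ) / (2 * n + 4) + ε) :=
    Real.one_le_rpow ha1 (by positivity)
  have hb0 : (0 : ℝ) < b := by nlinarith
  set X := T * (b + (a : ℝ) ^ (3 / 2 + ε)) with hX
  have hX0 : 0 ≤ X := by positivity
  refine ⟨⌊2 * X / b⌋₊ + 1, Nat.succ_le_succ (Nat.zero_le _), ?_⟩
  obtain ⟨s, hs⟩ : ∃ s, s = ⌊2 * X / b⌋₊ + 1 := ⟨_, rfl⟩
  rw [← hs]
  have hs1 : 1 ≤ s := by rw [hs]; exact Nat.succ_le_succ (Nat.zero_le _)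
  have hs2 : 2 * X / b < (s : ℝ) := by
    rw [hs]
    push_cast
    exact Nat.lt_floor_add_one _
  have hs3 : (s : ℝ) ≤ 2 * X / b + 1 := by
    rw [hs]
    push_cast
    have := Nat.floor_le (show 0 ≤ 2 * X / b by positivity)
    linarith
  have h7 : 2 * t ≤ s * b := by
    have h8 : 2 * X < s * b := by rwa [div_lt_iff₀ hb0] at hs2
    have h9 : (2 : ℝ) * t ≤ s * b := by linarith
    exact_mod_cast h9
  -- the size of s
  set y := (a : ℝ) ^ ((1 : ℝ) / (2 * n + 4)) with hy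
  have hy1 : 1 ≤ y := Real.one_le_rpow ha1 (by positivity)
  have h10 : (a : ℝ) ^ (3 / 2 + ε) ≤ y * b := by
    have e1 : (3 : ℝ) / 2 + ε = 1 / (2 * n + 4) + ((3 * n + 5 : ℝ) / (2 * n + 4) + ε) := by
      field_simp
      ring
    rw [e1, Real.rpow_add ha0]
    apply mul_le_mul_of_nonneg_left _ (by positivity)
    have h11 : (0 : ℝ) ≤ (a : ℝ) ^ ((3 * n + 5 : ℝ) / (2 * n + 4) + ε) := by positivity
    nlinarith
  have h12 : (s : ℝ) ≤ (4 * T + 1) * y := by
    have h13 : 2 * X / b ≤ 4 * T * y := by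
      rw [div_le_iff₀ hb0, hX]
      have h14 : (b : ℝ) ≤ y * b := by nlinarith
      have h15 : T * (b + (a : ℝ) ^ (3 / 2 + ε)) ≤ T * (y * b + y * b) :=
        mul_le_mul_of_nonneg_left (add_le_add h14 h10) hT.le
      linarith
    linarith
  have h5 : 4 * a * (n + 2) ^ (n + 2) * s ^ (n + 1) ≤ b := by
    have h16 : (4 : ℝ) * a * ((n : ℝ) + 2) ^ (n + 2) * (s : ℝ) ^ (n + 1) ≤ b := by
      have h17 : (s : ℝ) ^ (n + 1) ≤ ((4 * T + 1) * y) ^ (n + 1) :=
        pow_le_pow_left₀ (Nat.cast_nonneg _) h12 _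
      have h18 : (a : ℝ) * y ^ (n + 1) ≤ (a : ℝ) ^ ((3 * n + 5 : ℝ) / (2 * n + 4) + ε) := by
        have e2 : (a : ℝ) * y ^ (n + 1) = (a : ℝ) ^ ((3 * n + 5 : ℝ) / (2 * n + 4)) := by
          rw [hy, ← Real.rpow_natCast, ← Real.rpow_mul ha0.le]
          nth_rewrite 1 [← Real.rpow_one (a : ℝ)]
          rw [← Real.rpow_add ha0]
          congr 1
          push_cast
          field_simp
          ring
        rw [e2]
        exact Real.rpow_le_rpow_of_exponent_le ha1 (by linarith)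
      calc (4 : ℝ) * a * ((n : ℝ) + 2) ^ (n + 2) * (s : ℝ) ^ (n + 1)
          ≤ 4 * a * ((n : ℝ) + 2) ^ (n + 2) * ((4 * T + 1) * y) ^ (n + 1) :=
            mul_le_mul_of_nonneg_left h17 (by positivity)
        _ = (4 * ((n : ℝ) + 2) ^ (n + 2) * (4 * T + 1) ^ (n + 1)) * (a * y ^ (n + 1)) := by
            rw [mul_pow]
            ring
        _ ≤ C * (a : ℝ) ^ ((3 * n + 5 : ℝ) / (2 * n + 4) + ε) :=
            mul_le_mul hC2 h18 (by positivity) (by linarith)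
        _ ≤ b := hb
    exact_mod_cast h16
  exact tail_core hs1 h7 h5

end W11

open W11

/-- W14 from W13 and W10. -/
theorem all_rows_eps_of (W13 : W13P) (W10 : W10P) (n : ℕ) {ε : ℝ} (hε : 0 < ε) : ∃ C : ℝ, 0 < C ∧
    ∀ (a b : ℕ) (lam : Fin (n + 3) → ℕ),
    C * (a : ℝ) ^ ((3 * n + 5 : ℝ) / (2 * n + 4) + ε) ≤ b →
    plethMult a b (n + 3) lam ≤ plethMult b a (n + 3) lam := by
  classical
  choose! C0 hC0 using (fun i (h : 3 ≤ i ∧ i ≤ n + 3) => W13 h.1 h.2 hε)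
  set C9 := ∑ i ∈ Finset.range (n + 4), |C0 i| + 1 with hC9
  have hsum0 : 0 ≤ ∑ i ∈ Finset.range (n + 4), |C0 i| :=
    Finset.sum_nonneg (fun i _ => abs_nonneg _)
  have hC9p : 0 < C9 := by linarith
  have hle : ∀ i, i ≤ n + 3 → C0 i ≤ C9 := fun i hi => by
    have h1 : |C0 i| ≤ ∑ i ∈ Finset.range (n + 4), |C0 i| :=
      Finset.single_le_sum (f := fun i => |C0 i|) (fun _ _ => abs_nonneg _)
        (Finset.mem_range.2 (by omega))
    have h2 := le_abs_self (C0 i)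
    linarith
  set T : ℝ := ((n : ℝ) + 1) * (((n : ℝ) + 1) * C9) with hT
  have hTp : 0 < T := by positivity
  refine ⟨4 * ((n : ℝ) + 2) ^ (n + 2) * (4 * T + 1) ^ (n + 1) + 1 + C9, by positivity,
    fun a b lam hab => ?_⟩
  by_cases hquad : (a - 1) ^ 2 ≤ b
  · exact foulkes_quadratic hquad lam
  push Not at hquad
  have ha2 : 2 ≤ a := by
    by_contra h
    have : a - 1 = 0 := by omega
    rw [this] at hquad
    simp at hquad
  by_cases hz : plethMult a b (n + 3) lam = 0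
  · rw [hz]
    exact Nat.zero_le _
  have hne : hwSpace lam (plethAct a b (n + 3)) ≠ ⊥ := by
    intro h
    apply hz
    rw [plethMult, h, finrank_bot]
  obtain ⟨x, hx, hx0⟩ := Submodule.exists_mem_ne_zero_of_ne_bot hne
  have hanti := W10 hx hx0
  have hsum : ∑ i, lam i = a * b := hw_sum hx hx0
  have hsg : ∑ j ∈ Finset.Icc 1 (n + 3), j * gap lam j = a * b := by
    rw [sum_gap hanti, hsum]
  have hK0 : 0 ≤ 4 * ((n : ℝ) + 2) ^ (n + 2) * (4 * T + 1) ^ (n + 1) := by positivity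
  have ha1 : (1 : ℝ) ≤ a := by exact_mod_cast (show 1 ≤ a by omega)
  have hlin : (a : ℝ) ≤ (a : ℝ) ^ ((3 * n + 5 : ℝ) / (2 * n + 4) + ε) := by
    nth_rewrite 1 [← Real.rpow_one (a : ℝ)]
    apply Real.rpow_le_rpow_of_exponent_le ha1
    have hn0 : (0 : ℝ) ≤ n := Nat.cast_nonneg n
    have h1 : (1 : ℝ) ≤ (3 * n + 5 : ℝ) / (2 * n + 4) := by
      rw [le_div_iff₀ (by positivity)]
      linarith
    linarith
  have hCab : C9 * a ≤ b := by
    refine le_trans ?_ hab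
    exact mul_le_mul (by linarith) hlin (by positivity) (by positivity)
  set Y : ℝ := (b : ℝ) + (a : ℝ) ^ (3 / 2 + ε) with hY
  have hY0 : 0 ≤ Y := by positivity
  by_cases hcase : ∃ i, 3 ≤ i ∧ i ≤ n + 3 ∧ C9 * Y ≤ gap lam i
  · obtain ⟨i, hi3, him, hgi⟩ := hcase
    have h1 := (hC0 i ⟨hi3, him⟩).2 a b (gap lam) hsg
      ((mul_le_mul_of_nonneg_right (hle i him) (Nat.cast_nonneg a)).trans hCab)
      ((mul_le_mul_of_nonneg_right (hle i him) hY0).trans hgi)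
    rwa [gw_gap hanti] at h1
  · push Not at hcase
    have hrow : ∀ i : Fin (n + 1), (lam i.succ.succ : ℝ) ≤ ((n : ℝ) + 1) * (C9 * Y) := by
      intro i
      have h1 : lam i.succ.succ = ∑ j ∈ Finset.Ioc ((i : ℕ) + 2) (n + 3), gap lam j := by
        rw [ext_eq hanti _ (by omega), ext, dif_pos (by omega)]
        congr 1
      rw [h1]
      push_cast
      calc ∑ j ∈ Finset.Ioc ((i : ℕ) + 2) (n + 3), (gap lam j : ℝ)
          ≤ ∑ _j ∈ Finset.Ioc ((i : ℕ) + 2) (n + 3), C9 * Y := by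
            apply Finset.sum_le_sum
            intro j hj
            rw [Finset.mem_Ioc] at hj
            exact (hcase j (by omega) hj.2).le
        _ = ((n + 3 - ((i : ℕ) + 2) : ℕ) : ℝ) * (C9 * Y) := by
            rw [Finset.sum_const, Nat.card_Ioc, nsmul_eq_mul]
        _ ≤ ((n : ℝ) + 1) * (C9 * Y) := by
            apply mul_le_mul_of_nonneg_right _ (by positivity)
            have h2 : n + 3 - ((i : ℕ) + 2) ≤ n + 1 := by omega
            exact_mod_cast h2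
    have ht : ((∑ i : Fin (n + 1), lam i.succ.succ : ℕ) : ℝ) ≤ T * Y := by
      push_cast
      calc ∑ i : Fin (n + 1), (lam i.succ.succ : ℝ)
          ≤ ∑ _i : Fin (n + 1), ((n : ℝ) + 1) * (C9 * Y) := Finset.sum_le_sum (fun i _ => hrow i)
        _ = T * Y := by
            rw [Finset.sum_const, Finset.card_univ, Fintype.card_fin, nsmul_eq_mul, hT]
            push_cast
            ring
    have hnum := tail_numbers_eps (n := n) (T := T) (by omega) hε hTp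
      (by linarith) (by linarith) hab ht
    exact TN.plethMult_of_KK (n := n + 1) lam
      (TN.KK_all (N := a - 1) (by omega) (by omega) hnum)

end Vale.Agent.P181.FR
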