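import Vale.Agent.P181.R2.H425.W14

set_option autoImplicit false

open scoped TensorProduct

namespace Vale.Agent.P181.FR

open Vale.Agent.P181 Vale.Agent.P181.H280

/-- The logarithmic form of the gap case (849). -/
def W13L : Prop := ∀ {m i : ℕ} (_hi : 3 ≤ i) (_him : i ≤ m), ∃ C : ℕ, ∀ (a b L : ℕ) (g : ℕ → ℕ),
    1 ≤ L → b + 1 ≤ 2 ^ L → C * L ≤ a → C * (a * L) ≤ b → ∑ j ∈ Finset.Icc 1 m, j * g j = a * b →
    C * (a * L) ^ 3 ≤ g i ^ 2 → plethMult a b m (gw m g) ≤ plethMult b a m (gw m g)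

namespace W11

/-- the numbers of the tail theorem, third version -/
lemma tail_numbers_log {n a b t G T : ℕ} (hb : 1 ≤ b) (ht : t ≤ T * G)
    (h1 : 4 * a * (n + 2) ^ (n + 2) ≤ b)
    (h2 : 4 * a * (n + 2) ^ (n + 2) * (4 * T * G) ^ (n + 1) ≤ b ^ (n + 2)) :
    ∃ s, 1 ≤ s ∧ t + (a - 1) * (2 * (s + (n + 1)).choose (n + 1 + 1) - 1) ≤ s * b := by
  by_cases hc : 2 * (T * G) ≤ b
  · refine ⟨1, le_refl 1, tail_core (le_refl 1) ?_ ?_⟩
    · omega
    · rw [one_pow, mul_one]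
      exact h1
  · push Not at hc
    obtain ⟨q, hq⟩ : ∃ q, 2 * (T * G) / b = q := ⟨_, rfl⟩
    have h3 : 2 * (T * G) < (q + 1) * b := by
      rw [← Nat.div_lt_iff_lt_mul hb, hq]
      exact Nat.lt_succ_self q
    have h4 : (q + 1) * b ≤ 4 * T * G := by
      have h5 : q * b ≤ 2 * (T * G) := by
        rw [← hq]
        exact Nat.div_mul_le_self _ _
      have h6 : (q + 1) * b = q * b + b := by ring
      have h7 : 4 * T * G = 4 * (T * G) := by ring
      rw [h6, h7]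
      omega
    refine ⟨q + 1, Nat.succ_le_succ (Nat.zero_le q), tail_core
      (Nat.succ_le_succ (Nat.zero_le q)) ?_ ?_⟩
    · exact (Nat.mul_le_mul_left 2 ht).trans h3.le
    · have hbp : 0 < b ^ (n + 1) := Nat.pow_pos hb
      refine Nat.le_of_mul_le_mul_left ?_ hbp
      calc b ^ (n + 1) * (4 * a * (n + 2) ^ (n + 2) * (q + 1) ^ (n + 1))
          = 4 * a * (n + 2) ^ (n + 2) * ((q + 1) * b) ^ (n + 1) := by rw [mul_pow]; ring
        _ ≤ 4 * a * (n + 2) ^ (n + 2) * (4 * T * G) ^ (n + 1) :=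
            Nat.mul_le_mul_left _ (Nat.pow_le_pow_left h4 _)
        _ ≤ b ^ (n + 2) := h2
        _ = b ^ (n + 1) * b := by rw [pow_succ]

lemma alg1 (a K T G n : ℕ) : (4 * a * K * (4 * T * G) ^ (n + 1)) ^ 2 =
    16 * K ^ 2 * (4 * T) ^ (2 * n + 2) * a ^ 2 * (G ^ 2) ^ (n + 1) := by
  have e1 : (4 * T) ^ (2 * n + 2) = ((4 * T) ^ (n + 1)) ^ 2 := by
    rw [← pow_mul]
    congr 1
    ring
  have e2 : (G ^ 2) ^ (n + 1) = (G ^ (n + 1)) ^ 2 := by
    rw [← pow_mul, ← pow_mul, mul_comm]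
  rw [e1, e2, mul_pow (4 * T) G]
  ring

lemma alg2 (a K X C L n : ℕ) : 16 * K ^ 2 * X * a ^ 2 * (C * (a * L) ^ 3) ^ (n + 1) =
    16 * K ^ 2 * X * C ^ (n + 1) * (a ^ (3 * n + 5) * L ^ (3 * n + 3)) := by
  have e1 : (C * (a * L) ^ 3) ^ (n + 1) = C ^ (n + 1) * (a ^ (3 * n + 3) * L ^ (3 * n + 3)) := by
    rw [mul_pow, ← pow_mul, ← mul_pow]
    congr 2
  have e2 : a ^ (3 * n + 5) = a ^ 2 * a ^ (3 * n + 3) := by
    rw [← pow_add]
    congr 1
    ring
  rw [e1, e2]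
  ring

end W11

open W11

/-- All rows, logarithmic form. -/
theorem all_rows_log_of (W13 : W13L) (W10 : W10P) (n : ℕ) : ∃ C : ℕ, ∀ (a b L : ℕ)
    (lam : Fin (n + 3) → ℕ), 1 ≤ b → b + 1 ≤ 2 ^ L →
    C * (a ^ (3 * n + 5) * L ^ (3 * n + 3)) ≤ b ^ (2 * n + 4) →
    plethMult a b (n + 3) lam ≤ plethMult b a (n + 3) lam := by
  classical
  choose! C0 hC0 using (fun i (h : 3 ≤ i ∧ i ≤ n + 3) => W13 h.1 h.2)
  obtain ⟨C9, hC9⟩ : ∃ C9, C9 = ∑ i ∈ Finset.range (n + 4), C0 i + 1 := ⟨_, rfl⟩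
  have hle : ∀ i, i ≤ n + 3 → C0 i ≤ C9 := fun i hi => by
    have h1 : C0 i ≤ ∑ i ∈ Finset.range (n + 4), C0 i :=
      Finset.single_le_sum (f := C0) (fun _ _ => Nat.zero_le _)
        (Finset.mem_range.2 (by omega))
    rw [hC9]
    exact h1.trans (Nat.le_succ _)
  have hC91 : 1 ≤ C9 := by rw [hC9]; exact Nat.succ_le_succ (Nat.zero_le _)
  obtain ⟨T, hT⟩ : ∃ T, T = (n + 1) * (n + 1) := ⟨_, rfl⟩
  obtain ⟨K, hK⟩ : ∃ K, K = (n + 2) ^ (n + 2) := ⟨_, rfl⟩
  obtain ⟨D, hD⟩ : ∃ D, D = 16 * K ^ 2 * (4 * T) ^ (2 * n + 2) * C9 ^ (n + 1) := ⟨_, rfl⟩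
  refine ⟨D + C9 ^ (n + 3) + C9 ^ (2 * n + 4) + (4 * K) ^ (2 * n + 4),
    fun a b L lam hb1 hL hab => ?_⟩
  by_cases hquad : (a - 1) ^ 2 ≤ b
  · exact foulkes_quadratic hquad lam
  push Not at hquad
  have ha2 : 2 ≤ a := by
    by_contra h
    have : a - 1 = 0 := by omega
    rw [this] at hquad
    simp at hquad
  have hba : b < a ^ 2 := by
    have : (a - 1) ^ 2 ≤ a ^ 2 := Nat.pow_le_pow_left (by omega) 2
    omega
  have hL1 : 1 ≤ L := by
    by_contra h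
    have hL0 : L = 0 := by omega
    rw [hL0, pow_zero] at hL
    omega
  have ha1 : 1 ≤ a := by omega
  -- the four consequences
  have part : ∀ x : ℕ, x ≤ D + C9 ^ (n + 3) + C9 ^ (2 * n + 4) + (4 * K) ^ (2 * n + 4) →
      x * (a ^ (3 * n + 5) * L ^ (3 * n + 3)) ≤ b ^ (2 * n + 4) := fun x hx =>
    (Nat.mul_le_mul_right _ hx).trans hab
  have hp1 := part D (by omega)
  have hp2 := part (C9 ^ (n + 3)) (by omega)
  have hp3 := part (C9 ^ (2 * n + 4)) (by omega)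
  have hp4 := part ((4 * K) ^ (2 * n + 4)) (by omega)
  have hCL : C9 * L ≤ a := by
    by_contra h
    push Not at h
    have h1 : (a ^ 2) ^ (2 * n + 4) ≤ b ^ (2 * n + 4) := by
      calc (a ^ 2) ^ (2 * n + 4) = a ^ (n + 3) * a ^ (3 * n + 5) := by
            rw [← pow_mul, ← pow_add]
            congr 1
            ring
        _ ≤ (C9 * L) ^ (n + 3) * a ^ (3 * n + 5) :=
            Nat.mul_le_mul_right _ (Nat.pow_le_pow_left h.le _)
        _ = C9 ^ (n + 3) * (a ^ (3 * n + 5) * L ^ (n + 3)) := by rw [mul_pow]; ring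
        _ ≤ C9 ^ (n + 3) * (a ^ (3 * n + 5) * L ^ (3 * n + 3)) :=
            Nat.mul_le_mul_left _ (Nat.mul_le_mul_left _ (Nat.pow_le_pow_right hL1 (by omega)))
        _ ≤ b ^ (2 * n + 4) := hp2
    have h2 : a ^ 2 ≤ b := (Nat.pow_le_pow_iff_left (by omega)).1 h1
    omega
  have hLa : L ≤ a := (Nat.le_mul_of_pos_left L hC91).trans hCL
  have hCab : C9 * a * L ≤ b := by
    have h1 : (C9 * a * L) ^ (2 * n + 4) ≤ b ^ (2 * n + 4) := by
      calc (C9 * a * L) ^ (2 * n + 4)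
          = C9 ^ (2 * n + 4) * (a ^ (2 * n + 4) * (L ^ (2 * n + 3) * L)) := by
            rw [mul_pow, mul_pow, ← pow_succ]
            ring
        _ ≤ C9 ^ (2 * n + 4) * (a ^ (2 * n + 4) * (L ^ (2 * n + 3) * a)) :=
            Nat.mul_le_mul_left _ (Nat.mul_le_mul_left _ (Nat.mul_le_mul_left _ hLa))
        _ = C9 ^ (2 * n + 4) * (a ^ (2 * n + 5) * L ^ (2 * n + 3)) := by
            rw [pow_succ a (2 * n + 4)]
            ring
        _ ≤ C9 ^ (2 * n + 4) * (a ^ (3 * n + 5) * L ^ (3 * n + 3)) :=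
            Nat.mul_le_mul_left _ (Nat.mul_le_mul (Nat.pow_le_pow_right ha1 (by omega))
              (Nat.pow_le_pow_right hL1 (by omega)))
        _ ≤ b ^ (2 * n + 4) := hp3
    exact (Nat.pow_le_pow_iff_left (by omega)).1 h1
  have hKab : 4 * a * (n + 2) ^ (n + 2) ≤ b := by
    rw [← hK]
    have h1 : (4 * a * K) ^ (2 * n + 4) ≤ b ^ (2 * n + 4) := by
      calc (4 * a * K) ^ (2 * n + 4) = (4 * K) ^ (2 * n + 4) * a ^ (2 * n + 4) := by
            rw [← mul_pow]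
            congr 1
            ring
        _ ≤ (4 * K) ^ (2 * n + 4) * (a ^ (3 * n + 5) * L ^ (3 * n + 3)) := by
            apply Nat.mul_le_mul_left
            calc a ^ (2 * n + 4) ≤ a ^ (3 * n + 5) := Nat.pow_le_pow_right ha1 (by omega)
              _ ≤ a ^ (3 * n + 5) * L ^ (3 * n + 3) :=
                  Nat.le_mul_of_pos_right _ (Nat.pow_pos hL1)
        _ ≤ b ^ (2 * n + 4) := hp4
    exact (Nat.pow_le_pow_iff_left (by omega)).1 h1
  by_cases hz : plethMult a b (n + 3) lam = 0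
  · rw [hz]
    exact Nat.zero_le _
  have hne : hwSpace lam (plethAct a b (n + 3)) ≠ ⊥ := by
    intro h
    apply hz
    rw [plethMult, h, finrank_bot]
  obtain ⟨x, hx, hx0⟩ := Submodule.exists_mem_ne_zero_of_ne_bot hne
  have hanti := W10 hx hx0
  have hsum : ∑ i, lam i = a * b := hw_sum hx hx0
  have hsg : ∑ j ∈ Finset.Icc 1 (n + 3), j * gap lam j = a * b := by
    rw [sum_gap hanti, hsum]
  by_cases hcase : ∃ i, 3 ≤ i ∧ i ≤ n + 3 ∧ C9 * (a * L) ^ 3 ≤ gap lam i ^ 2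
  · obtain ⟨i, hi3, him, hgi⟩ := hcase
    have hi9 := hle i him
    have hCab' : C9 * (a * L) ≤ b := by rw [← mul_assoc]; exact hCab
    have h1 := hC0 i ⟨hi3, him⟩ a b L (gap lam) hL1 hL ((Nat.mul_le_mul_right _ hi9).trans hCL)
      ((Nat.mul_le_mul_right _ hi9).trans hCab') hsg
      ((Nat.mul_le_mul_right _ hi9).trans hgi)
    rwa [gw_gap hanti] at h1
  · push Not at hcase
    obtain ⟨G, hG⟩ : ∃ G, G = Nat.sqrt (C9 * (a * L) ^ 3) := ⟨_, rfl⟩
    have hG2 : G ^ 2 ≤ C9 * (a * L) ^ 3 := by rw [hG]; exact Nat.sqrt_le' _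
    have hrow : ∀ i : Fin (n + 1), lam i.succ.succ ≤ (n + 1) * G := by
      intro i
      have h1 : lam i.succ.succ = ∑ j ∈ Finset.Ioc ((i : ℕ) + 2) (n + 3), gap lam j := by
        rw [ext_eq hanti _ (by omega), ext, dif_pos (by omega)]
        congr 1
      rw [h1]
      calc ∑ j ∈ Finset.Ioc ((i : ℕ) + 2) (n + 3), gap lam j
          ≤ ∑ _j ∈ Finset.Ioc ((i : ℕ) + 2) (n + 3), G := by
            apply Finset.sum_le_sum
            intro j hj
            rw [Finset.mem_Ioc] at hj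
            rw [hG, Nat.le_sqrt']
            exact (hcase j (by omega) hj.2).le
        _ = (n + 3 - ((i : ℕ) + 2)) * G := by
            rw [Finset.sum_const, Nat.card_Ioc, smul_eq_mul]
        _ ≤ (n + 1) * G := Nat.mul_le_mul_right _ (by omega)
    have ht : ∑ i : Fin (n + 1), lam i.succ.succ ≤ T * G := by
      calc ∑ i : Fin (n + 1), lam i.succ.succ ≤ ∑ _i : Fin (n + 1), (n + 1) * G :=
            Finset.sum_le_sum (fun i _ => hrow i)
        _ = T * G := by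
            rw [Finset.sum_const, Finset.card_univ, Fintype.card_fin, smul_eq_mul, hT]
            ring
    have hbig : 4 * a * (n + 2) ^ (n + 2) * (4 * T * G) ^ (n + 1) ≤ b ^ (n + 2) := by
      rw [← hK]
      have h1 : (4 * a * K * (4 * T * G) ^ (n + 1)) ^ 2 ≤ (b ^ (n + 2)) ^ 2 := by
        calc (4 * a * K * (4 * T * G) ^ (n + 1)) ^ 2
            = 16 * K ^ 2 * (4 * T) ^ (2 * n + 2) * a ^ 2 * (G ^ 2) ^ (n + 1) := alg1 _ _ _ _ _
          _ ≤ 16 * K ^ 2 * (4 * T) ^ (2 * n + 2) * a ^ 2 * (C9 * (a * L) ^ 3) ^ (n + 1) :=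
              Nat.mul_le_mul_left _ (Nat.pow_le_pow_left hG2 _)
          _ = D * (a ^ (3 * n + 5) * L ^ (3 * n + 3)) := by rw [hD]; exact alg2 _ _ _ _ _ _
          _ ≤ b ^ (2 * n + 4) := hp1
          _ = (b ^ (n + 2)) ^ 2 := by
              rw [← pow_mul]
              congr 1
              ring
      exact (Nat.pow_le_pow_iff_left (by omega)).1 h1
    have hnum := tail_numbers_log (n := n) (T := T) (a := a) hb1 ht hKab hbig
    exact TN.plethMult_of_KK (n := n + 1) lam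
      (TN.KK_all (N := a - 1) (by omega) (by omega) hnum)

end Vale.Agent.P181.FR
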