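import Vale.Agent.P181.R2.H425.Y7L
import Vale.Agent.P181.R2.H849.GapY4
import Vale.Agent.P181.R2.H350.Y2
import Vale.Agent.P181.R2.H71.Y1

set_option autoImplicit false

open scoped TensorProduct

namespace Vale.Agent.P181.FR

open Vale.Agent.P181 Vale.Agent.P181.H280

/-- **Theorem Y, logarithmic form.** For every `n` there is `C` such that, for `b < 2 ^ L`,
`a ≥ C L` and `b ≥ C a L`, Foulkes' inequality holds for all partitions with at most `n + 3`
rows, with `lam_3 ≥ C a L ^ 2` and `lam_2 lam_3 ≥ C (a L) ^ 3`. -/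
theorem all_mix_log (n : ℕ) : ∃ C : ℕ,
    ∀ (a b L : ℕ) (lam : Fin (n + 3) → ℕ), 1 ≤ L → b + 1 ≤ 2 ^ L → C * L ≤ a →
    C * (a * L) ≤ b → C * (a * L ^ 2) ≤ lam 2 → C * (a * L) ^ 3 ≤ lam 1 * lam 2 →
    plethMult a b (n + 3) lam ≤ plethMult b a (n + 3) lam :=
  all_mix_log_of (fun {m i} hi him => gap_mix_log_of hi him (pos_all (by omega) him)
      (rich_mix_of family2 hi him))
    (fun {m i} hi him => gap_log_of hi him (pos_all (by omega) him)
      (rich_rect_of rich_of_family family hi him)) n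

/-- **Theorem Z, logarithmic form.** For every `n` there is `C` such that, for `b < 2 ^ L` and
`b ≥ C a L ^ 2`, Foulkes' inequality holds for all partitions with at most `m = n + 3` rows and
`b ^ (m - 1) lam_2 ^ (m - 2) ≥ C a ^ (3 m - 5) L ^ (3 m - 6)`. -/
theorem all_wide_log (n : ℕ) : ∃ C : ℕ,
    ∀ (a b L : ℕ) (lam : Fin (n + 3) → ℕ), 1 ≤ L → b + 1 ≤ 2 ^ L → C * (a * L ^ 2) ≤ b →
    C * (a ^ (3 * n + 4) * L ^ (3 * n + 3)) ≤ b ^ (n + 2) * lam 1 ^ (n + 1) →
    plethMult a b (n + 3) lam ≤ plethMult b a (n + 3) lam :=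
  all_wide_log_of n (all_mix_log n)

end Vale.Agent.P181.FR
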