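import Vale.Agent.P181.R2.H425.Deep

set_option autoImplicit false

open scoped TensorProduct

namespace Vale.Agent.P181.FR

open Vale.Agent.P181 Vale.Agent.P181.H280

/-- Y4, literal. -/
def Y4P : Prop := ∀ {m i : ℕ} (_hi : 3 ≤ i) (_him : i ≤ m) {ε : ℝ} (_hε : 0 < ε),
    ∃ C : ℝ, 0 < C ∧ ∀ (a b : ℕ) (g : ℕ → ℕ), C * a ≤ b →
    ∑ j ∈ Finset.Icc 1 m, j * g j = a * b →
    C * (a : ℝ) ^ (1 + ε) ≤ g 2 → C * (a : ℝ) ^ (1 + ε) ≤ g i →
    C * (a : ℝ) ^ (3 + ε) ≤ (g 2 : ℝ) * g i →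
    plethMult a b m (gw m g) ≤ plethMult b a m (gw m g)

/-- Y5, literal. -/
def Y5P : Prop := ∀ {m i : ℕ} (_hi : 3 ≤ i) (_him : i ≤ m) {ε : ℝ} (_hε : 0 < ε),
    ∃ C : ℝ, 0 < C ∧ ∀ (a b : ℕ) (g : ℕ → ℕ), C * a ≤ b →
    ∑ j ∈ Finset.Icc 1 m, j * g j = a * b → C * (a : ℝ) ^ (3 / 2 + ε) ≤ g i →
    plethMult a b m (gw m g) ≤ plethMult b a m (gw m g)

open W11

/-- Y6 from Y4 and Y5. -/
theorem all_mix_of (Y4 : Y4P) (Y5 : Y5P) (n : ℕ) {ε : ℝ} (hε : 0 < ε) : ∃ C : ℝ, 0 < C ∧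
    ∀ (a b : ℕ) (lam : Fin (n + 3) → ℕ), C * a ≤ b → C * (a : ℝ) ^ (1 + ε) ≤ lam 2 →
    C * (a : ℝ) ^ (3 + ε) ≤ (lam 1 : ℝ) * lam 2 →
    plethMult a b (n + 3) lam ≤ plethMult b a (n + 3) lam := by
  classical
  have hε2 : 0 < ε / 2 := by linarith
  choose! C4 hC4 using (fun i (h : 3 ≤ i ∧ i ≤ n + 3) => Y4 h.1 h.2 hε)
  choose! C5 hC5 using (fun i (h : 3 ≤ i ∧ i ≤ n + 3) => Y5 h.1 h.2 hε2)
  obtain ⟨D, hD⟩ : ∃ D : ℝ, D = ∑ i ∈ Finset.range (n + 4), (|C4 i| + |C5 i|) + 1 := ⟨_, rfl⟩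
  have hterm : ∀ i, i ≤ n + 3 → |C4 i| + |C5 i| ≤ D := fun i hi => by
    have h1 : |C4 i| + |C5 i| ≤ ∑ i ∈ Finset.range (n + 4), (|C4 i| + |C5 i|) :=
      Finset.single_le_sum (f := fun i => |C4 i| + |C5 i|)
        (fun _ _ => add_nonneg (abs_nonneg _) (abs_nonneg _)) (Finset.mem_range.2 (by omega))
    linarith
  have hD1 : 1 ≤ D := by
    have : 0 ≤ ∑ i ∈ Finset.range (n + 4), (|C4 i| + |C5 i|) :=
      Finset.sum_nonneg (fun _ _ => add_nonneg (abs_nonneg _) (abs_nonneg _))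
    linarith
  have h4 : ∀ i, i ≤ n + 3 → C4 i ≤ D := fun i hi => by
    have := hterm i hi
    have := le_abs_self (C4 i)
    have := abs_nonneg (C5 i)
    linarith
  have h5 : ∀ i, i ≤ n + 3 → C5 i ≤ D := fun i hi => by
    have := hterm i hi
    have := le_abs_self (C5 i)
    have := abs_nonneg (C4 i)
    linarith
  have hn0 : (0 : ℝ) ≤ n := Nat.cast_nonneg n
  obtain ⟨q, hq⟩ : ∃ q : ℝ, q = (n : ℝ) + 1 := ⟨_, rfl⟩
  have hq1 : 1 ≤ q := by rw [hq]; linarith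
  refine ⟨2 * (q * D) + 2 * (q * D) ^ 2, by positivity, fun a b lam hab h2 h12 => ?_⟩
  have hqD : 1 ≤ q * D := one_le_mul_of_one_le_of_one_le hq1 hD1
  have hDq : D ≤ q * D := le_mul_of_one_le_left (by linarith) hq1
  have hsq : 0 ≤ (q * D) ^ 2 := sq_nonneg _
  have hDab : D * a ≤ b := by
    refine le_trans (mul_le_mul_of_nonneg_right ?_ (Nat.cast_nonneg a)) hab
    linarith
  by_cases hz : plethMult a b (n + 3) lam = 0
  · rw [hz]
    exact Nat.zero_le _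
  have hne : hwSpace lam (plethAct a b (n + 3)) ≠ ⊥ := by
    intro h
    apply hz
    rw [plethMult, h, finrank_bot]
  obtain ⟨x, hx, hx0⟩ := Submodule.exists_mem_ne_zero_of_ne_bot hne
  have hanti := hw_antitone hx hx0
  have hsum : ∑ i, lam i = a * b := hw_sum hx hx0
  have hsg : ∑ j ∈ Finset.Icc 1 (n + 3), j * gap lam j = a * b := by
    rw [sum_gap hanti, hsum]
  have ha0 : (0 : ℝ) ≤ a := Nat.cast_nonneg a
  -- the largest gap below the second row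
  obtain ⟨i, hi, hsup⟩ := Finset.exists_mem_eq_sup (Finset.Icc 3 (n + 3))
    ⟨3, Finset.mem_Icc.2 ⟨le_refl 3, by omega⟩⟩ (gap lam)
  rw [Finset.mem_Icc] at hi
  have hmax : ∀ j, 3 ≤ j → j ≤ n + 3 → gap lam j ≤ gap lam i := fun j h3 hj => by
    rw [← hsup]
    exact Finset.le_sup (f := gap lam) (Finset.mem_Icc.2 ⟨h3, hj⟩)
  have hlam2 : lam 2 = ∑ j ∈ Finset.Ioc 2 (n + 3), gap lam j := by
    rw [ext_eq hanti _ (by omega), ext, dif_pos (by omega)]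
    congr 1
  have hlam1 : lam 1 = gap lam 2 + lam 2 := by
    have h1 : lam 1 = ∑ j ∈ Finset.Ioc 1 (n + 3), gap lam j := by
      rw [ext_eq hanti _ (by omega), ext, dif_pos (by omega)]
      congr 1
    rw [h1, hlam2]
    rw [← Finset.sum_Ioc_consecutive _ (show 1 ≤ 2 by omega) (show 2 ≤ n + 3 by omega)]
    congr 1
  have hgi : (lam 2 : ℝ) ≤ q * gap lam i := by
    have h1 : lam 2 ≤ (n + 1) * gap lam i := by
      rw [hlam2]
      calc ∑ j ∈ Finset.Ioc 2 (n + 3), gap lam j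
          ≤ ∑ _j ∈ Finset.Ioc 2 (n + 3), gap lam i := by
            apply Finset.sum_le_sum
            intro j hj
            rw [Finset.mem_Ioc] at hj
            exact hmax j (by omega) hj.2
        _ = (n + 1) * gap lam i := by
            rw [Finset.sum_const, Nat.card_Ioc, smul_eq_mul]
            congr 1
    rw [hq]
    exact_mod_cast h1
  have hlam1' : (lam 1 : ℝ) = gap lam 2 + lam 2 := by exact_mod_cast hlam1
  have hA1 : 0 ≤ (a : ℝ) ^ (1 + ε) := Real.rpow_nonneg ha0 _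
  have hA3 : 0 ≤ (a : ℝ) ^ (3 + ε) := Real.rpow_nonneg ha0 _
  have hl2 : (0 : ℝ) ≤ lam 2 := Nat.cast_nonneg _
  have hl1 : (0 : ℝ) ≤ lam 1 := Nat.cast_nonneg _
  have hg2 : (0 : ℝ) ≤ gap lam 2 := Nat.cast_nonneg _
  have hgi0 : (0 : ℝ) ≤ gap lam i := Nat.cast_nonneg _
  by_cases hc : (lam 1 : ℝ) ≤ 2 * gap lam 2
  · -- the mixed case
    have k1 : D * (a : ℝ) ^ (1 + ε) ≤ gap lam 2 := by
      have t1 : 2 * (D * (a : ℝ) ^ (1 + ε)) ≤ lam 2 := by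
        refine le_trans ?_ h2
        have : 2 * D ≤ 2 * (q * D) + 2 * (q * D) ^ 2 := by linarith
        nlinarith
      linarith
    have k2 : D * (a : ℝ) ^ (1 + ε) ≤ gap lam i := by
      have t1 : q * (D * (a : ℝ) ^ (1 + ε)) ≤ q * gap lam i := by
        refine le_trans ?_ (h2.trans hgi)
        have : q * D ≤ 2 * (q * D) + 2 * (q * D) ^ 2 := by linarith
        nlinarith
      exact le_of_mul_le_mul_left t1 (by linarith)
    have k3 : D * (a : ℝ) ^ (3 + ε) ≤ (gap lam 2 : ℝ) * gap lam i := by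
      have t1 : 2 * q * (D * (a : ℝ) ^ (3 + ε)) ≤ 2 * q * ((gap lam 2 : ℝ) * gap lam i) := by
        calc 2 * q * (D * (a : ℝ) ^ (3 + ε)) = (2 * (q * D)) * (a : ℝ) ^ (3 + ε) := by ring
          _ ≤ (2 * (q * D) + 2 * (q * D) ^ 2) * (a : ℝ) ^ (3 + ε) :=
              mul_le_mul_of_nonneg_right (by linarith) hA3
          _ ≤ (lam 1 : ℝ) * lam 2 := h12
          _ ≤ (2 * gap lam 2) * (q * gap lam i) := mul_le_mul hc hgi hl2 (by positivity)
          _ = 2 * q * ((gap lam 2 : ℝ) * gap lam i) := by ring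
      exact le_of_mul_le_mul_left t1 (by linarith)
    have h1 := (hC4 i hi).2 a b (gap lam)
      ((mul_le_mul_of_nonneg_right (h4 i hi.2) ha0).trans hDab) hsg
      ((mul_le_mul_of_nonneg_right (h4 i hi.2) hA1).trans k1)
      ((mul_le_mul_of_nonneg_right (h4 i hi.2) hA1).trans k2)
      ((mul_le_mul_of_nonneg_right (h4 i hi.2) hA3).trans k3)
    rwa [gw_gap hanti] at h1
  · -- the pure case
    push Not at hc
    have k0 : (lam 1 : ℝ) ≤ 2 * lam 2 := by linarith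
    have hA5 : 0 ≤ (a : ℝ) ^ (3 / 2 + ε / 2) := Real.rpow_nonneg ha0 _
    have e5 : ((a : ℝ) ^ (3 / 2 + ε / 2)) ^ 2 = (a : ℝ) ^ (3 + ε) := by
      rw [← Real.rpow_natCast, ← Real.rpow_mul ha0]
      congr 1
      push_cast
      ring
    have k1 : (q * (D * (a : ℝ) ^ (3 / 2 + ε / 2))) ^ 2 ≤ (q * gap lam i) ^ 2 := by
      have t1 : (lam 2 : ℝ) ^ 2 ≤ (q * gap lam i) ^ 2 := pow_le_pow_left₀ hl2 hgi 2
      have t2 : 2 * (q * D) ^ 2 * (a : ℝ) ^ (3 + ε) ≤ 2 * (lam 2 : ℝ) ^ 2 := by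
        calc 2 * (q * D) ^ 2 * (a : ℝ) ^ (3 + ε)
            ≤ (2 * (q * D) + 2 * (q * D) ^ 2) * (a : ℝ) ^ (3 + ε) :=
              mul_le_mul_of_nonneg_right (by linarith) hA3
          _ ≤ (lam 1 : ℝ) * lam 2 := h12
          _ ≤ 2 * lam 2 * lam 2 := mul_le_mul_of_nonneg_right k0 hl2
          _ = 2 * (lam 2 : ℝ) ^ 2 := by ring
      have t3 : (q * (D * (a : ℝ) ^ (3 / 2 + ε / 2))) ^ 2 = (q * D) ^ 2 * (a : ℝ) ^ (3 + ε) := by
        rw [← e5]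
        ring
      rw [t3]
      linarith
    have k2 : q * (D * (a : ℝ) ^ (3 / 2 + ε / 2)) ≤ q * gap lam i :=
      (pow_le_pow_iff_left₀ (by positivity) (by positivity) (by norm_num)).1 k1
    have k3 : D * (a : ℝ) ^ (3 / 2 + ε / 2) ≤ gap lam i := le_of_mul_le_mul_left k2 (by linarith)
    have h1 := (hC5 i hi).2 a b (gap lam)
      ((mul_le_mul_of_nonneg_right (h5 i hi.2) ha0).trans hDab) hsg
      ((mul_le_mul_of_nonneg_right (h5 i hi.2) hA5).trans k3)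
    rwa [gw_gap hanti] at h1

end Vale.Agent.P181.FR
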